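/-
Row 56 (S0077, S0078): Bourgain–Kalai threshold theorem without ε.
Definitions shared by all files of `Crest/Agent/Lib/BK/`. See BLUEPRINT.md in this folder.
-/
import Mathlib
import Crest.Prelude.Def_FinProb
import Crest.Prelude.Def_HypergraphCube

set_option autoImplicit false

namespace Crest.Agent.BK

open Finset

/-- Real indicator of a proposition (classical, so no decidability diamonds in statements). -/
noncomputable def ind (P : Prop) : ℝ := by classical exact if P then 1 else 0

@[simp] lemma ind_true {P : Prop} (h : P) : ind P = 1 := by simp [ind, h]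
@[simp] lemma ind_false {P : Prop} (h : ¬ P) : ind P = 0 := by simp [ind, h]
lemma ind_nonneg (P : Prop) : 0 ≤ ind P := by by_cases h : P <;> simp [h]
lemma ind_le_one (P : Prop) : ind P ≤ 1 := by by_cases h : P <;> simp [h]
lemma ind_sq (P : Prop) : ind P ^ 2 = ind P := by by_cases h : P <;> simp [h]

section Cube

variable {ι : Type*} [Fintype ι] [DecidableEq ι]

/-- Expectation under independent coins of bias `p`. -/
noncomputable def ex (p : ℝ) (g : (ι → Bool) → ℝ) : ℝ :=
  ∑ x, Crest.FinProb.bernoulliWeight p x * g x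

/-- `σ = √(p(1-p))`. -/
noncomputable def sig (p : ℝ) : ℝ := Real.sqrt (p * (1 - p))

/-- The one-coordinate normalised character `(b - p)/σ`. -/
noncomputable def chi1 (p : ℝ) (b : Bool) : ℝ := ((if b then (1 : ℝ) else 0) - p) / sig p

/-- The Fourier character `χ_S` of the `p`-biased cube. -/
noncomputable def chi (p : ℝ) (S : Finset ι) (x : ι → Bool) : ℝ := ∏ i ∈ S, chi1 p (x i)

/-- The Fourier coefficient `ĝ(S)`. -/
noncomputable def coeff (p : ℝ) (g : (ι → Bool) → ℝ) (S : Finset ι) : ℝ :=
  ex p (fun x => g x * chi p S x)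

/-- The noise form `∑ ρ^{2|S|} ĝ(S)²` with `ρ² = σ/2`. -/
noncomputable def Qf (p : ℝ) (g : (ι → Bool) → ℝ) : ℝ :=
  ∑ S : Finset ι, (sig p / 2) ^ S.card * coeff p g S ^ 2

/-- The 0-1 real value of a Boolean function. -/
noncomputable def bv (f : (ι → Bool) → Bool) (x : ι → Bool) : ℝ := ind (f x = true)

/-- Discrete derivative at coordinate `u`. -/
noncomputable def deriv1 (g : (ι → Bool) → ℝ) (u : ι) (x : ι → Bool) : ℝ :=
  g (Function.update x u true) - g (Function.update x u false)

/-- The pivotal influence. -/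
noncomputable def piv (p : ℝ) (f : (ι → Bool) → Bool) (u : ι) : ℝ :=
  ex p (fun x => ind (f (Function.update x u true) ≠ f (Function.update x u false)))

/-- The total pivotal influence. -/
noncomputable def totInf (p : ℝ) (f : (ι → Bool) → Bool) : ℝ := ∑ u, piv p f u

/-- Overwrite the coordinates outside `R` of `x` by those of `z`. -/
def glue (R : Finset ι) (x z : ι → Bool) : ι → Bool := fun i => if i ∈ R then x i else z i

/-- The fibre of `f` over `z`: only the coordinates in `R` of the argument matter. -/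
def fib (R : Finset ι) (f : (ι → Bool) → Bool) (z : ι → Bool) : (ι → Bool) → Bool :=
  fun x => f (glue R x z)

/-- The Fourier coefficient `c_U(z)` of the fibre over `z`. -/
noncomputable def cU (p : ℝ) (R : Finset ι) (f : (ι → Bool) → Bool) (U : Finset ι)
    (z : ι → Bool) : ℝ := coeff p (bv (fib R f z)) U

/-- Pivotal influence of `u` in the fibre over `z`. -/
noncomputable def pz (p : ℝ) (R : Finset ι) (f : (ι → Bool) → Bool) (u : ι) (z : ι → Bool) : ℝ :=
  piv p (fib R f z) u

/-- Total influence (over `u ∈ R`) of the fibre over `z`. -/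
noncomputable def Iz (p : ℝ) (R : Finset ι) (f : (ι → Bool) → Bool) (z : ι → Bool) : ℝ :=
  ∑ u ∈ R, pz p R f u z

/-- The set of `τ`-influential coordinates of the fibre over `z`. -/
noncomputable def J (p : ℝ) (R : Finset ι) (f : (ι → Bool) → Bool) (τ : ℝ) (z : ι → Bool) :
    Finset ι := by
  classical exact R.filter (fun u => τ ≤ pz p R f u z)

/-- `s_U = P_z[ Iz ≤ w ∧ U ⊆ J(z) ]`. -/
noncomputable def sU (p : ℝ) (R : Finset ι) (f : (ι → Bool) → Bool) (τ w : ℝ) (U : Finset ι) : ℝ :=
  ex p (fun z => ind (Iz p R f z ≤ w ∧ U ⊆ J p R f τ z))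

end Cube

section Hyper

open Crest.CombinatoricsR.HypergraphCube

variable {n r : ℕ}

/-- The edge set `R_c = {e : ∑_{v ∈ e} c v = 0}` of a colouring `c` with values in `ZMod B`. -/
def Rc {B : ℕ} (c : Fin n → ZMod B) : Finset (HyperedgeSlot n r) :=
  Finset.univ.filter (fun e => ∑ v ∈ e.1, c v = 0)

/-- `NewSeq U t`: `U` contains edges `e₀, …, e_{t-1}` with vertices `v i ∈ e i` such that `v i`
lies in no earlier edge. -/
def NewSeq (U : Finset (HyperedgeSlot n r)) (t : ℕ) : Prop :=
  ∃ (e : Fin t → HyperedgeSlot n r) (v : Fin t → Fin n),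
    (∀ i, e i ∈ U) ∧ (∀ i, v i ∈ (e i).1) ∧ (∀ i j, j < i → v i ∉ (e j).1)

end Hyper

end Crest.Agent.BK
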