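/-
Row 56: the biased cube: Parseval, (2→4) hypercontractivity, small-support bound (Step 0).
-/
import Crest.Agent.Lib.BK.Defs

set_option autoImplicit false
set_option linter.unusedSectionVars false
set_option linter.unusedSimpArgs false
set_option linter.unusedVariables false

namespace Crest.Agent.BK

open Finset

variable {ι : Type*} [Fintype ι] [DecidableEq ι] {p : ℝ}

lemma sig_pos (hp0 : 0 < p) (hp1 : p < 1) : 0 < sig p :=
  Real.sqrt_pos.mpr (mul_pos hp0 (by linarith))

lemma sig_sq (hp0 : 0 < p) (hp1 : p < 1) : sig p ^ 2 = p * (1 - p) :=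
  Real.sq_sqrt (mul_pos hp0 (by linarith)).le

lemma sig_le (hp0 : 0 < p) (hp1 : p < 1) : sig p ≤ 1 / 2 := by
  have h := sig_sq hp0 hp1
  have h0 := (sig_pos hp0 hp1).le
  nlinarith [sq_nonneg (p - 1 / 2)]

/-- Weights are positive. -/
lemma weight_pos (hp0 : 0 < p) (hp1 : p < 1) (x : ι → Bool) :
    0 < Crest.FinProb.bernoulliWeight p x := by
  unfold Crest.FinProb.bernoulliWeight
  refine Finset.prod_pos fun i _ => ?_
  split_ifs <;> linarith

/-- Sum of a product over all assignments. -/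
lemma sum_prod_assign (ψ : ι → Bool → ℝ) :
    ∑ x : ι → Bool, ∏ i, ψ i (x i) = ∏ i, (ψ i true + ψ i false) := by
  have h := (Finset.prod_univ_sum (fun _ : ι => (Finset.univ : Finset Bool)) ψ)
  simp only [Fintype.piFinset_univ] at h
  rw [← h]
  refine Finset.prod_congr rfl fun i _ => ?_
  simp [Fintype.univ_bool, add_comm]

lemma sum_weight' (hp0 : 0 < p) (hp1 : p < 1) :
    ∑ x : ι → Bool, Crest.FinProb.bernoulliWeight p x = 1 := by
  unfold Crest.FinProb.bernoulliWeight
  rw [sum_prod_assign (fun _ b => if b then p else 1 - p)]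
  simp

lemma ex_const (hp0 : 0 < p) (hp1 : p < 1) (a : ℝ) : ex p (fun _ : ι → Bool => a) = a := by
  unfold ex
  rw [← Finset.sum_mul, sum_weight' hp0 hp1, one_mul]

lemma ex_add (g h : (ι → Bool) → ℝ) : ex p (fun x => g x + h x) = ex p g + ex p h := by
  unfold ex
  rw [← Finset.sum_add_distrib]
  exact Finset.sum_congr rfl fun x _ => by ring

lemma ex_mul_left (a : ℝ) (g : (ι → Bool) → ℝ) : ex p (fun x => a * g x) = a * ex p g := by
  unfold ex
  rw [Finset.mul_sum]
  exact Finset.sum_congr rfl fun x _ => by ring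

lemma ex_sum {α : Type*} (s : Finset α) (g : α → (ι → Bool) → ℝ) :
    ex p (fun x => ∑ a ∈ s, g a x) = ∑ a ∈ s, ex p (g a) := by
  unfold ex
  simp_rw [Finset.mul_sum]
  rw [Finset.sum_comm]

lemma ex_mono (hp0 : 0 < p) (hp1 : p < 1) {g h : (ι → Bool) → ℝ} (hgh : ∀ x, g x ≤ h x) :
    ex p g ≤ ex p h :=
  Finset.sum_le_sum fun x _ => mul_le_mul_of_nonneg_left (hgh x) (weight_pos hp0 hp1 x).le

lemma ex_nonneg (hp0 : 0 < p) (hp1 : p < 1) {g : (ι → Bool) → ℝ} (hg : ∀ x, 0 ≤ g x) :
    0 ≤ ex p g :=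
  Finset.sum_nonneg fun x _ => mul_nonneg (weight_pos hp0 hp1 x).le (hg x)

/-- The coordinate weight. -/
noncomputable def w1 (p : ℝ) (b : Bool) : ℝ := if b then p else 1 - p

lemma weight_eq (x : ι → Bool) :
    Crest.FinProb.bernoulliWeight p x = ∏ i, w1 p (x i) := rfl

/-- Weight of an update. -/
lemma weight_update (hp0 : 0 < p) (hp1 : p < 1) (x : ι → Bool) (u : ι) (b : Bool) :
    Crest.FinProb.bernoulliWeight p (Function.update x u b) * w1 p (x u)
      = Crest.FinProb.bernoulliWeight p x * w1 p b := by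
  classical
  rw [weight_eq, weight_eq]
  rw [← Finset.mul_prod_erase Finset.univ _ (Finset.mem_univ u),
    ← Finset.mul_prod_erase Finset.univ (fun i => w1 p (x i)) (Finset.mem_univ u)]
  have : ∏ i ∈ Finset.univ.erase u, w1 p (Function.update x u b i)
      = ∏ i ∈ Finset.univ.erase u, w1 p (x i) :=
    Finset.prod_congr rfl fun i hi => by
      rw [Function.update_of_ne (Finset.ne_of_mem_erase hi)]
  rw [this, Function.update_self]
  ring

/-- Integrating out one coordinate. -/
lemma ex_update (hp0 : 0 < p) (hp1 : p < 1) (g : (ι → Bool) → ℝ) (u : ι) :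
    ex p g = ex p (fun x => p * g (Function.update x u true)
      + (1 - p) * g (Function.update x u false)) := by
  classical
  -- pair each `x` with its flip at `u`
  unfold ex
  have key : ∀ b : Bool, ∑ x : ι → Bool, Crest.FinProb.bernoulliWeight p x * g (Function.update x u b)
      = ∑ x : ι → Bool, (if x u = b then Crest.FinProb.bernoulliWeight p x * g x else 0) / w1 p b := by
    intro b
    -- sum over the fibre: x ↦ update x u b is 2-to-1 with weights summing to the conditional weight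
    have hsplit : ∀ y : ι → Bool,
        ∑ x : ι → Bool, (if Function.update x u b = y then Crest.FinProb.bernoulliWeight p x else 0)
          = (if y u = b then Crest.FinProb.bernoulliWeight p y / w1 p b else 0) := by
      intro y
      by_cases hy : y u = b
      · rw [if_pos hy]
        -- the two preimages: `y` and its flip
        have hmem : ∀ x : ι → Bool, Function.update x u b = y ↔ x = y ∨ x = Function.update y u (!b) := by
          intro x
          constructor
          · intro h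
            by_cases hxu : x u = b
            · left
              funext i
              by_cases hi : i = u
              · subst hi; rw [hxu, hy]
              · rw [← h, Function.update_of_ne hi]
            · right
              funext i
              by_cases hi : i = u
              · subst hi
                rw [Function.update_self]
                cases hb : b <;> cases hx : x i <;> simp_all
              · rw [Function.update_of_ne hi, ← h, Function.update_of_ne hi]
          · rintro (rfl | rfl)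
            · funext i
              by_cases hi : i = u
              · subst hi; rw [Function.update_self, hy]
              · rw [Function.update_of_ne hi]
            · funext i
              by_cases hi : i = u
              · subst hi; rw [Function.update_self, hy]
              · rw [Function.update_of_ne hi, Function.update_of_ne hi]
        have hne : y ≠ Function.update y u (!b) := by
          intro h
          have := congrFun h u
          rw [Function.update_self, hy] at this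
          cases b <;> simp at this
        have hfilter : (Finset.univ.filter fun x : ι → Bool => Function.update x u b = y)
            = {y, Function.update y u (!b)} := by
          ext x
          simp [hmem]
        rw [← Finset.sum_filter, hfilter, Finset.sum_pair hne]
        have h1 := weight_update hp0 hp1 y u (!b)
        have hwb : w1 p b ≠ 0 := by
          unfold w1; split_ifs <;> linarith
        have hwnb : w1 p (!b) + w1 p b = 1 := by
          cases b <;> simp [w1]
        have hyu : w1 p (y u) = w1 p b := by rw [hy]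
        rw [hyu] at h1
        rw [eq_div_iff hwb]
        linear_combination h1 + Crest.FinProb.bernoulliWeight p y * hwnb
      · rw [if_neg hy]
        refine Finset.sum_eq_zero fun x _ => ?_
        rw [if_neg]
        intro h
        apply hy
        rw [← h, Function.update_self]
    calc ∑ x : ι → Bool, Crest.FinProb.bernoulliWeight p x * g (Function.update x u b)
        = ∑ x : ι → Bool, ∑ y : ι → Bool,
            (if Function.update x u b = y then Crest.FinProb.bernoulliWeight p x else 0) * g y := by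
          refine Finset.sum_congr rfl fun x _ => ?_
          rw [Finset.sum_eq_single (Function.update x u b)]
          · simp
          · intro y _ hy; rw [if_neg (Ne.symm hy), zero_mul]
          · intro h; exact absurd (Finset.mem_univ _) h
      _ = ∑ y : ι → Bool, (∑ x : ι → Bool,
            (if Function.update x u b = y then Crest.FinProb.bernoulliWeight p x else 0)) * g y := by
          rw [Finset.sum_comm]
          refine Finset.sum_congr rfl fun y _ => ?_
          rw [Finset.sum_mul]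
      _ = _ := by
          refine Finset.sum_congr rfl fun y _ => ?_
          rw [hsplit]
          by_cases hy : y u = b
          · rw [if_pos hy, if_pos hy]; ring
          · rw [if_neg hy, if_neg hy]; simp
  have e1 : ∑ x : ι → Bool, Crest.FinProb.bernoulliWeight p x *
        (p * g (Function.update x u true) + (1 - p) * g (Function.update x u false))
      = p * ∑ x : ι → Bool, Crest.FinProb.bernoulliWeight p x * g (Function.update x u true)
        + (1 - p) * ∑ x : ι → Bool, Crest.FinProb.bernoulliWeight p x * g (Function.update x u false) := by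
    rw [Finset.mul_sum, Finset.mul_sum, ← Finset.sum_add_distrib]
    exact Finset.sum_congr rfl fun x _ => by ring
  rw [e1, key true, key false, Finset.mul_sum, Finset.mul_sum, ← Finset.sum_add_distrib]
  refine Finset.sum_congr rfl fun x _ => ?_
  have hp' : (1 - p) ≠ 0 := by linarith
  have hp'' : p ≠ 0 := hp0.ne'
  cases hx : x u
  · simp [w1]; field_simp
  · simp [w1]; field_simp

/-! ### one coordinate -/

lemma chi1_true (p : ℝ) : chi1 p true = (1 - p) / sig p := by simp [chi1]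
lemma chi1_false (p : ℝ) : chi1 p false = -p / sig p := by simp [chi1]

lemma mom1 (hp0 : 0 < p) (hp1 : p < 1) : p * chi1 p true + (1 - p) * chi1 p false = 0 := by
  rw [chi1_true, chi1_false]; field_simp; ring

lemma mom2 (hp0 : 0 < p) (hp1 : p < 1) : p * chi1 p true ^ 2 + (1 - p) * chi1 p false ^ 2 = 1 := by
  have hσ := (sig_pos hp0 hp1).ne'
  rw [chi1_true, chi1_false, div_pow, div_pow, sig_sq hp0 hp1]
  have h1 : p ≠ 0 := hp0.ne'
  have h2 : 1 - p ≠ 0 := by linarith
  field_simp
  ring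

lemma mom3 (hp0 : 0 < p) (hp1 : p < 1) :
    p * chi1 p true ^ 3 + (1 - p) * chi1 p false ^ 3 = (1 - 2 * p) / sig p := by
  have hσ := (sig_pos hp0 hp1).ne'
  have hs := sig_sq hp0 hp1
  rw [chi1_true, chi1_false, div_pow, div_pow]
  field_simp
  have : sig p ^ 2 = p * (1 - p) := hs
  nlinarith

lemma mom4 (hp0 : 0 < p) (hp1 : p < 1) :
    sig p ^ 2 * (p * chi1 p true ^ 4 + (1 - p) * chi1 p false ^ 4) = 1 - 3 * sig p ^ 2 := by
  have hσ := (sig_pos hp0 hp1).ne'
  have hs := sig_sq hp0 hp1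
  rw [chi1_true, chi1_false, div_pow, div_pow]
  have h4 : sig p ^ 4 = (p * (1 - p)) ^ 2 := by rw [← hs]; ring
  have h1 : p ≠ 0 := hp0.ne'
  have h2 : 1 - p ≠ 0 := by linarith
  rw [h4, hs]
  field_simp
  ring

/-- `w₁(a)(1 + χ(a)χ(b)) = δ_{ab}`. -/
lemma kernel1 (hp0 : 0 < p) (hp1 : p < 1) (a b : Bool) :
    w1 p a * (1 + chi1 p a * chi1 p b) = if a = b then 1 else 0 := by
  have hσ := (sig_pos hp0 hp1).ne'
  have hs := sig_sq hp0 hp1
  have h1 : p ≠ 0 := hp0.ne'
  have h2 : 1 - p ≠ 0 := by linarith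
  cases a <;> cases b <;> simp only [w1, chi1_true, chi1_false, if_true, if_false, Bool.false_eq_true,
    reduceCtorEq, ↓reduceIte]
  · rw [show (-p / sig p) * (-p / sig p) = p ^ 2 / sig p ^ 2 by field_simp, hs]
    field_simp; ring
  · rw [show (-p / sig p) * ((1 - p) / sig p) = - (p * (1 - p)) / sig p ^ 2 by field_simp, hs]
    rw [neg_div, div_self (mul_ne_zero h1 h2)]; ring
  · rw [show ((1 - p) / sig p) * (-p / sig p) = - (p * (1 - p)) / sig p ^ 2 by field_simp, hs]
    rw [neg_div, div_self (mul_ne_zero h1 h2)]; ring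
  · rw [show ((1 - p) / sig p) * ((1 - p) / sig p) = (1 - p) ^ 2 / sig p ^ 2 by field_simp, hs]
    field_simp; ring

/-- The reproducing kernel. -/
lemma kernel (hp0 : 0 < p) (hp1 : p < 1) (x y : ι → Bool) :
    Crest.FinProb.bernoulliWeight p x * ∑ S : Finset ι, chi p S x * chi p S y
      = if x = y then 1 else 0 := by
  have h1 : ∑ S : Finset ι, chi p S x * chi p S y = ∏ i, (1 + chi1 p (x i) * chi1 p (y i)) := by
    rw [Finset.prod_one_add, Finset.powerset_univ]
    refine Finset.sum_congr rfl fun S _ => ?_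
    unfold chi
    rw [Finset.prod_mul_distrib]
  rw [h1, weight_eq, ← Finset.prod_mul_distrib]
  simp_rw [kernel1 hp0 hp1]
  by_cases hxy : x = y
  · subst hxy; simp
  · rw [if_neg hxy]
    obtain ⟨i, hi⟩ := Function.ne_iff.mp hxy
    exact Finset.prod_eq_zero (Finset.mem_univ i) (if_neg hi)

/-- Fourier inversion. -/
lemma sum_coeff_chi (hp0 : 0 < p) (hp1 : p < 1) (g : (ι → Bool) → ℝ) (y : ι → Bool) :
    ∑ S, coeff p g S * chi p S y = g y := by
  unfold coeff ex
  calc ∑ S : Finset ι, (∑ x, Crest.FinProb.bernoulliWeight p x * (g x * chi p S x)) * chi p S y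
      = ∑ x, g x * (Crest.FinProb.bernoulliWeight p x * ∑ S : Finset ι, chi p S x * chi p S y) := by
        simp_rw [Finset.sum_mul, Finset.mul_sum]
        rw [Finset.sum_comm]
        refine Finset.sum_congr rfl fun x _ => Finset.sum_congr rfl fun S _ => ?_
        ring
    _ = g y := by
        simp_rw [kernel hp0 hp1]
        simp

/-- Plancherel. -/
lemma sum_coeff_mul (hp0 : 0 < p) (hp1 : p < 1) (g h : (ι → Bool) → ℝ) :
    ∑ S, coeff p g S * coeff p h S = ex p (fun x => g x * h x) := by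
  have : ∀ x, h x = ∑ S, coeff p h S * chi p S x := fun x => (sum_coeff_chi hp0 hp1 h x).symm
  unfold ex
  calc ∑ S, coeff p g S * coeff p h S
      = ∑ S, coeff p h S * ∑ x, Crest.FinProb.bernoulliWeight p x * (g x * chi p S x) := by
        refine Finset.sum_congr rfl fun S _ => ?_
        unfold coeff ex
        ring
    _ = ∑ x, Crest.FinProb.bernoulliWeight p x * (g x * ∑ S, coeff p h S * chi p S x) := by
        simp_rw [Finset.mul_sum]
        rw [Finset.sum_comm]
        refine Finset.sum_congr rfl fun x _ => Finset.sum_congr rfl fun S _ => ?_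
        ring
    _ = _ := by
        refine Finset.sum_congr rfl fun x _ => ?_
        rw [sum_coeff_chi hp0 hp1]

/-- Parseval. -/
lemma sum_coeff_sq (hp0 : 0 < p) (hp1 : p < 1) (g : (ι → Bool) → ℝ) :
    ∑ S, coeff p g S ^ 2 = ex p (fun x => g x ^ 2) := by
  have := sum_coeff_mul hp0 hp1 g g
  simp only [sq]
  exact this

/-! ### Cauchy–Schwarz -/

lemma ex_cs (hp0 : 0 < p) (hp1 : p < 1) (f g : (ι → Bool) → ℝ) :
    ex p (fun x => f x * g x) ^ 2 ≤ ex p (fun x => f x ^ 2) * ex p (fun x => g x ^ 2) := by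
  unfold ex
  refine Finset.sum_sq_le_sum_mul_sum_of_sq_le_mul _ (fun x _ => ?_) (fun x _ => ?_) (fun x _ => ?_)
  · exact mul_nonneg (weight_pos hp0 hp1 x).le (sq_nonneg _)
  · exact mul_nonneg (weight_pos hp0 hp1 x).le (sq_nonneg _)
  · exact le_of_eq (by ring)

/-! ### independence of a coordinate -/

lemma ex_mul_coord (hp0 : 0 < p) (hp1 : p < 1) (u : ι) (ψ : Bool → ℝ) (G : (ι → Bool) → ℝ)
    (hG : ∀ x b, G (Function.update x u b) = G x) :
    ex p (fun x => ψ (x u) * G x) = (p * ψ true + (1 - p) * ψ false) * ex p G := by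
  rw [ex_update hp0 hp1 _ u, ← ex_mul_left]
  congr 1; funext x
  simp only [Function.update_self, hG]
  ring

lemma chi_update (p : ℝ) {S : Finset ι} {u : ι} (hu : u ∉ S) (x : ι → Bool) (b : Bool) :
    chi p S (Function.update x u b) = chi p S x := by
  unfold chi
  refine Finset.prod_congr rfl fun i hi => ?_
  rw [Function.update_of_ne (by rintro rfl; exact hu hi)]

/-! ### (2 → 4) -/

/-- The partial sum over subsets of `A`. -/
noncomputable def hA (p ρ : ℝ) (A : Finset ι) (a : Finset ι → ℝ) (x : ι → Bool) : ℝ :=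
  ∑ S ∈ A.powerset, ρ ^ S.card * a S * chi p S x

lemma hA_update (p ρ : ℝ) {A : Finset ι} (a : Finset ι → ℝ) {u : ι} (hu : u ∉ A) (x : ι → Bool)
    (b : Bool) : hA p ρ A a (Function.update x u b) = hA p ρ A a x := by
  unfold hA
  refine Finset.sum_congr rfl fun S hS => ?_
  rw [chi_update p (fun h => hu (Finset.mem_powerset.mp hS h))]

lemma hA_insert (p ρ : ℝ) {A : Finset ι} (a : Finset ι → ℝ) {i : ι} (hi : i ∉ A) (x : ι → Bool) :
    hA p ρ (insert i A) a x
      = hA p ρ A a x + ρ * chi1 p (x i) * hA p ρ A (fun S => a (insert i S)) x := by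
  unfold hA
  rw [Finset.sum_powerset_insert hi, Finset.mul_sum]
  congr 1
  refine Finset.sum_congr rfl fun S hS => ?_
  have hiS : i ∉ S := fun h => hi (Finset.mem_powerset.mp hS h)
  rw [Finset.card_insert_of_notMem hiS]
  unfold chi
  rw [Finset.prod_insert hiS]
  ring

/-- The numerical inequality closing the induction. -/
lemma hyper_numeric {σ ρ m3 m4 α β P Q : ℝ} (hσ : 0 < σ) (hσ2 : σ ≤ 1 / 2) (hρ0 : 0 ≤ ρ)
    (hρ : ρ ^ 2 = σ / 2) (hm3 : m3 = (1 - 2 * p) / σ) (hp0 : 0 < p) (hp1 : p < 1)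
    (hm4 : σ ^ 2 * m4 = 1 - 3 * σ ^ 2) (hα : 0 ≤ α) (hβ : 0 ≤ β) (hP0 : 0 ≤ P) (hP : P ≤ α * β)
    (hQ : Q ^ 2 ≤ P * β ^ 2) (E4v : ℝ) (hv0 : 0 ≤ E4v) (hv : E4v ≤ β ^ 2) :
    α ^ 2 + 6 * ρ ^ 2 * P + 4 * ρ ^ 3 * m3 * Q + ρ ^ 4 * m4 * E4v ≤ (α + β) ^ 2 := by
  have h6 : 6 * ρ ^ 2 * P ≤ 3 / 2 * (α * β) := by
    rw [hρ]
    have : 6 * (σ / 2) ≤ 3 / 2 := by linarith
    nlinarith
  have hρ4 : ρ ^ 4 * m4 = (1 - 3 * σ ^ 2) / 4 := by
    have : ρ ^ 4 = σ ^ 2 / 4 := by
      have : ρ ^ 4 = (ρ ^ 2) ^ 2 := by ring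
      rw [this, hρ]; ring
    rw [this]
    have : σ ^ 2 / 4 * m4 = (σ ^ 2 * m4) / 4 := by ring
    rw [this, hm4]
  have h7 : ρ ^ 4 * m4 * E4v ≤ 1 / 4 * β ^ 2 := by
    rw [hρ4]
    have h1 : (1 - 3 * σ ^ 2) / 4 ≤ 1 / 4 := by nlinarith [sq_nonneg σ]
    have h0 : 0 ≤ (1 - 3 * σ ^ 2) / 4 := by nlinarith
    calc (1 - 3 * σ ^ 2) / 4 * E4v ≤ 1 / 4 * E4v := mul_le_mul_of_nonneg_right h1 hv0
      _ ≤ 1 / 4 * β ^ 2 := by linarith
  -- the odd term: `|4ρ³m₃| ≤ 1`
  have hρle : 2 * ρ ≤ 1 := by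
    have : (2 * ρ) ^ 2 ≤ 1 := by nlinarith
    nlinarith
  have hc : 4 * ρ ^ 3 * m3 = 2 * ρ * (1 - 2 * p) := by
    rw [hm3]
    have : ρ ^ 3 = ρ * (σ / 2) := by rw [← hρ]; ring
    rw [this]; field_simp; ring
  have h8 : 4 * ρ ^ 3 * m3 * Q ≤ (α * β + β ^ 2) / 2 := by
    rw [hc]
    -- `Q² ≤ αβ·β²`
    have hQ' : Q ^ 2 ≤ (α * β) * β ^ 2 := hQ.trans (mul_le_mul_of_nonneg_right hP (sq_nonneg _))
    have habs : |2 * ρ * (1 - 2 * p)| ≤ 1 := by
      rw [abs_le]
      constructor <;> nlinarith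
    have hQabs : (2 * ρ * (1 - 2 * p) * Q) ^ 2 ≤ (α * β) * β ^ 2 := by
      have : (2 * ρ * (1 - 2 * p)) ^ 2 ≤ 1 := (sq_le_one_iff_abs_le_one _).mpr habs
      rw [mul_pow]
      nlinarith [sq_nonneg Q]
    -- `2√(αβ·β²) ≤ αβ + β²`
    have h9 : (2 * (2 * ρ * (1 - 2 * p) * Q)) ^ 2 ≤ (α * β + β ^ 2) ^ 2 := by
      nlinarith [sq_nonneg (α * β - β ^ 2)]
    have h10 : 0 ≤ α * β + β ^ 2 := by positivity
    have := abs_le_of_sq_le_sq' h9 h10
    linarith [this.2]
  nlinarith [mul_nonneg hα hβ, sq_nonneg β]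

lemma hyperA (hp0 : 0 < p) (hp1 : p < 1) (A : Finset ι) :
    ∀ a : Finset ι → ℝ, ex p (fun x => hA p (Real.sqrt (sig p / 2)) A a x ^ 4)
      ≤ (∑ S ∈ A.powerset, a S ^ 2) ^ 2 := by
  have hσ := sig_pos hp0 hp1
  have hσ2 := sig_le hp0 hp1
  set ρ := Real.sqrt (sig p / 2) with hρdef
  have hρ0 : 0 ≤ ρ := Real.sqrt_nonneg _
  have hρ : ρ ^ 2 = sig p / 2 := Real.sq_sqrt (by positivity)
  induction A using Finset.induction_on with
  | empty =>
    intro a
    have : ∀ x : ι → Bool, hA p ρ ∅ a x = a ∅ := by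
      intro x; simp [hA, chi]
    simp_rw [this]
    rw [ex_const hp0 hp1]
    simp
    nlinarith [sq_nonneg (a ∅)]
  | insert i A hi ih =>
    intro a
    set u := hA p ρ A a with hu
    set v := hA p ρ A (fun S => a (insert i S)) with hv
    set α := ∑ S ∈ A.powerset, a S ^ 2 with hα
    set β := ∑ S ∈ A.powerset, a (insert i S) ^ 2 with hβ
    have hα0 : 0 ≤ α := Finset.sum_nonneg fun S _ => sq_nonneg _
    have hβ0 : 0 ≤ β := Finset.sum_nonneg fun S _ => sq_nonneg _
    have hu4 : ex p (fun x => u x ^ 4) ≤ α ^ 2 := ih a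
    have hv4 : ex p (fun x => v x ^ 4) ≤ β ^ 2 := ih (fun S => a (insert i S))
    have huind : ∀ x b, u (Function.update x i b) = u x := hA_update p ρ a hi
    have hvind : ∀ x b, v (Function.update x i b) = v x := hA_update p ρ _ hi
    have hsum : ∑ S ∈ (insert i A).powerset, a S ^ 2 = α + β := by
      rw [Finset.sum_powerset_insert hi]
    rw [hsum]
    -- expand
    have hexp : ∀ x : ι → Bool, hA p ρ (insert i A) a x ^ 4
        = u x ^ 4 + chi1 p (x i) * (4 * ρ * (u x ^ 3 * v x))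
          + (chi1 p (x i) ^ 2) * (6 * ρ ^ 2 * (u x ^ 2 * v x ^ 2))
          + (chi1 p (x i) ^ 3) * (4 * ρ ^ 3 * (u x * v x ^ 3))
          + (chi1 p (x i) ^ 4) * (ρ ^ 4 * (v x ^ 4)) := by
      intro x
      rw [hA_insert p ρ a hi x]
      ring
    simp_rw [hexp]
    have e1 := ex_mul_coord (ι := ι) hp0 hp1 i (fun b => chi1 p b) (fun x => 4 * ρ * (u x ^ 3 * v x))
      (fun x b => by simp only [huind, hvind])
    have e2 := ex_mul_coord (ι := ι) hp0 hp1 i (fun b => chi1 p b ^ 2)
      (fun x => 6 * ρ ^ 2 * (u x ^ 2 * v x ^ 2)) (fun x b => by simp only [huind, hvind])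
    have e3 := ex_mul_coord (ι := ι) hp0 hp1 i (fun b => chi1 p b ^ 3)
      (fun x => 4 * ρ ^ 3 * (u x * v x ^ 3)) (fun x b => by simp only [huind, hvind])
    have e4 := ex_mul_coord (ι := ι) hp0 hp1 i (fun b => chi1 p b ^ 4)
      (fun x => ρ ^ 4 * (v x ^ 4)) (fun x b => by simp only [huind, hvind])
    rw [mom1 hp0 hp1, zero_mul] at e1
    rw [mom2 hp0 hp1, one_mul] at e2
    rw [mom3 hp0 hp1] at e3
    rw [ex_add, ex_add, ex_add, ex_add, e1, e2, e3, e4, ex_mul_left, ex_mul_left, ex_mul_left]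
    -- Cauchy–Schwarz for the mixed moments
    set P := ex p (fun x => u x ^ 2 * v x ^ 2) with hP
    set Q := ex p (fun x => u x * v x ^ 3) with hQ
    set E4v := ex p (fun x => v x ^ 4) with hE4v
    have hE4v0 : 0 ≤ E4v := ex_nonneg hp0 hp1 fun x => by positivity
    have hE4u0 : 0 ≤ ex p (fun x => u x ^ 4) := ex_nonneg hp0 hp1 fun x => by positivity
    have hP0 : 0 ≤ P := ex_nonneg hp0 hp1 fun x => by positivity
    have hPle : P ≤ α * β := by
      have h := ex_cs hp0 hp1 (fun x => u x ^ 2) (fun x => v x ^ 2)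
      have h1 : (fun x => (u x ^ 2) ^ 2) = fun x => u x ^ 4 := by funext x; ring
      have h2 : (fun x => (v x ^ 2) ^ 2) = fun x => v x ^ 4 := by funext x; ring
      simp only [h1, h2] at h
      have h3 : ex p (fun x => u x ^ 4) * ex p (fun x => v x ^ 4) ≤ α ^ 2 * β ^ 2 :=
        mul_le_mul hu4 hv4 hE4v0 (sq_nonneg _)
      have h4 : P ^ 2 ≤ (α * β) ^ 2 := by rw [mul_pow]; exact h.trans h3
      exact (abs_le_of_sq_le_sq' h4 (mul_nonneg hα0 hβ0)).2
    have hQle : Q ^ 2 ≤ P * β ^ 2 := by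
      have h := ex_cs hp0 hp1 (fun x => u x * v x) (fun x => v x ^ 2)
      have h1 : (fun x => u x * v x * v x ^ 2) = fun x => u x * v x ^ 3 := by funext x; ring
      have h2 : (fun x => (u x * v x) ^ 2) = fun x => u x ^ 2 * v x ^ 2 := by funext x; ring
      have h3 : (fun x => (v x ^ 2) ^ 2) = fun x => v x ^ 4 := by funext x; ring
      simp only [h1, h2, h3] at h
      exact h.trans (mul_le_mul_of_nonneg_left hv4 hP0)
    have hm4 := mom4 hp0 hp1
    have hnum := hyper_numeric hσ hσ2 hρ0 hρ rfl hp0 hp1 hm4 hα0 hβ0 hP0 hPle hQle E4v hE4v0 hv4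
    have hfin : ex p (fun x => u x ^ 4) + 0 + 6 * ρ ^ 2 * P
        + (1 - 2 * p) / sig p * (4 * ρ ^ 3 * Q)
        + (p * chi1 p true ^ 4 + (1 - p) * chi1 p false ^ 4) * (ρ ^ 4 * E4v) ≤ (α + β) ^ 2 := by
      nlinarith [hnum, hu4]
    simpa using hfin

/-- The (2→4) hypercontractive inequality with `ρ² = σ/2`. -/
lemma hyper24 (hp0 : 0 < p) (hp1 : p < 1) (a : Finset ι → ℝ) :
    ex p (fun x => (∑ S, Real.sqrt (sig p / 2) ^ S.card * a S * chi p S x) ^ 4)
      ≤ (∑ S, a S ^ 2) ^ 2 := by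
  have := hyperA hp0 hp1 (Finset.univ : Finset ι) a
  simpa [hA, Finset.powerset_univ] using this

/-- The small-support bound. -/
lemma Qf_le (hp0 : 0 < p) (hp1 : p < 1) (g : (ι → Bool) → ℝ) {A s : ℝ} (hA : ∀ x, |g x| ≤ A)
    (hs : ex p (fun x => ind (g x ≠ 0)) ≤ s) : Qf p g ≤ A ^ 2 * (s * Real.sqrt s) := by
  have hσ := sig_pos hp0 hp1
  have hσ2 : 0 ≤ sig p / 2 := by positivity
  set ρ := Real.sqrt (sig p / 2) with hρdef
  have hρ : ρ ^ 2 = sig p / 2 := Real.sq_sqrt hσ2
  have hA0 : 0 ≤ A := (abs_nonneg _).trans (hA (fun _ => true))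
  set h : (ι → Bool) → ℝ := fun x => ∑ S, ρ ^ S.card * (ρ ^ S.card * coeff p g S) * chi p S x with hh
  set Q := Qf p g with hQ
  have hQ0 : 0 ≤ Q := Finset.sum_nonneg fun S _ => by positivity
  have hs0 : 0 ≤ s := by
    refine le_trans ?_ hs
    exact ex_nonneg hp0 hp1 fun x => ind_nonneg _
  -- `E h⁴ ≤ Q²`
  have h4 : ex p (fun x => h x ^ 4) ≤ Q ^ 2 := by
    have := hyper24 hp0 hp1 (fun S => ρ ^ S.card * coeff p g S)
    have e : ∑ S : Finset ι, (ρ ^ S.card * coeff p g S) ^ 2 = Q := by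
      rw [hQ]; unfold Qf
      refine Finset.sum_congr rfl fun S _ => ?_
      rw [mul_pow, ← pow_mul, mul_comm S.card 2, pow_mul, hρ]
    rw [e] at this
    exact this
  -- `Q = E[g h]`
  have hgh : Q = ex p (fun x => g x * h x) := by
    rw [hQ]; unfold Qf
    have e : ∀ S : Finset ι, (sig p / 2) ^ S.card * coeff p g S ^ 2
        = ρ ^ S.card * (ρ ^ S.card * coeff p g S) * coeff p g S := by
      intro S
      rw [← hρ, ← pow_mul, mul_comm 2, pow_mul]
      ring
    simp_rw [e]
    simp only [hh, Finset.mul_sum]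
    rw [ex_sum]
    refine Finset.sum_congr rfl fun S _ => ?_
    have e2 : (fun x => g x * (ρ ^ S.card * (ρ ^ S.card * coeff p g S) * chi p S x))
        = fun x => (ρ ^ S.card * (ρ ^ S.card * coeff p g S)) * (g x * chi p S x) := by
      funext x; ring
    rw [e2, ex_mul_left]
    rfl
  -- the cut-off
  set B : (ι → Bool) → ℝ := fun x => ind (g x ≠ 0) with hB
  have hB2 : ∀ x, B x ^ 2 = B x := fun x => ind_sq _
  have hB0 : ∀ x, 0 ≤ B x := fun x => ind_nonneg _
  set PB := ex p B with hPB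
  have hPB0 : 0 ≤ PB := ex_nonneg hp0 hp1 hB0
  have hPBs : PB ≤ s := hs
  set a := ex p (fun x => B x * |h x|) with ha
  set b := ex p (fun x => B x * h x ^ 2) with hb
  have ha0 : 0 ≤ a := ex_nonneg hp0 hp1 fun x => mul_nonneg (hB0 x) (abs_nonneg _)
  have hb0 : 0 ≤ b := ex_nonneg hp0 hp1 fun x => mul_nonneg (hB0 x) (sq_nonneg _)
  have hE4 : 0 ≤ ex p (fun x => h x ^ 4) := ex_nonneg hp0 hp1 fun x => by positivity
  have h1 : a ^ 2 ≤ PB * b := by
    have := ex_cs hp0 hp1 B (fun x => B x * |h x|)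
    have e1 : (fun x => B x * (B x * |h x|)) = fun x => B x * |h x| := by
      funext x
      rw [← mul_assoc, ← sq, hB2]
    have e2 : (fun x => B x ^ 2) = B := by funext x; exact hB2 x
    have e3 : (fun x => (B x * |h x|) ^ 2) = fun x => B x * h x ^ 2 := by
      funext x
      rw [mul_pow, hB2, sq_abs]
    simp only [e1, e2, e3] at this
    exact this
  have h2 : b ^ 2 ≤ PB * ex p (fun x => h x ^ 4) := by
    have := ex_cs hp0 hp1 B (fun x => h x ^ 2)
    have e2 : (fun x => B x ^ 2) = B := by funext x; exact hB2 x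
    have e3 : (fun x => (h x ^ 2) ^ 2) = fun x => h x ^ 4 := by funext x; ring
    simp only [e2, e3] at this
    exact this
  have h3 : Q ≤ A * a := by
    rw [hgh, ha, ← ex_mul_left]
    apply ex_mono hp0 hp1
    intro x
    by_cases hgx : g x = 0
    · simp only [hgx, zero_mul]
      exact mul_nonneg hA0 (mul_nonneg (hB0 x) (abs_nonneg _))
    · have hBx : B x = 1 := ind_true hgx
      rw [hBx, one_mul]
      calc g x * h x ≤ |g x * h x| := le_abs_self _
        _ = |g x| * |h x| := abs_mul _ _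
        _ ≤ A * |h x| := mul_le_mul_of_nonneg_right (hA x) (abs_nonneg _)
  -- conclusion
  by_cases hQpos : Q = 0
  · rw [hQpos]; positivity
  have hQp : 0 < Q := lt_of_le_of_ne hQ0 (Ne.symm hQpos)
  have h5 : a ^ 4 ≤ s ^ 3 * Q ^ 2 := by
    have h6 : a ^ 2 ≤ s * b := h1.trans (mul_le_mul_of_nonneg_right hPBs hb0)
    have h7 : b ^ 2 ≤ s * Q ^ 2 :=
      h2.trans (mul_le_mul hPBs h4 hE4 hs0)
    have h8 : (a ^ 2) ^ 2 ≤ (s * b) ^ 2 := pow_le_pow_left₀ (sq_nonneg _) h6 2
    calc a ^ 4 = (a ^ 2) ^ 2 := by ring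
      _ ≤ (s * b) ^ 2 := h8
      _ = s ^ 2 * b ^ 2 := by ring
      _ ≤ s ^ 2 * (s * Q ^ 2) := mul_le_mul_of_nonneg_left h7 (sq_nonneg _)
      _ = s ^ 3 * Q ^ 2 := by ring
  have h9 : Q ^ 4 ≤ A ^ 4 * (s ^ 3 * Q ^ 2) := by
    have : Q ^ 4 ≤ (A * a) ^ 4 := pow_le_pow_left₀ hQ0 h3 4
    calc Q ^ 4 ≤ (A * a) ^ 4 := this
      _ = A ^ 4 * a ^ 4 := by ring
      _ ≤ _ := mul_le_mul_of_nonneg_left h5 (by positivity)
  have h10 : Q ^ 2 ≤ A ^ 4 * s ^ 3 := by
    have hQ2 : 0 < Q ^ 2 := by positivity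
    have : Q ^ 2 * Q ^ 2 ≤ (A ^ 4 * s ^ 3) * Q ^ 2 := by nlinarith
    exact le_of_mul_le_mul_right this hQ2
  have h11 : (A ^ 2 * (s * Real.sqrt s)) ^ 2 = A ^ 4 * s ^ 3 := by
    have : Real.sqrt s ^ 2 = s := Real.sq_sqrt hs0
    calc (A ^ 2 * (s * Real.sqrt s)) ^ 2 = A ^ 4 * s ^ 2 * Real.sqrt s ^ 2 := by ring
      _ = _ := by rw [this]; ring
  have h12 : 0 ≤ A ^ 2 * (s * Real.sqrt s) := by positivity
  exact (abs_le_of_sq_le_sq' (h10.trans_eq h11.symm) h12).2

/-- Level truncation. -/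
lemma sum_low_le (hp0 : 0 < p) (hp1 : p < 1) (g : (ι → Bool) → ℝ) (𝒮 : Finset (Finset ι)) (m : ℕ)
    (h𝒮 : ∀ S ∈ 𝒮, S.card ≤ m) :
    ∑ S ∈ 𝒮, coeff p g S ^ 2 ≤ (2 / sig p) ^ m * Qf p g := by
  have hσ := sig_pos hp0 hp1
  have hσ2 := sig_le hp0 hp1
  have hx0 : 0 < sig p / 2 := by positivity
  have hx1 : sig p / 2 ≤ 1 := by linarith
  have h1 : ∀ S ∈ 𝒮, coeff p g S ^ 2
      ≤ (2 / sig p) ^ m * ((sig p / 2) ^ S.card * coeff p g S ^ 2) := by
    intro S hS
    have h2 : (sig p / 2) ^ m ≤ (sig p / 2) ^ S.card := pow_le_pow_of_le_one hx0.le hx1 (h𝒮 S hS)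
    have h3 : (2 / sig p) ^ m * (sig p / 2) ^ m = 1 := by
      rw [← mul_pow]
      have : 2 / sig p * (sig p / 2) = 1 := by field_simp
      rw [this, one_pow]
    have h4 : 1 ≤ (2 / sig p) ^ m * (sig p / 2) ^ S.card := by
      rw [← h3]
      exact mul_le_mul_of_nonneg_left h2 (by positivity)
    calc coeff p g S ^ 2 = 1 * coeff p g S ^ 2 := (one_mul _).symm
      _ ≤ ((2 / sig p) ^ m * (sig p / 2) ^ S.card) * coeff p g S ^ 2 :=
          mul_le_mul_of_nonneg_right h4 (sq_nonneg _)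
      _ = _ := by ring
  refine (Finset.sum_le_sum h1).trans ?_
  rw [← Finset.mul_sum]
  apply mul_le_mul_of_nonneg_left _ (by positivity)
  unfold Qf
  exact Finset.sum_le_sum_of_subset_of_nonneg (Finset.subset_univ _)
    fun S _ _ => by positivity

end Crest.Agent.BK
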