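/-
Row 56, Step 5: the colouring lemma (see BLUEPRINT.md in this folder).
-/
import Crest.Agent.Lib.BK.Defs

set_option autoImplicit false

namespace Crest.Agent.BK

open Finset
open Crest.CombinatoricsR.HypergraphCube

lemma col_ind_mul_ind (P Q : Prop) : ind P * ind Q = ind (P ∧ Q) := by
  by_cases hP : P <;> by_cases hQ : Q <;> simp [hP, hQ]

lemma col_ind_le_ind {P Q : Prop} (h : P → Q) : ind P ≤ ind Q := by
  by_cases hP : P
  · rw [ind_true hP, ind_true (h hP)]
  · rw [ind_false hP]; exact ind_nonneg _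

lemma col_sum_ind_eq_card {Ω : Type*} [Fintype Ω] (P : Ω → Prop) [DecidablePred P] :
    ∑ c, ind (P c) = ((univ.filter P).card : ℝ) := by
  rw [Finset.natCast_card_filter]
  refine Finset.sum_congr rfl fun c _ => ?_
  by_cases h : P c <;> simp [h]

/-! ### Abstract second-moment calculus over a finite set `Ω`. -/
section Abstract

variable {Ω ι : Type*} [Fintype Ω]

/-- Number of the events `I e`, `e ∈ T`, holding at `c`. -/
noncomputable def cntZ (I : ι → Ω → Prop) (T : Finset ι) (c : Ω) : ℝ := ∑ e ∈ T, ind (I e c)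

lemma cntZ_nonneg (I : ι → Ω → Prop) (T : Finset ι) (c : Ω) : 0 ≤ cntZ I T c :=
  Finset.sum_nonneg fun _ _ => ind_nonneg _

lemma sum_cntZ (I : ι → Ω → Prop) (T : Finset ι) {a : ℝ}
    (h1 : ∀ e ∈ T, ∑ c, ind (I e c) = a) : ∑ c, cntZ I T c = T.card * a := by
  unfold cntZ
  rw [Finset.sum_comm, Finset.sum_congr rfl h1]
  simp

lemma sum_cntZ_sq [DecidableEq ι] (I : ι → Ω → Prop) (T : Finset ι) {a b : ℝ}
    (h1 : ∀ e ∈ T, ∑ c, ind (I e c) = a)
    (h2 : ∀ e ∈ T, ∀ e' ∈ T, e ≠ e' → ∑ c, ind (I e c) * ind (I e' c) = b) :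
    ∑ c, cntZ I T c ^ 2 = T.card * (a + ((T.card : ℝ) - 1) * b) := by
  have key : ∀ e ∈ T, ∑ e' ∈ T, ∑ c, ind (I e c) * ind (I e' c)
      = a + ((T.card : ℝ) - 1) * b := by
    intro e he
    rw [← Finset.add_sum_erase T _ he]
    have h0 : ∑ c, ind (I e c) * ind (I e c) = a := by
      rw [← h1 e he]; exact Finset.sum_congr rfl fun c _ => by rw [← sq, ind_sq]
    rw [h0, Finset.sum_congr rfl (fun e' he' => h2 e he e' (Finset.mem_of_mem_erase he')
      (Finset.ne_of_mem_erase he').symm)]
    have hc : 1 ≤ T.card := Finset.card_pos.mpr ⟨e, he⟩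
    simp only [Finset.sum_const, nsmul_eq_mul, Finset.card_erase_of_mem he]
    rw [Nat.cast_sub hc]
    simp
  have h3 : ∑ c, cntZ I T c ^ 2 = ∑ e ∈ T, ∑ e' ∈ T, ∑ c, ind (I e c) * ind (I e' c) := by
    unfold cntZ
    simp_rw [sq, Finset.sum_mul_sum]
    rw [Finset.sum_comm]
    refine Finset.sum_congr rfl fun e _ => ?_
    rw [Finset.sum_comm]
  rw [h3, Finset.sum_congr rfl key]
  simp only [Finset.sum_const, nsmul_eq_mul]

/-- Cauchy-Schwarz: the probability that one of the events of `T` holds. -/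
lemma active_lower [DecidableEq ι] (I : ι → Ω → Prop) (T : Finset ι) {a b : ℝ}
    (ha : 0 < a) (hab : ((T.card : ℝ) - 1) * b ≤ a / 16)
    (h1 : ∀ e ∈ T, ∑ c, ind (I e c) = a)
    (h2 : ∀ e ∈ T, ∀ e' ∈ T, e ≠ e' → ∑ c, ind (I e c) * ind (I e' c) = b) :
    (16 / 17) * (T.card * a) ≤ ∑ c, ind (∃ e ∈ T, I e c) := by
  rcases T.eq_empty_or_nonempty with rfl | hT
  · simp only [Finset.card_empty, Nat.cast_zero, zero_mul, mul_zero]
    exact Finset.sum_nonneg fun _ _ => ind_nonneg _
  have hcard : (0 : ℝ) < T.card := by exact_mod_cast Finset.card_pos.mpr hT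
  set A : ℝ := ∑ c, ind (∃ e ∈ T, I e c) with hA
  have hZ : ∀ c, cntZ I T c = ind (∃ e ∈ T, I e c) * cntZ I T c := by
    intro c
    by_cases h : ∃ e ∈ T, I e c
    · simp [h]
    · have : cntZ I T c = 0 := by
        unfold cntZ
        refine Finset.sum_eq_zero fun e he => ?_
        exact ind_false fun hI => h ⟨e, he, hI⟩
      simp [this]
  have hCS := Finset.sum_mul_sq_le_sq_mul_sq (Finset.univ : Finset Ω)
    (fun c => ind (∃ e ∈ T, I e c)) (fun c => cntZ I T c)
  rw [Finset.sum_congr rfl (fun c _ => (hZ c).symm), sum_cntZ I T h1, sum_cntZ_sq I T h1 h2] at hCS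
  have hA2 : ∑ c, ind (∃ e ∈ T, I e c) ^ 2 = A := by
    rw [hA]; exact Finset.sum_congr rfl fun c _ => ind_sq _
  rw [hA2] at hCS
  have hA0 : 0 ≤ A := Finset.sum_nonneg fun _ _ => ind_nonneg _
  have h4 : ((T.card : ℝ) * a) ^ 2 ≤ A * (T.card * (a * (17 / 16))) := by
    refine hCS.trans ?_
    apply mul_le_mul_of_nonneg_left _ hA0
    apply mul_le_mul_of_nonneg_left _ hcard.le
    linarith
  have hta : 0 < (T.card : ℝ) * a := mul_pos hcard ha
  have h5 : ((T.card : ℝ) * a) * ((T.card : ℝ) * a) ≤ ((T.card : ℝ) * a) * (A * (17 / 16)) := by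
    calc _ = ((T.card : ℝ) * a) ^ 2 := by ring
      _ ≤ _ := h4
      _ = _ := by ring
  have h6 := le_of_mul_le_mul_left h5 hta
  linarith

/-- The central count. -/
theorem core_count {V : Type*} [Fintype V] [DecidableEq V] [DecidableEq ι]
    (I : ι → Ω → Prop) (S : Finset ι) (last : ι → V) {N q : ℝ} (hN : 0 < N) (hq : 0 < q)
    (h1 : ∀ e ∈ S, ∑ c, ind (I e c) = N * q)
    (h2 : ∀ e ∈ S, ∀ e' ∈ S, e ≠ e' → ∑ c, ind (I e c) * ind (I e' c) = N * q ^ 2)
    (hm : 1 ≤ (S.card : ℝ) * q)
    (hdeg : ∀ v, ((S.filter fun e => last e = v).card : ℝ) * q ≤ 1 / 16)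
    (hcardN : (Fintype.card Ω : ℝ) = N) :
    N / 50 ≤ ∑ c, ind (((S.card : ℝ) * q) / 2 ≤
        ∑ v, ind (∃ e ∈ S.filter (fun e => last e = v), I e c)
      ∧ cntZ I S c ≤ 8 * ((S.card : ℝ) * q)) := by
  set μ : ℝ := (S.card : ℝ) * q with hμ
  have hμ0 : 0 < μ := by linarith
  set X : Ω → ℝ := fun c => ∑ v, ind (∃ e ∈ S.filter (fun e => last e = v), I e c) with hX
  set Y : Ω → ℝ := cntZ I S with hY
  -- (a)
  have ha : (16 / 17) * (μ * N) ≤ ∑ c, X c := by
    have h3 : ∀ v, (16 / 17) * (((S.filter fun e => last e = v).card : ℝ) * (N * q)) ≤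
        ∑ c, ind (∃ e ∈ S.filter (fun e => last e = v), I e c) := by
      intro v
      refine active_lower I _ (mul_pos hN hq) ?_
        (fun e he => h1 e (Finset.mem_of_mem_filter e he))
        (fun e he e' he' hne => h2 e (Finset.mem_of_mem_filter e he) e'
          (Finset.mem_of_mem_filter e' he') hne)
      have h7 := hdeg v
      have h8 : ((((S.filter fun e => last e = v).card : ℝ)) - 1) * q ≤ 1 / 16 := by nlinarith
      calc _ = (((((S.filter fun e => last e = v).card : ℝ)) - 1) * q) * (N * q) := by ring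
        _ ≤ (1 / 16) * (N * q) := by
            apply mul_le_mul_of_nonneg_right h8 (mul_pos hN hq).le
        _ = _ := by ring
    have h4 : ∑ v, ((S.filter fun e => last e = v).card : ℝ) = S.card := by
      rw [Finset.card_eq_sum_card_fiberwise (f := last) (t := Finset.univ) (fun _ _ => Finset.mem_coe.mpr (Finset.mem_univ _))]
      push_cast
      rfl
    calc (16 / 17) * (μ * N) = ∑ v, (16 / 17) * (((S.filter fun e => last e = v).card : ℝ) * (N * q)) := by
          rw [← Finset.mul_sum, ← Finset.sum_mul, h4, hμ]; ring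
      _ ≤ ∑ v, ∑ c, ind (∃ e ∈ S.filter (fun e => last e = v), I e c) :=
          Finset.sum_le_sum fun v _ => h3 v
      _ = ∑ c, X c := by rw [Finset.sum_comm]
  -- (b)
  have hb : ∀ c, X c ≤ Y c := by
    intro c
    have h5 : ∀ v, ind (∃ e ∈ S.filter (fun e => last e = v), I e c) ≤
        ∑ e ∈ S.filter (fun e => last e = v), ind (I e c) := by
      intro v
      by_cases h : ∃ e ∈ S.filter (fun e => last e = v), I e c
      · obtain ⟨e, he, hI⟩ := h
        rw [ind_true ⟨e, he, hI⟩]
        calc (1 : ℝ) = ind (I e c) := (ind_true hI).symm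
          _ ≤ _ := Finset.single_le_sum (f := fun e => ind (I e c)) (fun _ _ => ind_nonneg _) he
      · rw [ind_false h]
        exact Finset.sum_nonneg fun _ _ => ind_nonneg _
    calc X c ≤ ∑ v, ∑ e ∈ S.filter (fun e => last e = v), ind (I e c) :=
          Finset.sum_le_sum fun v _ => h5 v
      _ = Y c := Finset.sum_fiberwise S last _
  -- (c)
  have hc : ∑ c, Y c ^ 2 ≤ 2 * N * μ ^ 2 := by
    rw [hY, sum_cntZ_sq I S h1 h2]
    have h6 : ((S.card : ℝ)) * (N * q + ((S.card : ℝ) - 1) * (N * q ^ 2))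
        = N * (μ + μ * (μ - q)) := by rw [hμ]; ring
    rw [h6]
    have h7 : μ + μ * (μ - q) ≤ 2 * μ ^ 2 := by nlinarith
    nlinarith
  -- (d)
  set A : Ω → Prop := fun c => μ / 2 ≤ X c ∧ Y c ≤ 8 * μ with hA
  have hd : ∀ c, X c ≤ μ / 2 + 8 * μ * ind (A c) + Y c ^ 2 / (8 * μ) := by
    intro c
    have hY0 : 0 ≤ Y c := cntZ_nonneg I S c
    have h9 : 0 ≤ Y c ^ 2 / (8 * μ) := by positivity
    by_cases hAc : A c
    · rw [ind_true hAc]
      have := hb c
      have := hAc.2
      nlinarith
    · rw [ind_false hAc]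
      by_cases h10 : μ / 2 ≤ X c
      · have h11 : 8 * μ < Y c := by
          by_contra h12
          exact hAc ⟨h10, not_lt.mp h12⟩
        have h13 : Y c ≤ Y c ^ 2 / (8 * μ) := by
          rw [le_div_iff₀ (by positivity)]
          nlinarith
        have := hb c
        linarith
      · push Not at h10
        linarith
  -- (e)
  have hsumOne : ∑ _c : Ω, (1 : ℝ) = Fintype.card Ω := by simp
  have he : ∑ c, X c ≤ (Fintype.card Ω : ℝ) * (μ / 2) + 8 * μ * ∑ c, ind (A c)
      + (2 * N * μ ^ 2) / (8 * μ) := by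
    calc ∑ c, X c ≤ ∑ c, (μ / 2 + 8 * μ * ind (A c) + Y c ^ 2 / (8 * μ)) :=
          Finset.sum_le_sum fun c _ => hd c
      _ = (Fintype.card Ω : ℝ) * (μ / 2) + 8 * μ * ∑ c, ind (A c)
          + (∑ c, Y c ^ 2) / (8 * μ) := by
          rw [Finset.sum_add_distrib, Finset.sum_add_distrib, ← Finset.mul_sum,
            ← Finset.sum_div univ (fun c => Y c ^ 2)]
          simp
      _ ≤ _ := by
          gcongr
  rw [hcardN] at he
  have h14 : (2 * N * μ ^ 2) / (8 * μ) = N * μ / 4 := by
    field_simp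
    ring
  rw [h14] at he
  have h15 : μ * (N * (16 / 17 - 3 / 4)) ≤ μ * (8 * ∑ c, ind (A c)) := by nlinarith
  have h16 := le_of_mul_le_mul_left h15 hμ0
  show N / 50 ≤ ∑ c, ind (A c)
  linarith

end Abstract

/-! ### Counting colourings -/
section Count

variable {n B : ℕ} [NeZero B]

lemma card_colorings : (Fintype.card (Fin n → ZMod B) : ℝ) = (B : ℝ) ^ n := by
  simp [ZMod.card]

lemma count_one (e : Finset (Fin n)) {w : Fin n} (hw : w ∈ e) (i : ZMod B) :
    ((univ.filter (fun c : Fin n → ZMod B => ∑ v ∈ e, c v = i)).card : ℕ) * B = B ^ n := by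
  classical
  have hshift : ∀ a : ZMod B, (univ.filter (fun c : Fin n → ZMod B => ∑ v ∈ e, c v = a)).card
      = (univ.filter (fun c : Fin n → ZMod B => ∑ v ∈ e, c v = i)).card := by
    intro a
    refine Finset.card_equiv (Equiv.addRight (Pi.single w (i - a))) ?_
    intro c
    simp only [Finset.mem_filter, Finset.mem_univ, true_and, Equiv.coe_addRight, Pi.add_apply]
    rw [Finset.sum_add_distrib, Finset.sum_pi_single', if_pos hw]
    constructor
    · intro h; rw [h]; ring
    · intro h; linear_combination h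
  have h := Finset.card_eq_sum_card_fiberwise (f := fun c : Fin n → ZMod B => ∑ v ∈ e, c v)
    (s := Finset.univ) (t := Finset.univ) (fun _ _ => Finset.mem_coe.mpr (Finset.mem_univ _))
  simp only [Finset.card_univ, Fintype.card_fun, ZMod.card, Fintype.card_fin] at h
  rw [h, Finset.sum_congr rfl (fun a _ => hshift a)]
  simp [ZMod.card, mul_comm]

lemma count_two {e e' : Finset (Fin n)} {w w' : Fin n} (hw : w ∈ e) (hw' : w ∉ e')
    (hv : w' ∈ e') (hv' : w' ∉ e) (i j : ZMod B) :
    ((univ.filter (fun c : Fin n → ZMod B => ∑ v ∈ e, c v = i ∧ ∑ v ∈ e', c v = j)).card : ℕ) * B ^ 2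
      = B ^ n := by
  classical
  have hshift : ∀ a : ZMod B × ZMod B,
      (univ.filter (fun c : Fin n → ZMod B => (∑ v ∈ e, c v, ∑ v ∈ e', c v) = a)).card
      = (univ.filter (fun c : Fin n → ZMod B => ∑ v ∈ e, c v = i ∧ ∑ v ∈ e', c v = j)).card := by
    rintro ⟨a, b⟩
    refine Finset.card_equiv (Equiv.addRight (Pi.single w (i - a) + Pi.single w' (j - b))) ?_
    intro c
    simp only [Finset.mem_filter, Finset.mem_univ, true_and, Equiv.coe_addRight, Pi.add_apply,
      Prod.mk.injEq]
    rw [Finset.sum_add_distrib, Finset.sum_add_distrib, Finset.sum_add_distrib,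
      Finset.sum_add_distrib, Finset.sum_pi_single', Finset.sum_pi_single',
      Finset.sum_pi_single', Finset.sum_pi_single', if_pos hw, if_neg hw', if_pos hv, if_neg hv']
    constructor
    · rintro ⟨h1, h2⟩
      constructor
      · rw [h1]; ring
      · rw [h2]; ring
    · rintro ⟨h1, h2⟩
      constructor
      · linear_combination h1
      · linear_combination h2
  have h := Finset.card_eq_sum_card_fiberwise
    (f := fun c : Fin n → ZMod B => (∑ v ∈ e, c v, ∑ v ∈ e', c v))
    (s := Finset.univ) (t := Finset.univ) (fun _ _ => Finset.mem_coe.mpr (Finset.mem_univ _))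
  simp only [Finset.card_univ, Fintype.card_fun, ZMod.card, Fintype.card_fin] at h
  rw [h, Finset.sum_congr rfl (fun a _ => hshift a)]
  simp [ZMod.card, mul_comm, sq]

lemma col_B_pos : (0 : ℝ) < B := by
  exact_mod_cast Nat.pos_of_ne_zero (NeZero.ne B)

/-- Real form of `count_one`. -/
lemma sum_ind_one (e : Finset (Fin n)) (he : e.Nonempty) (i : ZMod B) :
    ∑ c : Fin n → ZMod B, ind (∑ v ∈ e, c v = i) = (B : ℝ) ^ n * (1 / B) := by
  obtain ⟨w, hw⟩ := he
  classical
  rw [col_sum_ind_eq_card (fun c : Fin n → ZMod B => ∑ v ∈ e, c v = i)]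
  have h := count_one e hw i
  have hB : (0 : ℝ) < B := col_B_pos
  have h' : ((univ.filter (fun c : Fin n → ZMod B => ∑ v ∈ e, c v = i)).card : ℝ) * B = (B : ℝ) ^ n := by
    exact_mod_cast h
  rw [← h']
  field_simp

/-- Real form of `count_two`. -/
lemma sum_ind_two {e e' : Finset (Fin n)} {w w' : Fin n} (hw : w ∈ e) (hw' : w ∉ e')
    (hv : w' ∈ e') (hv' : w' ∉ e) (i j : ZMod B) :
    ∑ c : Fin n → ZMod B, ind (∑ v ∈ e, c v = i) * ind (∑ v ∈ e', c v = j)
      = (B : ℝ) ^ n * (1 / B) ^ 2 := by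
  classical
  simp_rw [col_ind_mul_ind]
  rw [col_sum_ind_eq_card (fun c : Fin n → ZMod B => ∑ v ∈ e, c v = i ∧ ∑ v ∈ e', c v = j)]
  have h := count_two (B := B) hw hw' hv hv' i j
  have hB : (0 : ℝ) < B := col_B_pos
  have h' : ((univ.filter (fun c : Fin n → ZMod B => ∑ v ∈ e, c v = i ∧ ∑ v ∈ e', c v = j)).card : ℝ)
      * (B : ℝ) ^ 2 = (B : ℝ) ^ n := by
    exact_mod_cast h
  rw [← h']
  field_simp

end Count

/-! ### The ordering by decreasing degree -/
section Order

variable {n r : ℕ}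

/-- A sequence from a set of active vertices. -/
lemma newSeq_of_active (U : Finset (HyperedgeSlot n r)) {rk : Fin n → ℕ}
    (hrk : Function.Injective rk) (last : HyperedgeSlot n r → Fin n)
    (hlast : ∀ e, last e ∈ e.1) (hmax : ∀ e, ∀ w ∈ e.1, rk w ≤ rk (last e))
    (A : Finset (Fin n)) (hA : ∀ v ∈ A, ∃ e ∈ U, last e = v) : NewSeq U A.card := by
  classical
  have hT : (A.image rk).card = A.card := Finset.card_image_of_injective A hrk
  let φ := (A.image rk).orderEmbOfFin hT
  have hφ : ∀ i, ∃ v ∈ A, rk v = φ i := by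
    intro i
    obtain ⟨v, hv, hvr⟩ := Finset.mem_image.mp (Finset.orderEmbOfFin_mem (A.image rk) hT i)
    exact ⟨v, hv, hvr⟩
  choose v hvA hv using hφ
  have he : ∀ i, ∃ e ∈ U, last e = v i := fun i => hA _ (hvA i)
  choose e heU he using he
  refine ⟨e, v, heU, ?_, ?_⟩
  · intro i
    rw [← he i]
    exact hlast _
  · intro i j hji hmem
    have h1 := hmax (e j) (v i) hmem
    rw [he j, hv, hv] at h1
    have h2 : φ j < φ i := φ.strictMono hji
    omega

/-- The vertex degree inside `S`. -/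
def vdeg (S : Finset (HyperedgeSlot n r)) (v : Fin n) : ℕ := (S.filter (fun e => v ∈ e.1)).card

lemma sum_vdeg (S : Finset (HyperedgeSlot n r)) : ∑ v, vdeg S v = r * S.card := by
  classical
  unfold vdeg
  simp_rw [Finset.card_filter]
  rw [Finset.sum_comm]
  have : ∀ e ∈ S, (∑ v, if v ∈ e.1 then 1 else 0) = r := by
    intro e _
    rw [← Finset.card_filter, Finset.filter_mem_eq_inter, Finset.univ_inter]
    exact e.2
  rw [Finset.sum_congr rfl this]
  simp [mul_comm]

/-- The rank: smaller rank means larger degree. -/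
def vrk (S : Finset (HyperedgeSlot n r)) (v : Fin n) : ℕ :=
  (S.card + 1 - vdeg S v) * n + v

lemma vdeg_le (S : Finset (HyperedgeSlot n r)) (v : Fin n) : vdeg S v ≤ S.card :=
  Finset.card_le_card (Finset.filter_subset _ _)

lemma vrk_inj (S : Finset (HyperedgeSlot n r)) : Function.Injective (vrk S) := by
  intro v w h
  unfold vrk at h
  have hv := v.2
  have hw := w.2
  set a := S.card + 1 - vdeg S v
  set b := S.card + 1 - vdeg S w
  rcases lt_trichotomy a b with hab | hab | hab
  · have : (a + 1) * n ≤ b * n := Nat.mul_le_mul_right _ hab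
    nlinarith
  · rw [hab] at h
    exact Fin.ext (by omega)
  · have : (b + 1) * n ≤ a * n := Nat.mul_le_mul_right _ hab
    nlinarith

lemma vrk_anti (S : Finset (HyperedgeSlot n r)) {v w : Fin n} (h : vrk S v < vrk S w) :
    vdeg S w ≤ vdeg S v := by
  by_contra hlt
  push Not at hlt
  unfold vrk at h
  have hv := v.2
  have hw := w.2
  have h1 := vdeg_le S v
  have h2 := vdeg_le S w
  have h3 : S.card + 1 - vdeg S w + 1 ≤ S.card + 1 - vdeg S v := by omega
  have h4 : (S.card + 1 - vdeg S w + 1) * n ≤ (S.card + 1 - vdeg S v) * n :=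
    Nat.mul_le_mul_right _ h3
  nlinarith

/-- The degree estimate: each vertex is the last vertex of at most `d` edges of `S`. -/
lemma fibre_card_le (S : Finset (HyperedgeSlot n r)) (hr : 1 ≤ r)
    (last : HyperedgeSlot n r → Fin n)
    (hlast : ∀ e, last e ∈ e.1) (hmax : ∀ e, ∀ w ∈ e.1, vrk S w ≤ vrk S (last e))
    {d : ℕ} (hd : (r * S.card) ^ (r - 1) ≤ d ^ r) (v : Fin n) :
    (S.filter (fun e => last e = v)).card ≤ d := by
  classical
  set Sv := S.filter (fun e => last e = v) with hSv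
  set A := Finset.univ.filter (fun w : Fin n => vrk S w < vrk S v) with hA
  -- (1)
  have h1 : Sv.card ≤ vdeg S v := by
    apply Finset.card_le_card
    intro e he
    simp only [hSv, Finset.mem_filter] at he
    simp only [Finset.mem_filter]
    exact ⟨he.1, he.2 ▸ hlast e⟩
  -- (2)
  have h2 : Sv.card ≤ A.card ^ (r - 1) := by
    have h3 : Sv.card ≤ (A.powersetCard (r - 1)).card := by
      apply Finset.card_le_card_of_injOn (fun e => e.1.erase v)
      · intro e he
        have he' := Finset.mem_filter.mp (Finset.mem_coe.mp he)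
        have hve : v ∈ e.1 := he'.2 ▸ hlast e
        refine Finset.mem_coe.mpr (Finset.mem_powersetCard.mpr ⟨?_, ?_⟩)
        · intro w hw
          have hw1 := Finset.mem_erase.mp hw
          refine Finset.mem_filter.mpr ⟨Finset.mem_univ _, ?_⟩
          have h4 := hmax e w hw1.2
          rw [he'.2] at h4
          have h5 : vrk S w ≠ vrk S v := fun h => hw1.1 (vrk_inj S h)
          omega
        · rw [Finset.card_erase_of_mem hve, e.2]
      · intro e he e' he' heq
        have he1 := Finset.mem_filter.mp (Finset.mem_coe.mp he)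
        have he1' := Finset.mem_filter.mp (Finset.mem_coe.mp he')
        have hve : v ∈ e.1 := he1.2 ▸ hlast e
        have hve' : v ∈ e'.1 := he1'.2 ▸ hlast e'
        apply Subtype.ext
        rw [← Finset.insert_erase hve, ← Finset.insert_erase hve']
        simp only at heq
        rw [heq]
    rw [Finset.card_powersetCard] at h3
    exact h3.trans (Nat.choose_le_pow _ _)
  -- (3)
  have h3 : A.card * vdeg S v ≤ r * S.card := by
    rw [← sum_vdeg S]
    calc A.card * vdeg S v = ∑ _w ∈ A, vdeg S v := by simp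
      _ ≤ ∑ w ∈ A, vdeg S w := by
          apply Finset.sum_le_sum
          intro w hw
          exact vrk_anti S (Finset.mem_filter.mp hw).2
      _ ≤ ∑ w, vdeg S w := Finset.sum_le_sum_of_subset (Finset.subset_univ _)
  by_contra hcon
  push Not at hcon
  have hD : d + 1 ≤ vdeg S v := by omega
  have hSv' : d + 1 ≤ Sv.card := hcon
  rcases Nat.lt_or_ge r 2 with hr2 | hr2
  · have hr1 : r = 1 := by omega
    subst hr1
    simp only [Nat.sub_self, pow_zero, pow_one] at hd h2
    omega
  · have h6 : (A.card * vdeg S v) ^ (r - 1) ≤ d ^ r :=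
      (Nat.pow_le_pow_left h3 _).trans hd
    have h7 : (d + 1) * (d + 1) ^ (r - 1) ≤ A.card ^ (r - 1) * (vdeg S v) ^ (r - 1) :=
      Nat.mul_le_mul (hSv'.trans h2) (Nat.pow_le_pow_left hD _)
    rw [← mul_pow] at h7
    have h8 : (d + 1) ^ r ≤ d ^ r := by
      calc (d + 1) ^ r = (d + 1) * (d + 1) ^ (r - 1) := by
            rw [← pow_succ']; congr 1; omega
        _ ≤ _ := h7
        _ ≤ d ^ r := h6
    have h9 : d ^ r < (d + 1) ^ r := Nat.pow_lt_pow_left (Nat.lt_succ_self d) (by omega)
    omega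

end Order

/-! ### The colouring lemma and the two bad events -/
section Main

variable {n r B : ℕ} [NeZero B]

lemma mem_Rc_iff (c : Fin n → ZMod B) (e : HyperedgeSlot n r) :
    e ∈ Rc c ↔ ∑ v ∈ e.1, c v = 0 := by
  simp [Rc]

/-- Two different slots of the same size: each has a vertex outside the other. -/
lemma exists_vertices {e e' : HyperedgeSlot n r} (hne : e ≠ e') :
    (∃ w, w ∈ e.1 ∧ w ∉ e'.1) ∧ (∃ w', w' ∈ e'.1 ∧ w' ∉ e.1) := by
  classical
  have hnot : ¬ e.1 ⊆ e'.1 := fun h =>
    hne (Subtype.ext (Finset.eq_of_subset_of_card_le h (by rw [e.2, e'.2])))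
  have hnot' : ¬ e'.1 ⊆ e.1 := fun h =>
    hne (Subtype.ext (Finset.eq_of_subset_of_card_le h (by rw [e.2, e'.2])).symm)
  rw [Finset.not_subset] at hnot hnot'
  obtain ⟨w, hw, hw'⟩ := hnot
  obtain ⟨v, hv, hv'⟩ := hnot'
  exact ⟨⟨w, hw, hw'⟩, ⟨v, hv, hv'⟩⟩

lemma sum_ind_Rc (hr : 1 ≤ r) (e : HyperedgeSlot n r) :
    ∑ c : Fin n → ZMod B, ind (e ∈ Rc c) = (B : ℝ) ^ n * (1 / B) := by
  have he : e.1.Nonempty := Finset.card_pos.mp (by rw [e.2]; omega)
  simp_rw [mem_Rc_iff]
  exact sum_ind_one e.1 he 0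

lemma sum_ind_Rc_two {e e' : HyperedgeSlot n r} (hne : e ≠ e') :
    ∑ c : Fin n → ZMod B, ind (e ∈ Rc c) * ind (e' ∈ Rc c) = (B : ℝ) ^ n * (1 / B) ^ 2 := by
  obtain ⟨⟨w, hw, hw'⟩, ⟨v, hv, hv'⟩⟩ := exists_vertices hne
  simp_rw [mem_Rc_iff]
  exact sum_ind_two hw hw' hv hv' 0 0

open Classical in
/-- The colouring lemma. -/
theorem coloring_lemma (hr : 1 ≤ r) (S : Finset (HyperedgeSlot n r)) {d : ℕ}
    (hm : B ≤ S.card) (hd : (r * S.card) ^ (r - 1) ≤ d ^ r) (hdB : 16 * d ≤ B) :
    ((B : ℝ) ^ n) / 50 ≤ ((univ.filter (fun c : Fin n → ZMod B =>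
        ∃ t, NewSeq (S ∩ Rc c) t ∧ S.card ≤ 2 * B * t ∧ B * (S ∩ Rc c).card ≤ 8 * S.card)).card : ℝ) := by
  have hB : (0 : ℝ) < B := col_B_pos
  have hex : ∀ e : HyperedgeSlot n r, ∃ v ∈ e.1, ∀ w ∈ e.1, vrk S w ≤ vrk S v := by
    intro e
    have he : e.1.Nonempty := Finset.card_pos.mp (by rw [e.2]; omega)
    obtain ⟨v, hv, hv'⟩ := Finset.exists_max_image e.1 (vrk S) he
    exact ⟨v, hv, hv'⟩
  choose last hlast hmax using hex
  have hfib := fibre_card_le S hr last hlast hmax hd
  have hq : (0 : ℝ) < 1 / B := by positivity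
  have hN : (0 : ℝ) < (B : ℝ) ^ n := by positivity
  have hm' : 1 ≤ (S.card : ℝ) * (1 / B) := by
    rw [mul_one_div, le_div_iff₀ hB, one_mul]
    exact_mod_cast hm
  have hcore := core_count (Ω := Fin n → ZMod B) (fun e c => e ∈ Rc c) S last hN hq
    (fun e _ => sum_ind_Rc hr e) (fun e _ e' _ hne => sum_ind_Rc_two hne) hm'
    (fun v => by
      have h1 : ((S.filter fun e => last e = v).card : ℝ) ≤ d := by exact_mod_cast hfib v
      have h2 : (16 : ℝ) * d ≤ B := by exact_mod_cast hdB
      rw [mul_one_div, div_le_iff₀ hB]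
      linarith)
    card_colorings
  refine hcore.trans ?_
  rw [← col_sum_ind_eq_card]
  refine Finset.sum_le_sum fun c _ => col_ind_le_ind ?_
  rintro ⟨h1, h2⟩
  set A : Finset (Fin n) := univ.filter
    (fun v => ∃ e ∈ S.filter (fun e => last e = v), e ∈ Rc c) with hA
  have hX : ∑ v, ind (∃ e ∈ S.filter (fun e => last e = v), e ∈ Rc c) = (A.card : ℝ) :=
    col_sum_ind_eq_card _
  have hY : cntZ (fun e c => e ∈ Rc c) S c = ((S ∩ Rc c).card : ℝ) := by
    unfold cntZ
    rw [← Finset.filter_mem_eq_inter, Finset.natCast_card_filter]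
    refine Finset.sum_congr rfl fun e _ => ?_
    by_cases he : e ∈ Rc c <;> simp [he]
  rw [hX] at h1
  rw [hY] at h2
  refine ⟨A.card, ?_, ?_, ?_⟩
  · refine newSeq_of_active _ (vrk_inj S) last hlast hmax A ?_
    intro v hv
    obtain ⟨e, he, hec⟩ := (Finset.mem_filter.mp hv).2
    have he1 := Finset.mem_filter.mp he
    exact ⟨e, Finset.mem_inter.mpr ⟨he1.1, hec⟩, he1.2⟩
  · have h3 : (S.card : ℝ) ≤ 2 * B * A.card := by
      have h4 : (S.card : ℝ) * (1 / B) / 2 = (S.card : ℝ) / (2 * B) := by field_simp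
      rw [h4, div_le_iff₀ (by positivity)] at h1
      linarith
    exact_mod_cast h3
  · have h3 : (B : ℝ) * (S ∩ Rc c).card ≤ 8 * S.card := by
      have h4 : 8 * ((S.card : ℝ) * (1 / B)) = (8 * (S.card : ℝ)) / B := by ring
      rw [h4, le_div_iff₀ hB] at h2
      linarith
    exact_mod_cast h3

/-- Few colourings have too many `R_c` edges. -/
lemma few_large_Rc (hr : 1 ≤ r) :
    ((univ.filter (fun c : Fin n → ZMod B =>
        200 * Fintype.card (HyperedgeSlot n r) < B * (Rc (r := r) c).card)).card : ℝ)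
      ≤ ((B : ℝ) ^ n) / 200 := by
  classical
  have hB : (0 : ℝ) < B := col_B_pos
  set K : ℝ := (Fintype.card (HyperedgeSlot n r) : ℝ) with hK
  have hK0 : 0 ≤ K := by positivity
  rcases eq_or_lt_of_le hK0 with hK1 | hK1
  · have hemp : IsEmpty (HyperedgeSlot n r) := by
      apply Fintype.card_eq_zero_iff.mp
      have h0 : ((Fintype.card (HyperedgeSlot n r) : ℕ) : ℝ) = 0 := by rw [← hK]; exact hK1.symm
      exact_mod_cast h0
    have : (univ.filter (fun c : Fin n → ZMod B =>
        200 * Fintype.card (HyperedgeSlot n r) < B * (Rc (r := r) c).card)) = ∅ := by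
      apply Finset.filter_eq_empty_iff.mpr
      intro c _
      have h0 : (Rc (r := r) c).card = 0 := by
        rw [Finset.card_eq_zero]; exact Finset.eq_empty_of_isEmpty _
      simp [h0]
    rw [this]
    simp only [Finset.card_empty, Nat.cast_zero]
    positivity
  have hcardR : ∀ c : Fin n → ZMod B, ((Rc (r := r) c).card : ℝ)
      = ∑ e : HyperedgeSlot n r, ind (e ∈ Rc c) := by
    intro c
    rw [col_sum_ind_eq_card (fun e : HyperedgeSlot n r => e ∈ Rc c)]
    simp
  have hsum : ∑ c : Fin n → ZMod B, ((Rc (r := r) c).card : ℝ) = K * ((B : ℝ) ^ n * (1 / B)) := by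
    simp_rw [hcardR]
    rw [Finset.sum_comm, Finset.sum_congr rfl (fun e _ => sum_ind_Rc hr e)]
    simp [hK]
  rw [← col_sum_ind_eq_card]
  have hpt : ∀ c : Fin n → ZMod B,
      ind (200 * Fintype.card (HyperedgeSlot n r) < B * (Rc (r := r) c).card) * (200 * K / B)
        ≤ ((Rc (r := r) c).card : ℝ) := by
    intro c
    by_cases h : 200 * Fintype.card (HyperedgeSlot n r) < B * (Rc (r := r) c).card
    · rw [ind_true h, one_mul, div_le_iff₀ hB]
      have : (200 : ℝ) * K < B * ((Rc (r := r) c).card : ℝ) := by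
        rw [hK]; exact_mod_cast h
      linarith
    · rw [ind_false h, zero_mul]
      positivity
  have h2 := Finset.sum_le_sum (fun c (_ : c ∈ (univ : Finset (Fin n → ZMod B))) => hpt c)
  rw [← Finset.sum_mul, hsum] at h2
  have h3 : (200 * K / B) * (∑ c : Fin n → ZMod B,
      ind (200 * Fintype.card (HyperedgeSlot n r) < B * (Rc (r := r) c).card))
        ≤ (200 * K / B) * ((B : ℝ) ^ n / 200) := by
    calc _ = _ := mul_comm _ _
      _ ≤ _ := h2
      _ = _ := by field_simp
  exact le_of_mul_le_mul_left h3 (by positivity)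

/-- Few colourings have a small colour class. -/
lemma few_small_class (hn : 800 * B ^ 2 ≤ n) :
    ((univ.filter (fun c : Fin n → ZMod B =>
        ∃ i, 2 * B * (univ.filter (fun v => c v = i)).card < n)).card : ℝ) ≤ ((B : ℝ) ^ n) / 200 := by
  classical
  have hB : (0 : ℝ) < B := col_B_pos
  have hB1 : (1 : ℝ) ≤ B := by exact_mod_cast Nat.pos_of_ne_zero (NeZero.ne B)
  have hn' : (800 : ℝ) * B ^ 2 ≤ n := by exact_mod_cast hn
  have hn0 : (0 : ℝ) < n := by nlinarith
  set q : ℝ := 1 / B with hq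
  have hq0 : 0 < q := by positivity
  set N : ℝ := (B : ℝ) ^ n with hN
  have hN0 : 0 < N := by positivity
  -- one class
  have hone : ∀ i : ZMod B, ∑ c : Fin n → ZMod B,
      ind (2 * B * (univ.filter (fun v => c v = i)).card < n) ≤ 4 * B * N / n := by
    intro i
    set I : Fin n → (Fin n → ZMod B) → Prop := fun v c => c v = i with hI
    have h1 : ∀ v ∈ (univ : Finset (Fin n)), ∑ c : Fin n → ZMod B, ind (I v c) = N * q := by
      intro v _
      have := sum_ind_one (n := n) (B := B) {v} (Finset.singleton_nonempty v) i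
      simpa [hI, hN, hq, one_div] using this
    have h2 : ∀ v ∈ (univ : Finset (Fin n)), ∀ v' ∈ (univ : Finset (Fin n)), v ≠ v' →
        ∑ c : Fin n → ZMod B, ind (I v c) * ind (I v' c) = N * q ^ 2 := by
      intro v _ v' _ hne
      have := sum_ind_two (n := n) (B := B) (e := {v}) (e' := {v'}) (w := v) (w' := v')
        (Finset.mem_singleton_self v) (by simpa using hne) (Finset.mem_singleton_self v')
        (by simpa using hne.symm) i i
      simpa [hI, hN, hq, one_div] using this
    have hC : ∀ c : Fin n → ZMod B,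
        cntZ I univ c = ((univ.filter (fun v => c v = i)).card : ℝ) := by
      intro c
      unfold cntZ
      rw [col_sum_ind_eq_card (fun v => I v c)]
    have hs1 := sum_cntZ I univ h1
    have hs2 := sum_cntZ_sq I univ h1 h2
    simp only [Finset.card_univ, Fintype.card_fin] at hs1 hs2
    have hvar : ∑ c : Fin n → ZMod B, (cntZ I univ c - n * q) ^ 2 ≤ n * N * q := by
      have h3 : ∀ c : Fin n → ZMod B, (cntZ I univ c - n * q) ^ 2
          = cntZ I univ c ^ 2 - 2 * (n * q) * cntZ I univ c + (n * q) ^ 2 := fun c => by ring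
      simp_rw [h3]
      rw [Finset.sum_add_distrib, Finset.sum_sub_distrib, ← Finset.mul_sum, hs1, hs2]
      have h4 : ∑ _c : Fin n → ZMod B, ((n : ℝ) * q) ^ 2 = N * ((n : ℝ) * q) ^ 2 := by
        simp [hN]
      rw [h4]
      have : (n : ℝ) * (N * q + ((n : ℝ) - 1) * (N * q ^ 2)) - 2 * ((n : ℝ) * q) * ((n : ℝ) * (N * q))
          + N * ((n : ℝ) * q) ^ 2 = n * N * q - n * N * q ^ 2 := by ring
      rw [this]
      have : 0 ≤ (n : ℝ) * N * q ^ 2 := by positivity
      linarith
    have hpt : ∀ c : Fin n → ZMod B,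
        ind (2 * B * (univ.filter (fun v => c v = i)).card < n) * ((n * q / 2) ^ 2)
          ≤ (cntZ I univ c - n * q) ^ 2 := by
      intro c
      by_cases h : 2 * B * (univ.filter (fun v => c v = i)).card < n
      · rw [ind_true h, one_mul, hC]
        have h5 : (2 : ℝ) * B * ((univ.filter (fun v => c v = i)).card : ℝ) < n := by
          exact_mod_cast h
        have h6 : ((univ.filter (fun v => c v = i)).card : ℝ) < n * q / 2 := by
          rw [hq]
          rw [mul_one_div, div_div, lt_div_iff₀ (by positivity)]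
          linarith
        have h7 : 0 ≤ ((univ.filter (fun v => c v = i)).card : ℝ) := by positivity
        have h8 : 0 < (n : ℝ) * q := by positivity
        nlinarith
      · rw [ind_false h, zero_mul]
        positivity
    have h9 := Finset.sum_le_sum (fun c (_ : c ∈ (univ : Finset (Fin n → ZMod B))) => hpt c)
    rw [← Finset.sum_mul] at h9
    have h10 := h9.trans hvar
    set E : ℝ := ∑ c : Fin n → ZMod B,
      ind (2 * B * (univ.filter (fun v => c v = i)).card < n) with hE
    have h11 : ((n : ℝ) * q / 2) ^ 2 * E ≤ ((n : ℝ) * q / 2) ^ 2 * (4 * B * N / n) := by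
      calc _ = E * ((n : ℝ) * q / 2) ^ 2 := mul_comm _ _
        _ ≤ _ := h10
        _ = _ := by
            rw [hq]; field_simp; ring
    exact le_of_mul_le_mul_left h11 (by positivity)
  rw [← col_sum_ind_eq_card]
  have hunion : ∀ c : Fin n → ZMod B,
      ind (∃ i, 2 * B * (univ.filter (fun v => c v = i)).card < n)
        ≤ ∑ i : ZMod B, ind (2 * B * (univ.filter (fun v => c v = i)).card < n) := by
    intro c
    by_cases h : ∃ i, 2 * B * (univ.filter (fun v => c v = i)).card < n
    · obtain ⟨i, hi⟩ := h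
      rw [ind_true ⟨i, hi⟩]
      calc (1 : ℝ) = ind (2 * B * (univ.filter (fun v => c v = i)).card < n) := (ind_true hi).symm
        _ ≤ _ := Finset.single_le_sum
            (f := fun i : ZMod B => ind (2 * B * (univ.filter (fun v => c v = i)).card < n))
            (fun _ _ => ind_nonneg _) (Finset.mem_univ i)
    · rw [ind_false h]
      exact Finset.sum_nonneg fun _ _ => ind_nonneg _
  calc _ ≤ ∑ c : Fin n → ZMod B, ∑ i : ZMod B, ind (2 * B * (univ.filter (fun v => c v = i)).card < n) :=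
        Finset.sum_le_sum fun c _ => hunion c
    _ = ∑ i : ZMod B, ∑ c : Fin n → ZMod B, ind (2 * B * (univ.filter (fun v => c v = i)).card < n) :=
        Finset.sum_comm
    _ ≤ ∑ _i : ZMod B, 4 * B * N / n := Finset.sum_le_sum fun i _ => hone i
    _ = B * (4 * B * N / n) := by simp [ZMod.card]
    _ ≤ N / 200 := by
        rw [← mul_div_assoc, div_le_div_iff₀ hn0 (by norm_num)]
        nlinarith

end Main

end Crest.Agent.BK
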