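/-
Row 56: influences and Fourier coefficients (Step 1).
-/
import Crest.Agent.Lib.BK.Basic

set_option autoImplicit false
set_option linter.unusedSectionVars false
set_option linter.unusedSimpArgs false
set_option linter.unusedVariables false

namespace Crest.Agent.BK

open Finset

variable {ι : Type*} [Fintype ι] [DecidableEq ι] {p : ℝ}

lemma chi_erase (p : ℝ) {S : Finset ι} {u : ι} (hu : u ∈ S) (x : ι → Bool) :
    chi p S x = chi1 p (x u) * chi p (S.erase u) x := by
  unfold chi
  exact (Finset.mul_prod_erase S (fun i => chi1 p (x i)) hu).symm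

/-- One coordinate integrated against `χ_u`. -/
lemma coeff_eq_deriv (hp0 : 0 < p) (hp1 : p < 1) (g : (ι → Bool) → ℝ) {u : ι} {S : Finset ι}
    (hu : u ∈ S) : coeff p g S = sig p * coeff p (deriv1 g u) (S.erase u) := by
  have hσ := sig_pos hp0 hp1
  unfold coeff
  rw [ex_update hp0 hp1 _ u, ← ex_mul_left]
  congr 1; funext x
  have hnot : u ∉ S.erase u := Finset.notMem_erase u S
  have h1 : ∀ b, chi p S (Function.update x u b) = chi1 p b * chi p (S.erase u) x := by
    intro b
    rw [chi_erase p hu, Function.update_self, chi_update p hnot]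
  rw [h1, h1]
  unfold deriv1
  rw [chi1_true, chi1_false]
  have hs := sig_sq hp0 hp1
  field_simp
  rw [hs]
  ring

lemma deriv1_update (g : (ι → Bool) → ℝ) (u : ι) (x : ι → Bool) (b : Bool) :
    deriv1 g u (Function.update x u b) = deriv1 g u x := by
  unfold deriv1
  simp

/-- The coefficient of a derivative at a set containing the coordinate vanishes. -/
lemma coeff_deriv_mem (hp0 : 0 < p) (hp1 : p < 1) (g : (ι → Bool) → ℝ) {u : ι} {T : Finset ι}
    (hu : u ∈ T) : coeff p (deriv1 g u) T = 0 := by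
  unfold coeff
  have h1 : (fun x => deriv1 g u x * chi p T x)
      = fun x => chi1 p (x u) * (deriv1 g u x * chi p (T.erase u) x) := by
    funext x
    rw [chi_erase p hu]; ring
  rw [h1, ex_mul_coord hp0 hp1 u (fun b => chi1 p b) _
    (fun x b => by rw [deriv1_update, chi_update p (Finset.notMem_erase u T)]),
    mom1 hp0 hp1, zero_mul]

/-- `D_u (bv f)` squared is the pivotal indicator. -/
lemma deriv1_bv_sq (f : (ι → Bool) → Bool) (u : ι) (x : ι → Bool) :
    deriv1 (bv f) u x ^ 2 = ind (f (Function.update x u true) ≠ f (Function.update x u false)) := by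
  unfold deriv1 bv
  cases h1 : f (Function.update x u true) <;> cases h2 : f (Function.update x u false) <;> simp

lemma deriv1_bv_abs_le (f : (ι → Bool) → Bool) (u : ι) (x : ι → Bool) :
    |deriv1 (bv f) u x| ≤ 1 := by
  unfold deriv1 bv
  cases h1 : f (Function.update x u true) <;> cases h2 : f (Function.update x u false) <;> simp

lemma deriv1_bv_ne (f : (ι → Bool) → Bool) (u : ι) (x : ι → Bool) :
    ind (deriv1 (bv f) u x ≠ 0)
      = ind (f (Function.update x u true) ≠ f (Function.update x u false)) := by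
  unfold deriv1 bv
  cases h1 : f (Function.update x u true) <;> cases h2 : f (Function.update x u false) <;> simp

lemma piv_nonneg' (hp0 : 0 < p) (hp1 : p < 1) (f : (ι → Bool) → Bool) (u : ι) : 0 ≤ piv p f u :=
  ex_nonneg hp0 hp1 fun x => ind_nonneg _

/-- Sums over sets containing `u` versus sums over sets avoiding `u`. -/
lemma sum_mem_eq (u : ι) (φ : Finset ι → ℝ) (P : Finset ι → Prop) [DecidablePred P] :
    ∑ S ∈ univ.filter (fun S : Finset ι => u ∈ S ∧ P S), φ S
      = ∑ T ∈ univ.filter (fun T : Finset ι => u ∉ T ∧ P (insert u T)), φ (insert u T) := by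
  symm
  refine Finset.sum_bij (fun T _ => insert u T) ?_ ?_ ?_ ?_
  · intro T hT
    have hT' := (Finset.mem_filter.mp hT).2
    exact Finset.mem_filter.mpr ⟨Finset.mem_univ _, Finset.mem_insert_self _ _, hT'.2⟩
  · intro T hT T' hT' h
    have h1 := (Finset.mem_filter.mp hT).2.1
    have h2 := (Finset.mem_filter.mp hT').2.1
    have := congrArg (fun A => A.erase u) h
    simpa [Finset.erase_insert h1, Finset.erase_insert h2] using this
  · intro S hS
    have hS' := (Finset.mem_filter.mp hS).2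
    refine ⟨S.erase u, Finset.mem_filter.mpr ⟨Finset.mem_univ _, Finset.notMem_erase u S, ?_⟩, ?_⟩
    · rw [Finset.insert_erase hS'.1]; exact hS'.2
    · exact Finset.insert_erase hS'.1
  · intro T hT; rfl

lemma sum_coeff_mem (hp0 : 0 < p) (hp1 : p < 1) (f : (ι → Bool) → Bool) (u : ι) :
    ∑ S ∈ univ.filter (fun S : Finset ι => u ∈ S), coeff p (bv f) S ^ 2
      = sig p ^ 2 * piv p f u := by
  classical
  have h0 := sum_mem_eq u (fun S => coeff p (bv f) S ^ 2) (fun _ => True)
  simp only [and_true] at h0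
  rw [h0]
  have h1 : ∀ T ∈ univ.filter (fun T : Finset ι => u ∉ T),
      coeff p (bv f) (insert u T) ^ 2 = sig p ^ 2 * coeff p (deriv1 (bv f) u) T ^ 2 := by
    intro T hT
    have hT' := (Finset.mem_filter.mp hT).2
    rw [coeff_eq_deriv hp0 hp1 _ (Finset.mem_insert_self u T), Finset.erase_insert hT', mul_pow]
  rw [Finset.sum_congr rfl h1, ← Finset.mul_sum]
  congr 1
  -- Parseval for the derivative
  have h2 := sum_coeff_sq hp0 hp1 (deriv1 (bv f) u)
  have h3 : ∑ T ∈ univ.filter (fun T : Finset ι => u ∉ T), coeff p (deriv1 (bv f) u) T ^ 2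
      = ∑ T, coeff p (deriv1 (bv f) u) T ^ 2 := by
    refine Finset.sum_subset (Finset.subset_univ _) fun T _ hT => ?_
    have : u ∈ T := by
      by_contra hcon
      exact hT (Finset.mem_filter.mpr ⟨Finset.mem_univ _, hcon⟩)
    rw [coeff_deriv_mem hp0 hp1 _ this]; simp
  rw [h3, h2]
  unfold piv
  congr 1; funext x
  exact deriv1_bv_sq f u x

/-- Level-`L` weight through `u`. -/
lemma low_mem_le (hp0 : 0 < p) (hp1 : p < 1) (f : (ι → Bool) → Bool) (u : ι) (L : ℕ) :
    ∑ S ∈ univ.filter (fun S : Finset ι => u ∈ S ∧ S.card ≤ L), coeff p (bv f) S ^ 2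
      ≤ (2 / sig p) ^ L * (sig p ^ 2 * (piv p f u * Real.sqrt (piv p f u))) := by
  classical
  have hσ := sig_pos hp0 hp1
  have hσ2 := sig_le hp0 hp1
  have h0 := sum_mem_eq u (fun S => coeff p (bv f) S ^ 2) (fun S => S.card ≤ L)
  rw [h0]
  set 𝒯 := univ.filter (fun T : Finset ι => u ∉ T ∧ (insert u T).card ≤ L) with h𝒯
  have h1 : ∀ T ∈ 𝒯, coeff p (bv f) (insert u T) ^ 2 = sig p ^ 2 * coeff p (deriv1 (bv f) u) T ^ 2 := by
    intro T hT
    have hT' := (Finset.mem_filter.mp hT).2.1
    rw [coeff_eq_deriv hp0 hp1 _ (Finset.mem_insert_self u T), Finset.erase_insert hT', mul_pow]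
  rw [Finset.sum_congr rfl h1, ← Finset.mul_sum]
  have h2 : ∑ T ∈ 𝒯, coeff p (deriv1 (bv f) u) T ^ 2
      ≤ (2 / sig p) ^ L * Qf p (deriv1 (bv f) u) := by
    apply sum_low_le hp0 hp1
    intro T hT
    have hT' := (Finset.mem_filter.mp hT).2
    have : T.card ≤ (insert u T).card := Finset.card_le_card (Finset.subset_insert u T)
    omega
  have h3 : Qf p (deriv1 (bv f) u) ≤ 1 ^ 2 * (piv p f u * Real.sqrt (piv p f u)) := by
    apply Qf_le hp0 hp1 _ (deriv1_bv_abs_le f u)
    unfold piv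
    apply le_of_eq
    congr 1; funext x
    exact deriv1_bv_ne f u x
  rw [one_pow, one_mul] at h3
  have hΓ : 0 ≤ (2 / sig p) ^ L := by positivity
  calc sig p ^ 2 * ∑ T ∈ 𝒯, coeff p (deriv1 (bv f) u) T ^ 2
      ≤ sig p ^ 2 * ((2 / sig p) ^ L * (piv p f u * Real.sqrt (piv p f u))) := by
        apply mul_le_mul_of_nonneg_left _ (sq_nonneg _)
        exact h2.trans (mul_le_mul_of_nonneg_left h3 hΓ)
    _ = _ := by ring

lemma sum_card_coeff (hp0 : 0 < p) (hp1 : p < 1) (f : (ι → Bool) → Bool) :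
    ∑ S : Finset ι, (S.card : ℝ) * coeff p (bv f) S ^ 2 = sig p ^ 2 * totInf p f := by
  classical
  unfold totInf
  rw [Finset.mul_sum]
  simp_rw [← sum_coeff_mem hp0 hp1 f, Finset.sum_filter]
  rw [Finset.sum_comm]
  refine Finset.sum_congr rfl fun S _ => ?_
  rw [Finset.sum_ite_mem, Finset.univ_inter, Finset.sum_const, nsmul_eq_mul]

lemma coeff_empty (f : (ι → Bool) → Bool) : coeff p (bv f) ∅ = ex p (bv f) := by
  unfold coeff
  congr 1; funext x; simp [chi]

/-- The variance in Fourier form. -/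
lemma var_eq (hp0 : 0 < p) (hp1 : p < 1) (f : (ι → Bool) → Bool) :
    ∑ S ∈ univ.filter (fun S : Finset ι => S.Nonempty), coeff p (bv f) S ^ 2
      = ex p (bv f) * (1 - ex p (bv f)) := by
  classical
  have h1 := sum_coeff_sq hp0 hp1 (bv f)
  have h2 : (fun x => bv f x ^ 2) = bv f := by funext x; exact ind_sq _
  rw [h2] at h1
  have h3 : ∑ S : Finset ι, coeff p (bv f) S ^ 2
      = coeff p (bv f) ∅ ^ 2
        + ∑ S ∈ univ.filter (fun S : Finset ι => S.Nonempty), coeff p (bv f) S ^ 2 := by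
    rw [← Finset.sum_filter_add_sum_filter_not Finset.univ (fun S : Finset ι => S.Nonempty), add_comm]
    congr 1
    have : univ.filter (fun S : Finset ι => ¬ S.Nonempty) = {∅} := by
      ext S; simp [Finset.not_nonempty_iff_eq_empty]
    rw [this, Finset.sum_singleton]
  rw [h3, coeff_empty] at h1
  nlinarith

lemma poincare (hp0 : 0 < p) (hp1 : p < 1) (f : (ι → Bool) → Bool) :
    ex p (bv f) * (1 - ex p (bv f)) ≤ sig p ^ 2 * totInf p f := by
  classical
  rw [← var_eq hp0 hp1, ← sum_card_coeff hp0 hp1]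
  have h1 : ∑ S ∈ univ.filter (fun S : Finset ι => S.Nonempty), coeff p (bv f) S ^ 2
      ≤ ∑ S ∈ univ.filter (fun S : Finset ι => S.Nonempty), (S.card : ℝ) * coeff p (bv f) S ^ 2 := by
    refine Finset.sum_le_sum fun S hS => ?_
    have h2 : (1 : ℝ) ≤ S.card := by
      exact_mod_cast Finset.card_pos.mpr (Finset.mem_filter.mp hS).2
    nlinarith [sq_nonneg (coeff p (bv f) S)]
  refine h1.trans ?_
  exact Finset.sum_le_sum_of_subset_of_nonneg (Finset.subset_univ _)
    fun S _ _ => mul_nonneg (Nat.cast_nonneg _) (sq_nonneg _)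

lemma high_le (hp0 : 0 < p) (hp1 : p < 1) (f : (ι → Bool) → Bool) (M : ℕ) :
    ∑ S ∈ univ.filter (fun S : Finset ι => M < S.card), coeff p (bv f) S ^ 2
      ≤ sig p ^ 2 * totInf p f / (M + 1) := by
  classical
  have hM : (0 : ℝ) < (M : ℝ) + 1 := by positivity
  rw [le_div_iff₀ hM, ← sum_card_coeff hp0 hp1, Finset.sum_mul]
  have h1 : ∀ S ∈ univ.filter (fun S : Finset ι => M < S.card),
      coeff p (bv f) S ^ 2 * ((M : ℝ) + 1) ≤ (S.card : ℝ) * coeff p (bv f) S ^ 2 := by
    intro S hS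
    have h2 : (M : ℝ) + 1 ≤ S.card := by
      exact_mod_cast (Finset.mem_filter.mp hS).2
    nlinarith [sq_nonneg (coeff p (bv f) S)]
  refine (Finset.sum_le_sum h1).trans ?_
  exact Finset.sum_le_sum_of_subset_of_nonneg (Finset.subset_univ _)
    fun S _ _ => mul_nonneg (Nat.cast_nonneg _) (sq_nonneg _)

/-- KKL term. -/
lemma low_le_of_piv (hp0 : 0 < p) (hp1 : p < 1) (f : (ι → Bool) → Bool) (m : ℕ) {π : ℝ}
    (hπ : ∀ u, piv p f u ≤ π) :
    ∑ S ∈ univ.filter (fun S : Finset ι => S.Nonempty ∧ S.card ≤ m), coeff p (bv f) S ^ 2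
      ≤ (2 / sig p) ^ m * (sig p ^ 2 * (Real.sqrt π * totInf p f)) := by
  classical
  have hσ := sig_pos hp0 hp1
  -- each nonempty `S` has a coordinate
  have h1 : ∑ S ∈ univ.filter (fun S : Finset ι => S.Nonempty ∧ S.card ≤ m), coeff p (bv f) S ^ 2
      ≤ ∑ u : ι, ∑ S ∈ univ.filter (fun S : Finset ι => u ∈ S ∧ S.card ≤ m),
          coeff p (bv f) S ^ 2 := by
    simp_rw [Finset.sum_filter]
    rw [Finset.sum_comm]
    refine Finset.sum_le_sum fun S _ => ?_
    by_cases hS : S.Nonempty ∧ S.card ≤ m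
    · rw [if_pos hS]
      obtain ⟨u, hu⟩ := hS.1
      have := Finset.single_le_sum
        (f := fun u => if u ∈ S ∧ S.card ≤ m then coeff p (bv f) S ^ 2 else 0)
        (fun u _ => by split_ifs <;> positivity) (Finset.mem_univ u)
      simpa [hu, hS.2] using this
    · rw [if_neg hS]
      exact Finset.sum_nonneg fun u _ => by split_ifs <;> positivity
  refine h1.trans ?_
  have h2 : ∀ u ∈ (Finset.univ : Finset ι),
      ∑ S ∈ univ.filter (fun S : Finset ι => u ∈ S ∧ S.card ≤ m), coeff p (bv f) S ^ 2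
        ≤ (2 / sig p) ^ m * (sig p ^ 2 * (Real.sqrt π * piv p f u)) := by
    intro u _
    refine (low_mem_le hp0 hp1 f u m).trans ?_
    have h3 : Real.sqrt (piv p f u) ≤ Real.sqrt π := Real.sqrt_le_sqrt (hπ u)
    have h4 := piv_nonneg' hp0 hp1 f u
    apply mul_le_mul_of_nonneg_left _ (by positivity)
    apply mul_le_mul_of_nonneg_left _ (sq_nonneg _)
    nlinarith
  refine (Finset.sum_le_sum h2).trans (le_of_eq ?_)
  unfold totInf
  rw [← Finset.mul_sum, ← Finset.mul_sum, ← Finset.mul_sum]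

end Crest.Agent.BK
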