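/-
Row 56: fibres over colour classes (Steps 2–3 of BLUEPRINT.md).
-/
import Crest.Agent.Lib.BK.Influence

set_option autoImplicit false
set_option linter.unusedSectionVars false
set_option linter.unusedSimpArgs false

namespace Crest.Agent.BK

open Finset

variable {ι : Type*} [Fintype ι] [DecidableEq ι] {p : ℝ}

/-! ### glue -/

lemma glue_glue_left (R : Finset ι) (x z : ι → Bool) : glue R (glue R x z) (glue R z x) = x := by
  funext i; by_cases h : i ∈ R <;> simp [glue, h]

lemma glue_glue_right (R : Finset ι) (x z : ι → Bool) : glue R (glue R z x) (glue R x z) = z := by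
  funext i; by_cases h : i ∈ R <;> simp [glue, h]

/-- The involution `(x, z) ↦ (glue x z, glue z x)`. -/
def glueEquiv (R : Finset ι) : ((ι → Bool) × (ι → Bool)) ≃ ((ι → Bool) × (ι → Bool)) where
  toFun q := (glue R q.1 q.2, glue R q.2 q.1)
  invFun q := (glue R q.1 q.2, glue R q.2 q.1)
  left_inv q := by
    ext1 <;> simp [glue_glue_left, glue_glue_right]
  right_inv q := by
    ext1 <;> simp [glue_glue_left, glue_glue_right]

lemma weight_glue (R : Finset ι) (x z : ι → Bool) :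
    Crest.FinProb.bernoulliWeight p (glue R x z) * Crest.FinProb.bernoulliWeight p (glue R z x)
      = Crest.FinProb.bernoulliWeight p x * Crest.FinProb.bernoulliWeight p z := by
  unfold Crest.FinProb.bernoulliWeight
  rw [← Finset.prod_mul_distrib, ← Finset.prod_mul_distrib]
  refine Finset.prod_congr rfl fun i _ => ?_
  by_cases h : i ∈ R
  · simp [glue, h]
  · simp [glue, h, mul_comm]

lemma sum_weight (hp0 : 0 < p) (hp1 : p < 1) :
    ∑ x : ι → Bool, Crest.FinProb.bernoulliWeight p x = 1 := by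
  have := ex_const (ι := ι) hp0 hp1 (1 : ℝ)
  simpa [ex] using this

/-- The law of `glue R x z` under the product of two cubes is the cube. -/
lemma ex_ex_glue (hp0 : 0 < p) (hp1 : p < 1) (R : Finset ι) (G : (ι → Bool) → ℝ) :
    ex p (fun z => ex p (fun x => G (glue R x z))) = ex p G := by
  unfold ex
  calc ∑ z, Crest.FinProb.bernoulliWeight p z *
          ∑ x, Crest.FinProb.bernoulliWeight p x * G (glue R x z)
      = ∑ q : (ι → Bool) × (ι → Bool), Crest.FinProb.bernoulliWeight p q.1 *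
          Crest.FinProb.bernoulliWeight p q.2 * G (glue R q.1 q.2) := by
        rw [Fintype.sum_prod_type_right]
        refine Finset.sum_congr rfl fun z _ => ?_
        rw [Finset.mul_sum]
        refine Finset.sum_congr rfl fun x _ => ?_
        ring
    _ = ∑ q : (ι → Bool) × (ι → Bool), Crest.FinProb.bernoulliWeight p q.1 *
          Crest.FinProb.bernoulliWeight p q.2 * G q.1 := by
        rw [← Equiv.sum_comp (glueEquiv R)
          (fun q : (ι → Bool) × (ι → Bool) => Crest.FinProb.bernoulliWeight p q.1 *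
            Crest.FinProb.bernoulliWeight p q.2 * G q.1)]
        refine Finset.sum_congr rfl fun q _ => ?_
        simp only [glueEquiv, Equiv.coe_fn_mk]
        rw [weight_glue]
    _ = ∑ x, Crest.FinProb.bernoulliWeight p x * G x := by
        rw [Fintype.sum_prod_type]
        refine Finset.sum_congr rfl fun x _ => ?_
        have : ∑ y : ι → Bool, Crest.FinProb.bernoulliWeight p x *
            Crest.FinProb.bernoulliWeight p y * G x
            = Crest.FinProb.bernoulliWeight p x * G x *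
              ∑ y : ι → Bool, Crest.FinProb.bernoulliWeight p y := by
          rw [Finset.mul_sum]
          refine Finset.sum_congr rfl fun y _ => ?_
          ring
        simp only [this, sum_weight hp0 hp1, mul_one]

/-! ### characters -/

lemma chi_congr (S : Finset ι) {x y : ι → Bool} (h : ∀ i ∈ S, x i = y i) :
    chi p S x = chi p S y :=
  Finset.prod_congr rfl fun i hi => by rw [h i hi]

lemma chi_union {U B : Finset ι} (h : Disjoint U B) (x : ι → Bool) :
    chi p (U ∪ B) x = chi p U x * chi p B x := by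
  unfold chi; exact Finset.prod_union h

lemma coeff_add (g h : (ι → Bool) → ℝ) (S : Finset ι) :
    coeff p (fun x => g x + h x) S = coeff p g S + coeff p h S := by
  unfold coeff
  rw [← ex_add]
  congr 1; funext x; ring

lemma ex_mul_right (a : ℝ) (g : (ι → Bool) → ℝ) : ex p (fun x => g x * a) = ex p g * a := by
  rw [mul_comm, ← ex_mul_left]
  congr 1; funext x; ring

theorem coeff_union (hp0 : 0 < p) (hp1 : p < 1) (R : Finset ι) (f : (ι → Bool) → Bool)
    {U B : Finset ι} (hU : U ⊆ R) (hB : Disjoint B R) :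
    coeff p (bv f) (U ∪ B) = coeff p (cU p R f U) B := by
  have hUB : Disjoint U B := (Finset.disjoint_of_subset_right hU hB).symm
  unfold coeff cU
  rw [← ex_ex_glue hp0 hp1 R (fun x => bv f x * chi p (U ∪ B) x)]
  congr 1; funext z
  unfold coeff
  rw [← ex_mul_right]
  congr 1; funext x
  have h1 : chi p U (glue R x z) = chi p U x :=
    chi_congr U fun i hi => by simp [glue, hU hi]
  have h2 : chi p B (glue R x z) = chi p B z :=
    chi_congr B fun i hi => by
      have : i ∉ R := Finset.disjoint_left.mp hB hi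
      simp [glue, this]
  rw [chi_union hUB, h1, h2]
  simp only [bv, fib]
  ring

lemma glue_update (R : Finset ι) {u : ι} (hu : u ∈ R) (x z : ι → Bool) (b : Bool) :
    glue R (Function.update x u b) z = Function.update (glue R x z) u b := by
  funext i
  by_cases hi : i = u
  · subst hi; simp [glue, hu]
  · by_cases h : i ∈ R <;> simp [glue, h, hi, Function.update_of_ne]

theorem ex_pz (hp0 : 0 < p) (hp1 : p < 1) (R : Finset ι) (f : (ι → Bool) → Bool) {u : ι}
    (hu : u ∈ R) : ex p (pz p R f u) = piv p f u := by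
  have h := ex_ex_glue hp0 hp1 R
    (fun x => ind (f (Function.update x u true) ≠ f (Function.update x u false)))
  unfold piv at h ⊢
  rw [← h]
  congr 1; funext z
  unfold pz piv fib
  congr 1; funext x
  rw [glue_update R hu, glue_update R hu]

theorem ex_Iz (hp0 : 0 < p) (hp1 : p < 1) (R : Finset ι) (f : (ι → Bool) → Bool) :
    ex p (Iz p R f) = ∑ u ∈ R, piv p f u := by
  unfold Iz
  rw [show (fun z => ∑ u ∈ R, pz p R f u z) = fun z => ∑ u ∈ R, pz p R f u z from rfl, ex_sum]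
  exact Finset.sum_congr rfl fun u hu => ex_pz hp0 hp1 R f hu

/-! ### elementary bounds -/

lemma bv_sq_le (f : (ι → Bool) → Bool) (x : ι → Bool) : bv f x ^ 2 ≤ 1 := by
  unfold bv
  rw [ind_sq]; exact ind_le_one _

lemma coeff_sq_le_one (hp0 : 0 < p) (hp1 : p < 1) (f : (ι → Bool) → Bool) (S : Finset ι) :
    coeff p (bv f) S ^ 2 ≤ 1 := by
  have h1 : coeff p (bv f) S ^ 2 ≤ ∑ T, coeff p (bv f) T ^ 2 :=
    Finset.single_le_sum (f := fun T => coeff p (bv f) T ^ 2) (fun T _ => sq_nonneg _)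
      (Finset.mem_univ S)
  rw [sum_coeff_sq hp0 hp1] at h1
  have h2 : ex p (fun x => bv f x ^ 2) ≤ ex p (fun _ => (1 : ℝ)) :=
    ex_mono hp0 hp1 (bv_sq_le f)
  rw [ex_const hp0 hp1] at h2
  linarith

lemma abs_cU_le_one (hp0 : 0 < p) (hp1 : p < 1) (R : Finset ι) (f : (ι → Bool) → Bool)
    (U : Finset ι) (z : ι → Bool) : |cU p R f U z| ≤ 1 := by
  have := coeff_sq_le_one hp0 hp1 (fib R f z) U
  unfold cU
  exact (sq_le_one_iff_abs_le_one _).mp this

lemma piv_nonneg (hp0 : 0 < p) (hp1 : p < 1) (f : (ι → Bool) → Bool) (u : ι) : 0 ≤ piv p f u := by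
  unfold piv
  have h := ex_mono (ι := ι) hp0 hp1 (g := fun _ => (0 : ℝ))
    (h := fun x => ind (f (Function.update x u true) ≠ f (Function.update x u false)))
    (fun x => ind_nonneg _)
  rwa [ex_const hp0 hp1] at h

lemma pz_nonneg (hp0 : 0 < p) (hp1 : p < 1) (R : Finset ι) (f : (ι → Bool) → Bool) (u : ι)
    (z : ι → Bool) : 0 ≤ pz p R f u z := piv_nonneg hp0 hp1 _ _

lemma Iz_nonneg (hp0 : 0 < p) (hp1 : p < 1) (R : Finset ι) (f : (ι → Bool) → Bool)
    (z : ι → Bool) : 0 ≤ Iz p R f z :=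
  Finset.sum_nonneg fun u _ => pz_nonneg hp0 hp1 R f u z

lemma mem_J {R : Finset ι} {f : (ι → Bool) → Bool} {τ : ℝ} {z : ι → Bool} {u : ι} :
    u ∈ J p R f τ z ↔ u ∈ R ∧ τ ≤ pz p R f u z := by
  classical
  simp [J]

/-- Markov for `Iz`. -/
lemma markov_Iz (hp0 : 0 < p) (hp1 : p < 1) (R : Finset ι) (f : (ι → Bool) → Bool) {a : ℝ}
    (ha : 0 < a) (P : (ι → Bool) → Prop) (hP : ∀ z, P z → a ≤ Iz p R f z) :
    ex p (fun z => ind (P z)) ≤ (∑ u ∈ R, piv p f u) / a := by
  have h : ex p (fun z => ind (P z)) ≤ ex p (fun z => Iz p R f z / a) := by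
    apply ex_mono hp0 hp1
    intro z
    by_cases hz : P z
    · rw [ind_true hz, le_div_iff₀ ha, one_mul]; exact hP z hz
    · rw [ind_false hz]; exact div_nonneg (Iz_nonneg hp0 hp1 R f z) ha.le
  refine h.trans (le_of_eq ?_)
  have : (fun z => Iz p R f z / a) = fun z => a⁻¹ * Iz p R f z := by
    funext z; rw [div_eq_inv_mul]
  rw [this, ex_mul_left, ex_Iz hp0 hp1, div_eq_inv_mul]

/-- Number of small subsets of a finset. -/
lemma card_small_subsets_le (A : Finset ι) (k : ℕ) :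
    ((A.powerset.filter (fun U => U.card ≤ k)).card : ℝ) ≤ ((A.card : ℝ) + 1) ^ k := by
  have hcount : (A.powerset.filter (fun U => U.card ≤ k)).card
      = ∑ j ∈ Finset.range (k + 1), (A.card).choose j := by
    have : A.powerset.filter (fun U => U.card ≤ k)
        = (Finset.range (k + 1)).biUnion (fun j => A.powersetCard j) := by
      ext U
      simp only [Finset.mem_filter, Finset.mem_powerset, Finset.mem_biUnion, Finset.mem_range,
        Finset.mem_powersetCard]
      constructor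
      · rintro ⟨h1, h2⟩; exact ⟨U.card, Nat.lt_succ_of_le h2, h1, rfl⟩
      · rintro ⟨j, hj, h1, rfl⟩; exact ⟨h1, Nat.lt_succ_iff.mp hj⟩
    rw [this, Finset.card_biUnion]
    · exact Finset.sum_congr rfl fun j _ => Finset.card_powersetCard j A
    · intro i _ j _ hij
      exact Finset.pairwise_disjoint_powersetCard A hij
  rw [hcount, add_pow]
  push_cast
  refine Finset.sum_le_sum fun j hj => ?_
  have hjk : j ≤ k := Nat.lt_succ_iff.mp (Finset.mem_range.mp hj)
  have h1 : ((A.card.choose j : ℕ) : ℝ) ≤ (A.card : ℝ) ^ j := by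
    exact_mod_cast Nat.choose_le_pow A.card j
  have h2 : (1 : ℝ) ≤ (k.choose j : ℝ) := by
    exact_mod_cast Nat.choose_pos hjk
  have h3 : (0 : ℝ) ≤ (A.card : ℝ) ^ j := by positivity
  simp only [one_pow, mul_one]
  nlinarith

/-- `sum_sU_le`: sum of `s√s` over a family with `s ≤ θ` and bounded sizes. -/
theorem sum_sU_le (hp0 : 0 < p) (hp1 : p < 1) (R : Finset ι) (f : (ι → Bool) → Bool)
    {τ w θ : ℝ} (hτ : 0 < τ) (hw : 0 < w) (hθ : 0 ≤ θ) (k : ℕ) (𝒰 : Finset (Finset ι))
    (h𝒰 : ∀ U ∈ 𝒰, U.Nonempty ∧ U.card ≤ k ∧ sU p R f τ w U ≤ θ) :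
    ∑ U ∈ 𝒰, sU p R f τ w U * Real.sqrt (sU p R f τ w U)
      ≤ Real.sqrt θ * ((∑ u ∈ R, piv p f u) / τ) * (w / τ + 1) ^ k := by
  have hs0 : ∀ U, 0 ≤ sU p R f τ w U := fun U => by
    unfold sU
    have h := ex_mono (ι := ι) hp0 hp1 (g := fun _ => (0 : ℝ))
      (h := fun z => ind (Iz p R f z ≤ w ∧ U ⊆ J p R f τ z)) (fun z => ind_nonneg _)
    rwa [ex_const hp0 hp1] at h
  -- first bound each square root
  have h1 : ∑ U ∈ 𝒰, sU p R f τ w U * Real.sqrt (sU p R f τ w U)
      ≤ Real.sqrt θ * ∑ U ∈ 𝒰, sU p R f τ w U := by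
    rw [Finset.mul_sum]
    refine Finset.sum_le_sum fun U hU => ?_
    have := Real.sqrt_le_sqrt (h𝒰 U hU).2.2
    nlinarith [hs0 U, Real.sqrt_nonneg (sU p R f τ w U)]
  -- the sum of the `s_U`
  have hbase : 0 ≤ w / τ + 1 := by positivity
  have h2 : ∑ U ∈ 𝒰, sU p R f τ w U
      ≤ ex p (fun z => ind (τ ≤ Iz p R f z) * (w / τ + 1) ^ k) := by
    unfold sU
    rw [← ex_sum]
    apply ex_mono hp0 hp1
    intro z
    by_cases hG : Iz p R f z ≤ w
    · -- count the sets inside `J`
      set Jz := J p R f τ z with hJz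
      have hcard : ((Jz.card : ℝ)) ≤ w / τ := by
        rw [le_div_iff₀ hτ]
        have : ∑ u ∈ Jz, τ ≤ ∑ u ∈ Jz, pz p R f u z :=
          Finset.sum_le_sum fun u hu => (mem_J.mp hu).2
        rw [Finset.sum_const, nsmul_eq_mul] at this
        have h3 : ∑ u ∈ Jz, pz p R f u z ≤ Iz p R f z := by
          unfold Iz
          refine Finset.sum_le_sum_of_subset_of_nonneg ?_ fun u _ _ => pz_nonneg hp0 hp1 R f u z
          intro u hu; exact (mem_J.mp hu).1
        linarith
      by_cases hne : Jz.Nonempty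
      · obtain ⟨u, hu⟩ := hne
        have hτI : τ ≤ Iz p R f z := by
          have h3 : pz p R f u z ≤ Iz p R f z :=
            Finset.single_le_sum (f := fun u => pz p R f u z)
              (fun u _ => pz_nonneg hp0 hp1 R f u z) (mem_J.mp hu).1
          exact (mem_J.mp hu).2.trans h3
        rw [ind_true hτI, one_mul]
        have h4 : ∑ U ∈ 𝒰, ind (Iz p R f z ≤ w ∧ U ⊆ Jz)
            ≤ ((Jz.powerset.filter (fun U => U.card ≤ k)).card : ℝ) := by
          classical
          have : ∑ U ∈ 𝒰, ind (Iz p R f z ≤ w ∧ U ⊆ Jz)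
              = ((𝒰.filter (fun U => U ⊆ Jz)).card : ℝ) := by
            rw [Finset.card_filter]
            push_cast
            refine Finset.sum_congr rfl fun U _ => ?_
            by_cases hU : U ⊆ Jz
            · simp [hU, hG]
            · simp [hU]
          rw [this]
          have hsub : 𝒰.filter (fun U => U ⊆ Jz) ⊆ Jz.powerset.filter (fun U => U.card ≤ k) := by
            intro U hU
            simp only [Finset.mem_filter, Finset.mem_powerset] at hU ⊢
            exact ⟨hU.2, (h𝒰 U hU.1).2.1⟩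
          exact_mod_cast Finset.card_le_card hsub
        refine h4.trans ((card_small_subsets_le Jz k).trans ?_)
        exact pow_le_pow_left₀ (by positivity) (by linarith) k
      · -- `J` empty: no nonempty set fits
        have h5 : ∑ U ∈ 𝒰, ind (Iz p R f z ≤ w ∧ U ⊆ Jz) = 0 := by
          refine Finset.sum_eq_zero fun U hU => ?_
          refine ind_false ?_
          rintro ⟨_, hsub⟩
          exact hne ((h𝒰 U hU).1.mono hsub)
        rw [h5]
        exact mul_nonneg (ind_nonneg _) (pow_nonneg hbase k)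
    · have h5 : ∑ U ∈ 𝒰, ind (Iz p R f z ≤ w ∧ U ⊆ J p R f τ z) = 0 :=
        Finset.sum_eq_zero fun U _ => ind_false fun h => hG h.1
      rw [h5]
      exact mul_nonneg (ind_nonneg _) (pow_nonneg hbase k)
  have h3 : ex p (fun z => ind (τ ≤ Iz p R f z) * (w / τ + 1) ^ k)
      ≤ ((∑ u ∈ R, piv p f u) / τ) * (w / τ + 1) ^ k := by
    rw [ex_mul_right]
    exact mul_le_mul_of_nonneg_right
      (markov_Iz hp0 hp1 R f hτ (fun z => τ ≤ Iz p R f z) fun z hz => hz) (pow_nonneg hbase k)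
  calc ∑ U ∈ 𝒰, sU p R f τ w U * Real.sqrt (sU p R f τ w U)
      ≤ Real.sqrt θ * ∑ U ∈ 𝒰, sU p R f τ w U := h1
    _ ≤ Real.sqrt θ * (((∑ u ∈ R, piv p f u) / τ) * (w / τ + 1) ^ k) :=
        mul_le_mul_of_nonneg_left (h2.trans h3) (Real.sqrt_nonneg θ)
    _ = _ := by ring

/-! ### the three-part bound -/

/-- Pointwise bound for the part `c²`. -/
lemma c2_pointwise (hp0 : 0 < p) (hp1 : p < 1) (R : Finset ι) (f : (ι → Bool) → Bool)
    {τ : ℝ} (hτ : 0 < τ) (L : ℕ) (𝒰 : Finset (Finset ι))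
    (h𝒰 : ∀ U ∈ 𝒰, U ⊆ R ∧ U.Nonempty ∧ U.card ≤ L) (z : ι → Bool) :
    ∑ U ∈ 𝒰, cU p R f U z ^ 2 * ind (¬ U ⊆ J p R f τ z)
      ≤ (2 / sig p) ^ L * (sig p ^ 2 * Real.sqrt τ) * Iz p R f z := by
  classical
  set Jz := J p R f τ z with hJz
  have hσ : 0 < sig p := sig_pos hp0 hp1
  have hΓ : 0 ≤ (2 / sig p) ^ L * (sig p ^ 2 * Real.sqrt τ) := by positivity
  -- each bad `U` has a witness outside `J`
  have h1 : ∑ U ∈ 𝒰, cU p R f U z ^ 2 * ind (¬ U ⊆ Jz)
      ≤ ∑ U ∈ 𝒰, ∑ u ∈ R.filter (fun u => u ∉ Jz),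
          (if u ∈ U then cU p R f U z ^ 2 else 0) := by
    refine Finset.sum_le_sum fun U hU => ?_
    by_cases hsub : U ⊆ Jz
    · rw [ind_false (not_not.mpr hsub), mul_zero]
      exact Finset.sum_nonneg fun u _ => by split_ifs <;> positivity
    · rw [ind_true hsub, mul_one]
      obtain ⟨u, huU, huJ⟩ := Finset.not_subset.mp hsub
      have hmem : u ∈ R.filter (fun u => u ∉ Jz) :=
        Finset.mem_filter.mpr ⟨(h𝒰 U hU).1 huU, huJ⟩
      have := Finset.single_le_sum (f := fun u => if u ∈ U then cU p R f U z ^ 2 else 0)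
        (fun u _ => by split_ifs <;> positivity) hmem
      simpa [huU] using this
  rw [Finset.sum_comm] at h1
  refine h1.trans ?_
  -- per coordinate
  have h2 : ∀ u ∈ R.filter (fun u => u ∉ Jz),
      ∑ U ∈ 𝒰, (if u ∈ U then cU p R f U z ^ 2 else 0)
        ≤ (2 / sig p) ^ L * (sig p ^ 2 * Real.sqrt τ) * pz p R f u z := by
    intro u hu
    have huR : u ∈ R := (Finset.mem_filter.mp hu).1
    have huJ : u ∉ Jz := (Finset.mem_filter.mp hu).2
    have hlt : pz p R f u z < τ := by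
      by_contra hcon
      exact huJ (mem_J.mpr ⟨huR, not_lt.mp hcon⟩)
    have h3 : ∑ U ∈ 𝒰, (if u ∈ U then cU p R f U z ^ 2 else 0)
        ≤ ∑ S ∈ univ.filter (fun S : Finset ι => u ∈ S ∧ S.card ≤ L),
            coeff p (bv (fib R f z)) S ^ 2 := by
      have : ∑ U ∈ 𝒰, (if u ∈ U then cU p R f U z ^ 2 else 0)
          = ∑ U ∈ 𝒰.filter (fun U => u ∈ U), cU p R f U z ^ 2 := by
        rw [Finset.sum_filter]
      rw [this]
      refine Finset.sum_le_sum_of_subset_of_nonneg ?_ fun S _ _ => sq_nonneg _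
      intro U hU
      have hU' := Finset.mem_filter.mp hU
      exact Finset.mem_filter.mpr ⟨Finset.mem_univ _, hU'.2, (h𝒰 U hU'.1).2.2⟩
    have h4 := low_mem_le hp0 hp1 (fib R f z) u L
    have hp_nn : 0 ≤ pz p R f u z := pz_nonneg hp0 hp1 R f u z
    have h5 : Real.sqrt (pz p R f u z) ≤ Real.sqrt τ := Real.sqrt_le_sqrt hlt.le
    have h6 : piv p (fib R f z) u = pz p R f u z := rfl
    rw [h6] at h4
    refine h3.trans (h4.trans ?_)
    have hΓL : 0 ≤ (2 / sig p) ^ L := by positivity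
    calc (2 / sig p) ^ L * (sig p ^ 2 * (pz p R f u z * Real.sqrt (pz p R f u z)))
        ≤ (2 / sig p) ^ L * (sig p ^ 2 * (pz p R f u z * Real.sqrt τ)) := by
          apply mul_le_mul_of_nonneg_left _ hΓL
          apply mul_le_mul_of_nonneg_left _ (sq_nonneg _)
          exact mul_le_mul_of_nonneg_left h5 hp_nn
      _ = _ := by ring
  refine (Finset.sum_le_sum h2).trans ?_
  rw [← Finset.mul_sum]
  apply mul_le_mul_of_nonneg_left _ hΓ
  unfold Iz
  exact Finset.sum_le_sum_of_subset_of_nonneg (Finset.filter_subset _ _)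
    fun u _ _ => pz_nonneg hp0 hp1 R f u z

/-- Pointwise bound for the part `c³`. -/
lemma c3_pointwise (hp0 : 0 < p) (hp1 : p < 1) (R : Finset ι) (f : (ι → Bool) → Bool)
    (𝒰 : Finset (Finset ι)) (h𝒰 : ∀ U ∈ 𝒰, U.Nonempty) (z : ι → Bool) :
    ∑ U ∈ 𝒰, cU p R f U z ^ 2 ≤ 1 / 4 := by
  classical
  have h1 : ∑ U ∈ 𝒰, cU p R f U z ^ 2
      ≤ ∑ S ∈ univ.filter (fun S : Finset ι => S.Nonempty), coeff p (bv (fib R f z)) S ^ 2 := by
    refine Finset.sum_le_sum_of_subset_of_nonneg ?_ fun S _ _ => sq_nonneg _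
    intro U hU
    exact Finset.mem_filter.mpr ⟨Finset.mem_univ _, h𝒰 U hU⟩
  rw [var_eq hp0 hp1] at h1
  nlinarith [sq_nonneg (ex p (bv (fib R f z)) - 1 / 2)]

/-- The three-part bound: the heart of the proof. -/
theorem three_part (hp0 : 0 < p) (hp1 : p < 1) (R : Finset ι) (f : (ι → Bool) → Bool)
    {τ w : ℝ} (hτ : 0 < τ) (hw : 0 < w) (L : ℕ) (𝒰 : Finset (Finset ι)) (m : Finset ι → ℕ)
    (h𝒰 : ∀ U ∈ 𝒰, U ⊆ R ∧ U.Nonempty ∧ U.card ≤ L) :
    ∑ U ∈ 𝒰, ∑ B ∈ (univ.filter (fun B : Finset ι => Disjoint B R ∧ B.card ≤ m U)),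
        coeff p (bv f) (U ∪ B) ^ 2
      ≤ 3 * (∑ U ∈ 𝒰, (2 / sig p) ^ m U * (sU p R f τ w U * Real.sqrt (sU p R f τ w U))
        + (2 / sig p) ^ L * (sig p ^ 2 * Real.sqrt τ) * ∑ u ∈ R, piv p f u
        + (1 / 4) * (∑ u ∈ R, piv p f u) / w) := by
  classical
  have hσ : 0 < sig p := sig_pos hp0 hp1
  -- the three parts of `c_U`
  let G : (ι → Bool) → Prop := fun z => Iz p R f z ≤ w
  let c1 : Finset ι → (ι → Bool) → ℝ := fun U z =>
    cU p R f U z * ind (G z ∧ U ⊆ J p R f τ z)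
  let c2 : Finset ι → (ι → Bool) → ℝ := fun U z =>
    cU p R f U z * ind (G z ∧ ¬ U ⊆ J p R f τ z)
  let c3 : Finset ι → (ι → Bool) → ℝ := fun U z => cU p R f U z * ind (¬ G z)
  have hsplit : ∀ U z, cU p R f U z = c1 U z + c2 U z + c3 U z := by
    intro U z
    by_cases hG : G z <;> by_cases hJ : U ⊆ J p R f τ z <;> simp [c1, c2, c3, hG, hJ]
  have hcoeff : ∀ U B, coeff p (cU p R f U) B
      = coeff p (c1 U) B + coeff p (c2 U) B + coeff p (c3 U) B := by
    intro U B
    have : cU p R f U = fun z => (fun z => c1 U z + c2 U z) z + c3 U z := by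
      funext z; exact hsplit U z
    rw [this, coeff_add, coeff_add]
  -- bound for each `U`
  have hU : ∀ U ∈ 𝒰, ∑ B ∈ (univ.filter (fun B : Finset ι => Disjoint B R ∧ B.card ≤ m U)),
        coeff p (bv f) (U ∪ B) ^ 2
      ≤ 3 * ((2 / sig p) ^ m U * (sU p R f τ w U * Real.sqrt (sU p R f τ w U))
        + ex p (fun z => c2 U z ^ 2) + ex p (fun z => c3 U z ^ 2)) := by
    intro U hU
    set 𝓑 := univ.filter (fun B : Finset ι => Disjoint B R ∧ B.card ≤ m U) with h𝓑
    have h1 : ∑ B ∈ 𝓑, coeff p (bv f) (U ∪ B) ^ 2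
        ≤ ∑ B ∈ 𝓑, 3 * (coeff p (c1 U) B ^ 2 + coeff p (c2 U) B ^ 2 + coeff p (c3 U) B ^ 2) := by
      refine Finset.sum_le_sum fun B hB => ?_
      have hB' := (Finset.mem_filter.mp hB).2
      rw [coeff_union hp0 hp1 R f (h𝒰 U hU).1 hB'.1, hcoeff]
      nlinarith [sq_nonneg (coeff p (c1 U) B - coeff p (c2 U) B),
        sq_nonneg (coeff p (c1 U) B - coeff p (c3 U) B),
        sq_nonneg (coeff p (c2 U) B - coeff p (c3 U) B)]
    refine h1.trans ?_
    rw [← Finset.mul_sum, Finset.sum_add_distrib, Finset.sum_add_distrib]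
    apply mul_le_mul_of_nonneg_left _ (by norm_num : (0 : ℝ) ≤ 3)
    -- part 1
    have h2 : ∑ B ∈ 𝓑, coeff p (c1 U) B ^ 2
        ≤ (2 / sig p) ^ m U * (sU p R f τ w U * Real.sqrt (sU p R f τ w U)) := by
      have h3 := sum_low_le hp0 hp1 (c1 U) 𝓑 (m U)
        (fun S hS => (Finset.mem_filter.mp hS).2.2)
      refine h3.trans ?_
      apply mul_le_mul_of_nonneg_left _ (by positivity)
      have h4 : Qf p (c1 U) ≤ 1 ^ 2 * (sU p R f τ w U * Real.sqrt (sU p R f τ w U)) := by
        apply Qf_le hp0 hp1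
        · intro z
          simp only [c1, abs_mul]
          have h5 := abs_cU_le_one hp0 hp1 R f U z
          have h6 : |ind (G z ∧ U ⊆ J p R f τ z)| ≤ 1 := by
            rw [abs_of_nonneg (ind_nonneg _)]; exact ind_le_one _
          calc _ ≤ (1 : ℝ) * 1 := mul_le_mul h5 h6 (abs_nonneg _) zero_le_one
            _ = 1 := one_mul _
        · unfold sU
          apply ex_mono hp0 hp1
          intro z
          by_cases h7 : G z ∧ U ⊆ J p R f τ z
          · rw [ind_true h7]; exact ind_le_one _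
          · have : c1 U z = 0 := by simp only [c1]; rw [ind_false h7, mul_zero]
            rw [ind_false (by simpa using this)]
            exact ind_nonneg _
      simpa using h4
    -- part 2 and 3: Parseval
    have h8 : ∀ g : (ι → Bool) → ℝ, ∑ B ∈ 𝓑, coeff p g B ^ 2 ≤ ex p (fun z => g z ^ 2) := by
      intro g
      rw [← sum_coeff_sq hp0 hp1]
      exact Finset.sum_le_sum_of_subset_of_nonneg (Finset.subset_univ _)
        fun S _ _ => sq_nonneg _
    linarith [h8 (c2 U), h8 (c3 U)]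
  refine (Finset.sum_le_sum hU).trans ?_
  rw [← Finset.mul_sum, Finset.sum_add_distrib, Finset.sum_add_distrib]
  apply mul_le_mul_of_nonneg_left _ (by norm_num : (0 : ℝ) ≤ 3)
  -- sum of part 2
  have hP2 : ∑ U ∈ 𝒰, ex p (fun z => c2 U z ^ 2)
      ≤ (2 / sig p) ^ L * (sig p ^ 2 * Real.sqrt τ) * ∑ u ∈ R, piv p f u := by
    rw [← ex_sum, ← ex_Iz hp0 hp1, ← ex_mul_left]
    apply ex_mono hp0 hp1
    intro z
    refine le_trans ?_ (c2_pointwise hp0 hp1 R f hτ L 𝒰 h𝒰 z)
    refine Finset.sum_le_sum fun U _ => ?_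
    have : c2 U z ^ 2 = cU p R f U z ^ 2 * ind (G z ∧ ¬ U ⊆ J p R f τ z) := by
      simp only [c2, mul_pow, ind_sq]
    rw [this]
    apply mul_le_mul_of_nonneg_left _ (sq_nonneg _)
    by_cases h9 : G z ∧ ¬ U ⊆ J p R f τ z
    · rw [ind_true h9, ind_true h9.2]
    · rw [ind_false h9]; exact ind_nonneg _
  -- sum of part 3
  have hP3 : ∑ U ∈ 𝒰, ex p (fun z => c3 U z ^ 2)
      ≤ (1 / 4) * (∑ u ∈ R, piv p f u) / w := by
    rw [← ex_sum]
    have h10 : ex p (fun z => ∑ U ∈ 𝒰, c3 U z ^ 2) ≤ ex p (fun z => (1 / 4) * ind (¬ G z)) := by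
      apply ex_mono hp0 hp1
      intro z
      have : ∑ U ∈ 𝒰, c3 U z ^ 2 = (∑ U ∈ 𝒰, cU p R f U z ^ 2) * ind (¬ G z) := by
        rw [Finset.sum_mul]
        refine Finset.sum_congr rfl fun U _ => ?_
        simp only [c3, mul_pow, ind_sq]
      rw [this]
      exact mul_le_mul_of_nonneg_right
        (c3_pointwise hp0 hp1 R f 𝒰 (fun U hU => (h𝒰 U hU).2.1) z) (ind_nonneg _)
    refine h10.trans ?_
    rw [ex_mul_left, mul_div_assoc]
    apply mul_le_mul_of_nonneg_left _ (by norm_num : (0 : ℝ) ≤ 1 / 4)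
    exact markov_Iz hp0 hp1 R f hw (fun z => ¬ G z) fun z hz => (not_le.mp hz).le
  linarith

end Crest.Agent.BK
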