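/-
Row 56, task D (Symmetry.lean): bridges to the Prelude, vertex-permutation symmetry of `s_U`,
and the `Θ^t` bound.
-/
import Crest.Agent.Lib.BK.Defs

set_option autoImplicit false

namespace Crest.Agent.BK

open Finset
open Crest.CombinatoricsR.HypergraphCube

section Generic
variable {ι : Type*} [Fintype ι] [DecidableEq ι] {p : ℝ}

lemma sym_weight_nonneg (hp0 : 0 < p) (hp1 : p < 1) (x : ι → Bool) :
    0 ≤ Crest.FinProb.bernoulliWeight p x := by
  unfold Crest.FinProb.bernoulliWeight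
  apply Finset.prod_nonneg
  intro i _
  split_ifs <;> linarith

lemma sym_ex_mono (hp0 : 0 < p) (hp1 : p < 1) {g h : (ι → Bool) → ℝ} (hgh : ∀ x, g x ≤ h x) :
    ex p g ≤ ex p h := by
  unfold ex
  apply Finset.sum_le_sum
  intro x _
  exact mul_le_mul_of_nonneg_left (hgh x) (sym_weight_nonneg hp0 hp1 x)

lemma sym_ex_nonneg (hp0 : 0 < p) (hp1 : p < 1) {g : (ι → Bool) → ℝ} (hg : ∀ x, 0 ≤ g x) :
    0 ≤ ex p g := by
  unfold ex
  apply Finset.sum_nonneg
  intro x _
  exact mul_nonneg (sym_weight_nonneg hp0 hp1 x) (hg x)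

lemma sym_ex_one (hp0 : 0 < p) (hp1 : p < 1) :
    ex p (fun _ : ι → Bool => (1 : ℝ)) = 1 := by
  unfold ex Crest.FinProb.bernoulliWeight
  simp only [mul_one]
  have := Finset.prod_univ_sum (fun _ : ι => (univ : Finset Bool))
    (fun (_ : ι) (b : Bool) => if b then p else 1 - p)
  simp only [Fintype.piFinset_univ] at this
  rw [← this]
  simp

lemma sym_ex_sum {α : Type*} (s : Finset α) (g : α → (ι → Bool) → ℝ) :
    ex p (fun x => ∑ a ∈ s, g a x) = ∑ a ∈ s, ex p (g a) := by
  unfold ex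
  simp only [Finset.mul_sum]
  rw [Finset.sum_comm]

lemma sym_ex_mul_left (a : ℝ) (g : (ι → Bool) → ℝ) : ex p (fun x => a * g x) = a * ex p g := by
  unfold ex
  rw [Finset.mul_sum]
  apply Finset.sum_congr rfl
  intro x _
  ring

lemma sym_bernoulliProb (E : Set (ι → Bool)) :
    Crest.FinProb.bernoulliProb p E = ex p (fun x => ind (x ∈ E)) := by
  classical
  unfold Crest.FinProb.bernoulliProb ex
  rw [Finset.sum_filter]
  apply Finset.sum_congr rfl
  intro x _
  by_cases h : x ∈ E
  · simp [h]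
  · simp [h]

/-- Invariance of the law under permuting the coordinates. -/
lemma sym_ex_comp_perm (π : Equiv.Perm ι) (g : (ι → Bool) → ℝ) :
    ex p (fun x => g (x ∘ π)) = ex p g := by
  unfold ex
  let E : (ι → Bool) ≃ (ι → Bool) := Equiv.arrowCongr π.symm (Equiv.refl Bool)
  have hE : ∀ x, E x = x ∘ π := by
    intro x
    funext i
    simp [E, Equiv.arrowCongr]
  rw [← Equiv.sum_comp E (fun x => Crest.FinProb.bernoulliWeight p x * g x)]
  apply Finset.sum_congr rfl
  intro x _
  rw [hE]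
  congr 1
  unfold Crest.FinProb.bernoulliWeight
  exact (Equiv.prod_comp π (fun i => if x i then p else 1 - p)).symm

lemma sym_pz_nonneg (hp0 : 0 < p) (hp1 : p < 1) (R : Finset ι) (f : (ι → Bool) → Bool) (u : ι)
    (z : ι → Bool) : 0 ≤ pz p R f u z := by
  unfold pz piv
  exact sym_ex_nonneg hp0 hp1 (fun x => ind_nonneg _)

lemma sym_mem_J {R : Finset ι} {f : (ι → Bool) → Bool} {τ : ℝ} {z : ι → Bool} {u : ι} :
    u ∈ J p R f τ z ↔ u ∈ R ∧ τ ≤ pz p R f u z := by
  classical
  unfold J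
  simp

/-- On the good event the set `J(z)` is small. -/
lemma sym_card_J_le (hp0 : 0 < p) (hp1 : p < 1) {R : Finset ι} {f : (ι → Bool) → Bool} {τ w : ℝ}
    (hτ : 0 < τ) {z : ι → Bool} (hz : Iz p R f z ≤ w) :
    ((J p R f τ z).card : ℝ) ≤ w / τ := by
  rw [le_div_iff₀ hτ]
  calc ((J p R f τ z).card : ℝ) * τ = ∑ _u ∈ J p R f τ z, τ := by simp
    _ ≤ ∑ u ∈ J p R f τ z, pz p R f u z :=
        Finset.sum_le_sum (fun u hu => (sym_mem_J.1 hu).2)
    _ ≤ ∑ u ∈ R, pz p R f u z :=
        Finset.sum_le_sum_of_subset_of_nonneg (fun u hu => (sym_mem_J.1 hu).1)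
          (fun u _ _ => sym_pz_nonneg hp0 hp1 R f u z)
    _ ≤ w := hz

lemma sym_sU_nonneg (hp0 : 0 < p) (hp1 : p < 1) (R : Finset ι) (f : (ι → Bool) → Bool) (τ w : ℝ)
    (U : Finset ι) : 0 ≤ sU p R f τ w U := by
  unfold sU
  exact sym_ex_nonneg hp0 hp1 (fun x => ind_nonneg _)

lemma sym_sU_empty_le (hp0 : 0 < p) (hp1 : p < 1) (R : Finset ι) (f : (ι → Bool) → Bool) (τ w : ℝ) :
    sU p R f τ w ∅ ≤ 1 := by
  unfold sU
  rw [← sym_ex_one (ι := ι) hp0 hp1]
  exact sym_ex_mono hp0 hp1 (fun x => ind_le_one _)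

lemma sym_sU_anti (hp0 : 0 < p) (hp1 : p < 1) (R : Finset ι) (f : (ι → Bool) → Bool) (τ w : ℝ)
    {U U' : Finset ι} (h : U ⊆ U') : sU p R f τ w U' ≤ sU p R f τ w U := by
  unfold sU
  apply sym_ex_mono hp0 hp1
  intro z
  by_cases hz : Iz p R f z ≤ w ∧ U' ⊆ J p R f τ z
  · rw [ind_true hz, ind_true ⟨hz.1, h.trans hz.2⟩]
  · rw [ind_false hz]
    exact ind_nonneg _

end Generic

section Hyper

variable {n r B : ℕ} {p : ℝ}

/-- `piv` equals the Prelude's `pivotalInfluence`; `ex (bv f)` equals `probTrue`. -/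
lemma probTrue_eq (f : (HyperedgeSlot n r → Bool) → Bool) :
    probTrue p f = ex p (bv f) := by
  unfold probTrue
  rw [sym_bernoulliProb]
  rfl

lemma totalInfluence_eq (f : (HyperedgeSlot n r → Bool) → Bool) :
    totalInfluence p f = totInf p f := by
  unfold totalInfluence totInf pivotalInfluence piv
  apply Finset.sum_congr rfl
  intro e _
  rw [sym_bernoulliProb]
  rfl

/-- `relabelSlot σ` as a permutation of the slots. -/
def slotPerm (σ : Equiv.Perm (Fin n)) : Equiv.Perm (HyperedgeSlot n r) where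
  toFun := relabelSlot σ
  invFun := relabelSlot σ⁻¹
  left_inv e := by
    apply Subtype.ext
    ext v
    simp [relabelSlot, Equiv.Perm.inv_def]
  right_inv e := by
    apply Subtype.ext
    ext v
    simp [relabelSlot, Equiv.Perm.inv_def]

@[simp] lemma slotPerm_apply (σ : Equiv.Perm (Fin n)) (e : HyperedgeSlot n r) :
    slotPerm σ e = relabelSlot σ e := rfl

lemma relabel_eq_comp (σ : Equiv.Perm (Fin n)) (x : HyperedgeSlot n r → Bool) :
    relabel σ x = x ∘ slotPerm σ := rfl

lemma sym_update_comp_perm {ι : Type*} [DecidableEq ι] (π : Equiv.Perm ι) (x : ι → Bool) (u : ι)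
    (b : Bool) : Function.update (x ∘ π) u b = (Function.update x (π u) b) ∘ π := by
  funext i
  by_cases h : i = u
  · subst h; simp
  · have : π i ≠ π u := fun h' => h (π.injective h')
    simp [Function.update_of_ne, h, this]

lemma sym_f_comp {f : (HyperedgeSlot n r → Bool) → Bool} (hf : IsSymmetric f)
    (σ : Equiv.Perm (Fin n)) (y : HyperedgeSlot n r → Bool) : f (y ∘ slotPerm σ) = f y :=
  hf σ y

/-- The image of a slot under a permutation, changing the influence coordinate. -/
lemma piv_slotPerm {f : (HyperedgeSlot n r → Bool) → Bool} (hf : IsSymmetric f)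
    (σ : Equiv.Perm (Fin n)) (e : HyperedgeSlot n r) : piv p f e = piv p f (slotPerm σ e) := by
  unfold piv
  rw [← sym_ex_comp_perm (slotPerm σ)]
  congr 1
  funext x
  rw [sym_update_comp_perm, sym_update_comp_perm, sym_f_comp hf, sym_f_comp hf]

/-- All slots have the same influence. -/
lemma piv_eq_of_symm (hp0 : 0 < p) (hp1 : p < 1) {f : (HyperedgeSlot n r → Bool) → Bool}
    (hf : IsSymmetric f) (e e' : HyperedgeSlot n r) : piv p f e = piv p f e' := by
  classical
  -- a permutation taking `e` to `e'`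
  obtain ⟨σ, hσ⟩ : ∃ σ : Equiv.Perm (Fin n), relabelSlot σ e = e' := by
    have hcard : Fintype.card {x // x ∈ e.1} = Fintype.card {x // x ∈ e'.1} := by
      simp [e.2, e'.2]
    let E : {x // x ∈ e.1} ≃ {x // x ∈ e'.1} := Fintype.equivOfCardEq hcard
    refine ⟨E.extendSubtype, ?_⟩
    apply Subtype.ext
    apply Finset.eq_of_subset_of_card_le
    · intro v hv
      simp only [relabelSlot, Finset.mem_map] at hv
      obtain ⟨y, hy, rfl⟩ := hv
      exact Equiv.extendSubtype_mem E y hy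
    · simp [relabelSlot, e.2, e'.2]
  rw [piv_slotPerm hf σ e]
  rw [slotPerm_apply, hσ]

section Relabel

variable [NeZero B] {f : (HyperedgeSlot n r → Bool) → Bool} (hf : IsSymmetric f)
  (c : Fin n → ZMod B) (σ : Equiv.Perm (Fin n)) (hσ : ∀ v, c (σ v) = c v)

include hσ

lemma mem_Rc_slotPerm (e : HyperedgeSlot n r) : slotPerm σ e ∈ Rc c ↔ e ∈ Rc c := by
  simp [Rc, relabelSlot, Finset.sum_map, hσ]

lemma sym_glue_comp (x z : HyperedgeSlot n r → Bool) :
    glue (Rc c) (x ∘ slotPerm σ) (z ∘ slotPerm σ) = (glue (Rc c) x z) ∘ slotPerm σ := by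
  funext e
  simp only [glue, Function.comp_apply]
  by_cases h : e ∈ Rc c
  · rw [if_pos h, if_pos ((mem_Rc_slotPerm c σ hσ e).2 h)]
  · rw [if_neg h, if_neg (fun h' => h ((mem_Rc_slotPerm c σ hσ e).1 h'))]

include hf

lemma sym_fib_comp (x z : HyperedgeSlot n r → Bool) :
    fib (Rc c) f (z ∘ slotPerm σ) (x ∘ slotPerm σ) = fib (Rc c) f z x := by
  unfold fib
  rw [sym_glue_comp c σ hσ, sym_f_comp hf]

lemma sym_pz_comp (u : HyperedgeSlot n r) (z : HyperedgeSlot n r → Bool) :
    pz p (Rc c) f u (z ∘ slotPerm σ) = pz p (Rc c) f (slotPerm σ u) z := by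
  unfold pz piv
  rw [← sym_ex_comp_perm (slotPerm σ)]
  congr 1
  funext x
  rw [sym_update_comp_perm, sym_update_comp_perm, sym_fib_comp hf c σ hσ, sym_fib_comp hf c σ hσ]

lemma sym_Iz_comp (z : HyperedgeSlot n r → Bool) :
    Iz p (Rc c) f (z ∘ slotPerm σ) = Iz p (Rc c) f z := by
  unfold Iz
  simp only [sym_pz_comp hf c σ hσ]
  apply Finset.sum_equiv (slotPerm σ)
  · intro i
    exact (mem_Rc_slotPerm c σ hσ i).symm
  · intro i _
    rfl

lemma sym_mem_J_comp {τ : ℝ} (u : HyperedgeSlot n r) (z : HyperedgeSlot n r → Bool) :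
    u ∈ J p (Rc c) f τ (z ∘ slotPerm σ) ↔ slotPerm σ u ∈ J p (Rc c) f τ z := by
  rw [sym_mem_J, sym_mem_J, sym_pz_comp hf c σ hσ, mem_Rc_slotPerm c σ hσ]

end Relabel

/-- Colour-preserving permutations preserve `s_U`. -/
lemma sU_relabel [NeZero B] (hp0 : 0 < p) (hp1 : p < 1) {f : (HyperedgeSlot n r → Bool) → Bool}
    (hf : IsSymmetric f)
    (c : Fin n → ZMod B) (σ : Equiv.Perm (Fin n)) (hσ : ∀ v, c (σ v) = c v) (τ w : ℝ)
    (U : Finset (HyperedgeSlot n r)) :
    sU p (Rc c) f τ w (U.image (relabelSlot σ)) = sU p (Rc c) f τ w U := by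
  classical
  unfold sU
  conv_rhs => rw [← sym_ex_comp_perm (slotPerm σ)]
  congr 1
  funext z
  have h1 : (U ⊆ J p (Rc c) f τ (z ∘ slotPerm σ)) ↔ (U.image (relabelSlot σ) ⊆ J p (Rc c) f τ z) := by
    constructor
    · intro h y hy
      obtain ⟨u, hu, rfl⟩ := Finset.mem_image.1 hy
      exact (sym_mem_J_comp hf c σ hσ u z).1 (h hu)
    · intro h u hu
      exact (sym_mem_J_comp hf c σ hσ u z).2 (h (Finset.mem_image_of_mem _ hu))
  rw [sym_Iz_comp hf c σ hσ, h1]

/-- A vertex swap fixes a slot avoiding both vertices. -/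
lemma relabelSlot_swap_of_notMem {v a : Fin n} {e : HyperedgeSlot n r} (hv : v ∉ e.1)
    (ha : a ∉ e.1) : relabelSlot (Equiv.swap v a) e = e := by
  apply Subtype.ext
  simp only [relabelSlot]
  ext y
  rw [Finset.mem_map_equiv]
  have h : (Equiv.swap v a).symm y = Equiv.swap v a y := rfl
  rw [h]
  by_cases hy : y ∈ e.1
  · have hyv : y ≠ v := fun h => hv (h ▸ hy)
    have hya : y ≠ a := fun h => ha (h ▸ hy)
    rw [Equiv.swap_apply_of_ne_of_ne hyv hya]
  · by_cases hyv : y = v
    · subst hyv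
      simp [ha, hv]
    · by_cases hya : y = a
      · subst hya
        simp [ha, hv]
      · rw [Equiv.swap_apply_of_ne_of_ne hyv hya]

/-- `a ↦ e^a` is injective on vertices outside `e`. -/
lemma swap_slot_inj {v a b : Fin n} {e : HyperedgeSlot n r} (hv : v ∈ e.1)
    (ha : a ∉ e.1) (hb : b ∉ e.1)
    (h : relabelSlot (Equiv.swap v a) e = relabelSlot (Equiv.swap v b) e) : a = b := by
  have h1 : a ∈ (relabelSlot (Equiv.swap v a) e).1 := by
    simp only [relabelSlot, Finset.mem_map]
    exact ⟨v, hv, by simp⟩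
  rw [h] at h1
  simp only [relabelSlot, Finset.mem_map] at h1
  obtain ⟨y, hy, hya⟩ := h1
  have hya' : Equiv.swap v b y = a := hya
  by_cases hyv : y = v
  · subst hyv
    rw [Equiv.swap_apply_left] at hya'
    exact hya'.symm
  · have hyb : y ≠ b := fun h => hb (h ▸ hy)
    rw [Equiv.swap_apply_of_ne_of_ne hyv hyb] at hya'
    exact absurd (hya' ▸ hy) ha

/-- One step of the `Θ^t` induction. -/
lemma sU_step [NeZero B] (hp0 : 0 < p) (hp1 : p < 1) {f : (HyperedgeSlot n r → Bool) → Bool}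
    (hf : IsSymmetric f) (c : Fin n → ZMod B) {n₀ : ℕ}
    (hc : ∀ i, n₀ ≤ (univ.filter (fun v => c v = i)).card)
    {τ w : ℝ} (hτ : 0 < τ) (hw : 0 < w) (T : Finset (HyperedgeSlot n r))
    (e : HyperedgeSlot n r) (v : Fin n) (hv : v ∈ e.1) (hT : ∀ e' ∈ T, v ∉ e'.1) {m : ℕ}
    (hm : r * (T.card + 1) ≤ m) (hm' : m < n₀) :
    sU p (Rc c) f τ w (insert e T) ≤ ((w / τ) / ((n₀ : ℝ) - m)) * sU p (Rc c) f τ w T := by
  classical
  set A : Finset (Fin n) :=
    (univ.filter (fun a => c a = c v)) \ (T.biUnion (fun e' => e'.1) ∪ e.1) with hA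
  have hAmem : ∀ a ∈ A, c a = c v ∧ (∀ e' ∈ T, a ∉ e'.1) ∧ a ∉ e.1 := by
    intro a ha
    simp only [hA, Finset.mem_sdiff, Finset.mem_filter, Finset.mem_univ, true_and,
      Finset.mem_union, Finset.mem_biUnion, not_or, not_exists, not_and] at ha
    exact ⟨ha.1, fun e' he' => ha.2.1 e' he', ha.2.2⟩
  -- the size of `A`
  have hAcard : ((n₀ : ℝ) - m) ≤ (A.card : ℝ) := by
    have h1 : n₀ ≤ (univ.filter (fun a => c a = c v)).card := hc (c v)
    have h2 : (T.biUnion (fun e' => e'.1) ∪ e.1).card ≤ m := by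
      calc (T.biUnion (fun e' => e'.1) ∪ e.1).card
          ≤ (T.biUnion (fun e' => e'.1)).card + e.1.card := Finset.card_union_le _ _
        _ ≤ T.card * r + r := by
            have : (T.biUnion (fun e' => e'.1)).card ≤ T.card * r :=
              Finset.card_biUnion_le_card_mul _ _ _ (fun e' _ => e'.2.le)
            rw [e.2]
            omega
        _ = r * (T.card + 1) := by ring
        _ ≤ m := hm
    have h3 : (univ.filter (fun a => c a = c v)).card - (T.biUnion (fun e' => e'.1) ∪ e.1).card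
        ≤ A.card := Finset.le_card_sdiff _ _
    have h4 : n₀ ≤ A.card + m := by omega
    have h5 : (n₀ : ℝ) ≤ (A.card : ℝ) + m := by exact_mod_cast h4
    linarith
  have hpos : (0 : ℝ) < (n₀ : ℝ) - m := by
    have : (m : ℝ) < n₀ := by exact_mod_cast hm'
    linarith
  -- relabelling
  have hrel : ∀ a ∈ A, sU p (Rc c) f τ w (insert e T)
      = sU p (Rc c) f τ w (insert (relabelSlot (Equiv.swap v a) e) T) := by
    intro a ha
    obtain ⟨hca, haT, _⟩ := hAmem a ha
    have hσ : ∀ x, c (Equiv.swap v a x) = c x := by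
      intro x
      by_cases hxv : x = v
      · subst hxv; simp [hca]
      · by_cases hxa : x = a
        · subst hxa; simp [hca]
        · rw [Equiv.swap_apply_of_ne_of_ne hxv hxa]
    rw [← sU_relabel hp0 hp1 hf c (Equiv.swap v a) hσ τ w (insert e T)]
    congr 1
    rw [Finset.image_insert]
    congr 1
    apply Finset.ext
    intro y
    rw [Finset.mem_image]
    constructor
    · rintro ⟨e', he', rfl⟩
      rw [relabelSlot_swap_of_notMem (hT e' he') (haT e' he')]
      exact he'
    · intro hy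
      exact ⟨y, hy, relabelSlot_swap_of_notMem (hT y hy) (haT y hy)⟩
  -- the sum over `A`
  have hsum : (A.card : ℝ) * sU p (Rc c) f τ w (insert e T)
      ≤ (w / τ) * sU p (Rc c) f τ w T := by
    calc (A.card : ℝ) * sU p (Rc c) f τ w (insert e T)
        = ∑ a ∈ A, sU p (Rc c) f τ w (insert (relabelSlot (Equiv.swap v a) e) T) := by
          rw [Finset.sum_congr rfl (fun a ha => (hrel a ha).symm)]
          simp
      _ = ex p (fun z => ∑ a ∈ A, ind (Iz p (Rc c) f z ≤ w ∧
            insert (relabelSlot (Equiv.swap v a) e) T ⊆ J p (Rc c) f τ z)) := by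
          rw [sym_ex_sum]
          rfl
      _ ≤ ex p (fun z => (w / τ) * ind (Iz p (Rc c) f z ≤ w ∧ T ⊆ J p (Rc c) f τ z)) := by
          apply sym_ex_mono hp0 hp1
          intro z
          by_cases hz : Iz p (Rc c) f z ≤ w ∧ T ⊆ J p (Rc c) f τ z
          · rw [ind_true hz, mul_one]
            have hterm : ∀ a ∈ A, ind (Iz p (Rc c) f z ≤ w ∧
                insert (relabelSlot (Equiv.swap v a) e) T ⊆ J p (Rc c) f τ z)
                = if relabelSlot (Equiv.swap v a) e ∈ J p (Rc c) f τ z then (1 : ℝ) else 0 := by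
              intro a _
              by_cases hmem : relabelSlot (Equiv.swap v a) e ∈ J p (Rc c) f τ z
              · rw [if_pos hmem, ind_true]
                exact ⟨hz.1, Finset.insert_subset hmem hz.2⟩
              · rw [if_neg hmem, ind_false]
                intro h
                exact hmem (h.2 (Finset.mem_insert_self _ _))
            rw [Finset.sum_congr rfl hterm, Finset.sum_boole]
            refine le_trans ?_ (sym_card_J_le hp0 hp1 hτ hz.1)
            have : (A.filter (fun a => relabelSlot (Equiv.swap v a) e ∈ J p (Rc c) f τ z)).card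
                ≤ (J p (Rc c) f τ z).card := by
              apply Finset.card_le_card_of_injOn (fun a => relabelSlot (Equiv.swap v a) e)
              · intro a ha
                exact (Finset.mem_filter.1 ha).2
              · intro a ha b hb hab
                have ha' := (Finset.mem_filter.1 (Finset.mem_coe.1 ha)).1
                have hb' := (Finset.mem_filter.1 (Finset.mem_coe.1 hb)).1
                exact swap_slot_inj hv (hAmem a ha').2.2 (hAmem b hb').2.2 hab
            exact_mod_cast this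
          · rw [ind_false hz, mul_zero]
            apply le_of_eq
            apply Finset.sum_eq_zero
            intro a _
            apply ind_false
            intro h
            exact hz ⟨h.1, (Finset.insert_subset_iff.1 h.2).2⟩
      _ = (w / τ) * sU p (Rc c) f τ w T := by
          rw [sym_ex_mul_left]
          rfl
  have hs0 := sym_sU_nonneg hp0 hp1 (Rc c) f τ w (insert e T)
  have hle : ((n₀ : ℝ) - m) * sU p (Rc c) f τ w (insert e T)
      ≤ (w / τ) * sU p (Rc c) f τ w T :=
    le_trans (mul_le_mul_of_nonneg_right hAcard hs0) hsum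
  rw [div_mul_eq_mul_div, le_div_iff₀ hpos]
  linarith

/-- The induction on sequences. -/
lemma sU_seq_le [NeZero B] (hp0 : 0 < p) (hp1 : p < 1) {f : (HyperedgeSlot n r → Bool) → Bool}
    (hf : IsSymmetric f) (c : Fin n → ZMod B) {n₀ : ℕ}
    (hc : ∀ i, n₀ ≤ (univ.filter (fun v => c v = i)).card)
    {τ w : ℝ} (hτ : 0 < τ) (hw : 0 < w) {L : ℕ} (hn₀ : r * L + 1 < n₀) :
    ∀ (t : ℕ) (e : Fin t → HyperedgeSlot n r) (v : Fin t → Fin n),
      (∀ i, v i ∈ (e i).1) → (∀ i j, j < i → v i ∉ (e j).1) → t ≤ L →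
      sU p (Rc c) f τ w (univ.image e) ≤ ((w / τ) / ((n₀ : ℝ) - (r * L + 1))) ^ t
        ∧ (univ.image e).card ≤ t := by
  classical
  intro t
  induction t with
  | zero =>
    intro e v _ _ _
    simp only [pow_zero]
    have : (univ.image e) = ∅ := by simp
    rw [this]
    exact ⟨sym_sU_empty_le hp0 hp1 _ _ _ _, by simp⟩
  | succ t ih =>
    intro e v hv hnew htL
    have ih' := ih (e ∘ Fin.castSucc) (v ∘ Fin.castSucc) (fun i => hv _)
      (fun i j hji => hnew _ _ (Fin.castSucc_lt_castSucc_iff.2 hji)) (by omega)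
    have himg : (univ.image e) = insert (e (Fin.last t)) (univ.image (e ∘ Fin.castSucc)) := by
      ext y
      simp only [Finset.mem_image, Finset.mem_univ, true_and, Finset.mem_insert, Function.comp_apply]
      constructor
      · rintro ⟨i, rfl⟩
        induction i using Fin.lastCases with
        | last => exact Or.inl rfl
        | cast i => exact Or.inr ⟨i, rfl⟩
      · rintro (rfl | ⟨i, rfl⟩)
        · exact ⟨_, rfl⟩
        · exact ⟨_, rfl⟩
    have hcardT := ih'.2
    have hstep := sU_step (m := r * L + 1) hp0 hp1 hf c hc hτ hw (univ.image (e ∘ Fin.castSucc))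
      (e (Fin.last t)) (v (Fin.last t)) (hv _) (by
        intro e' he'
        obtain ⟨j, _, rfl⟩ := Finset.mem_image.1 he'
        exact hnew _ _ (Fin.castSucc_lt_last j)) (by
        have h1 : (univ.image (e ∘ Fin.castSucc)).card + 1 ≤ L := by omega
        calc r * ((univ.image (e ∘ Fin.castSucc)).card + 1) ≤ r * L := Nat.mul_le_mul_left _ h1
          _ ≤ r * L + 1 := by omega) hn₀
    rw [himg]
    constructor
    · have hpos : (0 : ℝ) < (n₀ : ℝ) - (r * L + 1) := by
        have : ((r * L + 1 : ℕ) : ℝ) < n₀ := by exact_mod_cast hn₀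
        push_cast at this
        linarith
      have hΘ : 0 ≤ (w / τ) / ((n₀ : ℝ) - (r * L + 1)) := by positivity
      calc sU p (Rc c) f τ w (insert (e (Fin.last t)) (univ.image (e ∘ Fin.castSucc)))
          ≤ ((w / τ) / ((n₀ : ℝ) - ((r * L + 1 : ℕ) : ℝ))) *
              sU p (Rc c) f τ w (univ.image (e ∘ Fin.castSucc)) := hstep
        _ = ((w / τ) / ((n₀ : ℝ) - (r * L + 1))) *
              sU p (Rc c) f τ w (univ.image (e ∘ Fin.castSucc)) := by push_cast; rfl
        _ ≤ ((w / τ) / ((n₀ : ℝ) - (r * L + 1))) * ((w / τ) / ((n₀ : ℝ) - (r * L + 1))) ^ t :=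
            mul_le_mul_of_nonneg_left ih'.1 hΘ
        _ = ((w / τ) / ((n₀ : ℝ) - (r * L + 1))) ^ (t + 1) := by ring
    · calc (insert (e (Fin.last t)) (univ.image (e ∘ Fin.castSucc))).card
          ≤ (univ.image (e ∘ Fin.castSucc)).card + 1 := Finset.card_insert_le _ _
        _ ≤ t + 1 := by omega

/-- The `Θ^t` bound. -/
theorem sU_le_pow [NeZero B] (hp0 : 0 < p) (hp1 : p < 1) {f : (HyperedgeSlot n r → Bool) → Bool}
    (hf : IsSymmetric f)
    (c : Fin n → ZMod B) {n₀ : ℕ} (hc : ∀ i, n₀ ≤ (univ.filter (fun v => c v = i)).card)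
    {τ w : ℝ} (hτ : 0 < τ) (hw : 0 < w) {U : Finset (HyperedgeSlot n r)} (_hU : U ⊆ Rc c) {t L : ℕ}
    (hseq : NewSeq U t) (htL : t ≤ L) (hn₀ : r * L + 1 < n₀) :
    sU p (Rc c) f τ w U ≤ ((w / τ) / ((n₀ : ℝ) - (r * L + 1))) ^ t := by
  classical
  obtain ⟨e, v, heU, hv, hnew⟩ := hseq
  have h := (sU_seq_le hp0 hp1 hf c hc hτ hw hn₀ t e v hv hnew htL).1
  refine le_trans (sym_sU_anti hp0 hp1 _ _ _ _ ?_) h
  intro y hy
  obtain ⟨i, _, rfl⟩ := Finset.mem_image.1 hy
  exact heU i

end Hyper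

end Crest.Agent.BK
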