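import Crest.Agent.Lib.BK.Basic
import Crest.Agent.Lib.BK.Influence
import Crest.Agent.Lib.BK.Fiber
import Crest.Agent.Lib.BK.Symmetry
import Crest.Agent.Lib.BK.Coloring

/-!
# Task F (row 56, S0077/S0078): the master inequality, Step 6 of `BLUEPRINT.md`.
-/

set_option autoImplicit false

namespace Crest.Agent.BK

open Finset Crest.CombinatoricsR.HypergraphCube

variable {n r B : ℕ} {p : ℝ}

/-- The vertices `v i` are new, so the edges `e i` are distinct and `t ≤ |U|`. -/
lemma master_newSeq_le_card {U : Finset (HyperedgeSlot n r)} {t : ℕ} (h : NewSeq U t) :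
    t ≤ U.card := by
  obtain ⟨e, v, he, hv, hnew⟩ := h
  have hinj : Function.Injective e := by
    intro i j hij
    by_contra hne
    obtain hlt | hlt := lt_or_gt_of_ne hne
    · exact hnew j i hlt (hij ▸ hv j)
    · exact hnew i j hlt (hij.symm ▸ hv i)
  have := Finset.card_le_card_of_injOn (s := univ) e (fun i _ => he i) hinj.injOn
  simpa using this

lemma master_piv_nonneg (hp0 : 0 < p) (hp1 : p < 1) {ι : Type*} [Fintype ι] [DecidableEq ι]
    (f : (ι → Bool) → Bool) (u : ι) : 0 ≤ piv p f u := by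
  have h := ex_mono hp0 hp1 (g := fun _ : ι → Bool => (0 : ℝ))
    (h := fun x => ind (f (Function.update x u true) ≠ f (Function.update x u false)))
    (fun _ => ind_nonneg _)
  rwa [ex_const hp0 hp1] at h

lemma master_totInf_nonneg (hp0 : 0 < p) (hp1 : p < 1) {ι : Type*} [Fintype ι] [DecidableEq ι]
    (f : (ι → Bool) → Bool) : 0 ≤ totInf p f :=
  Finset.sum_nonneg fun u _ => master_piv_nonneg hp0 hp1 f u

/-- For symmetric `f`, every influence is the average. -/
lemma master_piv_eq (hp0 : 0 < p) (hp1 : p < 1) {f : (HyperedgeSlot n r → Bool) → Bool}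
    (hf : IsSymmetric f) (u : HyperedgeSlot n r) :
    (Fintype.card (HyperedgeSlot n r) : ℝ) * piv p f u = totInf p f := by
  unfold totInf
  rw [Finset.sum_congr rfl (fun e _ => piv_eq_of_symm hp0 hp1 hf e u)]
  simp [Finset.card_univ]

/-- The sum of the influences over a small set of slots. -/
lemma master_sum_R [NeZero B] (hp0 : 0 < p) (hp1 : p < 1) {f : (HyperedgeSlot n r → Bool) → Bool}
    (hf : IsSymmetric f) (R : Finset (HyperedgeSlot n r))
    (hR : ¬ 200 * Fintype.card (HyperedgeSlot n r) < B * R.card) :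
    ∑ u ∈ R, piv p f u ≤ 200 * totInf p f / B := by
  have hBpos : 0 < B := Nat.pos_of_ne_zero (NeZero.ne B)
  have hBR : (0 : ℝ) < B := by exact_mod_cast hBpos
  have hI := master_totInf_nonneg hp0 hp1 f
  rcases R.eq_empty_or_nonempty with rfl | ⟨e₀, he₀⟩
  · simp only [Finset.sum_empty]
    positivity
  · rw [Finset.sum_congr rfl (fun e _ => piv_eq_of_symm hp0 hp1 hf e e₀), Finset.sum_const,
      nsmul_eq_mul, le_div_iff₀ hBR, ← master_piv_eq hp0 hp1 hf e₀]
    have h1 : (B : ℝ) * R.card ≤ 200 * Fintype.card (HyperedgeSlot n r) := by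
      have : B * R.card ≤ 200 * Fintype.card (HyperedgeSlot n r) := not_lt.mp hR
      exact_mod_cast this
    have h2 := master_piv_nonneg hp0 hp1 f e₀
    nlinarith

/-- The event `A(S, c)` of the colouring lemma. -/
def masterA (c : Fin n → ZMod B) (S : Finset (HyperedgeSlot n r)) : Prop :=
  ∃ t, NewSeq (S ∩ Rc c) t ∧ S.card ≤ 2 * B * t ∧ B * (S ∩ Rc c).card ≤ 8 * S.card

/-- Good colourings. -/
def masterGood (r : ℕ) (c : Fin n → ZMod B) : Prop :=
  ¬ 200 * Fintype.card (HyperedgeSlot n r) < B * (Rc (r := r) c).card ∧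
    ¬ ∃ i, 2 * B * (univ.filter (fun v => c v = i)).card < n

/-- The bound in the master inequality. -/
noncomputable def masterBnd {ι : Type*} [Fintype ι] [DecidableEq ι] (p : ℝ) (f : (ι → Bool) → Bool)
    (B L : ℕ) (τ w Θ : ℝ) : ℝ :=
  3 * (∑ t ∈ Finset.Icc 1 L, (2 / sig p) ^ (2 * B * t) * (Real.sqrt (Θ ^ t)
            * ((200 * totInf p f / B) / τ) * (w / τ + 1) ^ (16 * t))
        + (2 / sig p) ^ L * (sig p ^ 2 * Real.sqrt τ) * (200 * totInf p f / B)
        + 50 * totInf p f / (B * w))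

lemma masterBnd_nonneg {ι : Type*} [Fintype ι] [DecidableEq ι] (hp0 : 0 < p) (hp1 : p < 1)
    (f : (ι → Bool) → Bool) (B L : ℕ) {τ w Θ : ℝ} (hτ : 0 < τ) (hw : 0 < w) :
    0 ≤ masterBnd p f B L τ w Θ := by
  have hI := master_totInf_nonneg hp0 hp1 f
  have hσ : 0 < sig p := sig_pos hp0 hp1
  unfold masterBnd
  have h1 : 0 ≤ ∑ t ∈ Finset.Icc 1 L, (2 / sig p) ^ (2 * B * t) * (Real.sqrt (Θ ^ t)
            * ((200 * totInf p f / B) / τ) * (w / τ + 1) ^ (16 * t)) := by
    apply Finset.sum_nonneg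
    intro t _
    positivity
  positivity

open Classical in
/-- The bound for one good colouring, from `three_part`, `sum_sU_le` and `sU_le_pow`. -/
lemma master_good [NeZero B] (hp0 : 0 < p) (hp1 : p < 1)
    {f : (HyperedgeSlot n r → Bool) → Bool} (hf : IsSymmetric f)
    (M L : ℕ) (hL : 8 * M ≤ B * L) {τ w : ℝ} (hτ : 0 < τ) (hw : 0 < w)
    {n₀ : ℕ} (hn₀ : 2 * B * n₀ ≤ n) (hn₀L : r * L + 1 < n₀)
    (c : Fin n → ZMod B) (hc : masterGood r c) :
    ∑ S ∈ (univ.filter (fun S : Finset (HyperedgeSlot n r) => B < S.card ∧ S.card ≤ M)).filter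
        (masterA c), coeff p (bv f) S ^ 2
      ≤ masterBnd p f B L τ w ((w / τ) / ((n₀ : ℝ) - (r * L + 1))) := by
  obtain ⟨hc1, hc2⟩ := hc
  set R := Rc (r := r) c with hR
  have hBpos : 0 < B := Nat.pos_of_ne_zero (NeZero.ne B)
  have hBR : (0 : ℝ) < B := by exact_mod_cast hBpos
  have hσ : 0 < sig p := sig_pos hp0 hp1
  have hI := master_totInf_nonneg hp0 hp1 f
  have hden : (0 : ℝ) < (n₀ : ℝ) - (r * L + 1) := by
    have : ((r * L + 1 : ℕ) : ℝ) < n₀ := by exact_mod_cast hn₀L
    push_cast at this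
    linarith
  set Θ := (w / τ) / ((n₀ : ℝ) - (r * L + 1)) with hΘ
  have hΘ0 : 0 ≤ Θ := by positivity
  have hsumR := master_sum_R (B := B) hp0 hp1 hf R hc1
  have hsumR0 : 0 ≤ ∑ u ∈ R, piv p f u := Finset.sum_nonneg fun u _ => master_piv_nonneg hp0 hp1 f u
  -- the parameters of `three_part`
  set tU : Finset (HyperedgeSlot n r) → ℕ := fun U => Nat.findGreatest (NewSeq U) L with htU
  set 𝒰 : Finset (Finset (HyperedgeSlot n r)) :=
    R.powerset.filter (fun U => U.Nonempty ∧ U.card ≤ L ∧ U.card ≤ 16 * tU U) with h𝒰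
  set m : Finset (HyperedgeSlot n r) → ℕ := fun U => 2 * B * tU U with hm
  have h𝒰' : ∀ U ∈ 𝒰, U ⊆ R ∧ U.Nonempty ∧ U.card ≤ L := by
    intro U hU
    rw [h𝒰, Finset.mem_filter, Finset.mem_powerset] at hU
    exact ⟨hU.1, hU.2.1, hU.2.2.1⟩
  have key := three_part hp0 hp1 R f hτ hw L 𝒰 m h𝒰'
  -- Step 1: the sum over `S` injects into the left side of `three_part`
  have h1 : ∑ S ∈ (univ.filter (fun S : Finset (HyperedgeSlot n r) => B < S.card ∧ S.card ≤ M)).filter
        (masterA c), coeff p (bv f) S ^ 2 ≤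
      ∑ U ∈ 𝒰, ∑ D ∈ (univ.filter (fun D : Finset (HyperedgeSlot n r) =>
        Disjoint D R ∧ D.card ≤ m U)), coeff p (bv f) (U ∪ D) ^ 2 := by
    rw [Finset.sum_sigma']
    set 𝒯 := (univ.filter (fun S : Finset (HyperedgeSlot n r) => B < S.card ∧ S.card ≤ M)).filter
        (masterA c) with h𝒯
    let φ : Finset (HyperedgeSlot n r) →
        (Σ _ : Finset (HyperedgeSlot n r), Finset (HyperedgeSlot n r)) := fun S => ⟨S ∩ R, S \ R⟩
    have hunion : ∀ S : Finset (HyperedgeSlot n r), S ∩ R ∪ S \ R = S :=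
      fun S => by rw [Finset.union_comm]; exact Finset.sdiff_union_inter _ _
    have hφ : Set.InjOn φ (𝒯 : Set (Finset (HyperedgeSlot n r))) := by
      intro S _ S' _ hSS'
      have h1 : S ∩ R = S' ∩ R := congrArg Sigma.fst hSS'
      have h2 : S \ R = S' \ R := by
        have := Sigma.mk.inj_iff.1 hSS'
        exact eq_of_heq this.2
      rw [← hunion S, ← hunion S', h1, h2]
    calc ∑ S ∈ 𝒯, coeff p (bv f) S ^ 2
        = ∑ x ∈ 𝒯.image φ, coeff p (bv f) (x.1 ∪ x.2) ^ 2 := by
          rw [Finset.sum_image hφ]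
          refine Finset.sum_congr rfl fun S _ => ?_
          simp only [φ, hunion]
      _ ≤ _ := by
          refine Finset.sum_le_sum_of_subset_of_nonneg ?_ (fun _ _ _ => sq_nonneg _)
          intro x hx
          obtain ⟨S, hS, rfl⟩ := Finset.mem_image.1 hx
          rw [h𝒯, Finset.mem_filter, Finset.mem_filter] at hS
          obtain ⟨⟨-, hS1, hS2⟩, t, hseq, ht1, ht2⟩ := hS
          have htle : t ≤ (S ∩ R).card := master_newSeq_le_card hseq
          have ht0 : 0 < t := by
            rcases Nat.eq_zero_or_pos t with rfl | h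
            · simp only [mul_zero] at ht1
              omega
            · exact h
          have hUL : (S ∩ R).card ≤ L := by
            have : B * (S ∩ R).card ≤ B * L := by
              calc B * (S ∩ R).card ≤ 8 * S.card := ht2
                _ ≤ 8 * M := Nat.mul_le_mul_left _ hS2
                _ ≤ B * L := hL
            exact Nat.le_of_mul_le_mul_left this hBpos
          have httU : t ≤ tU (S ∩ R) := Nat.le_findGreatest (htle.trans hUL) hseq
          have hU16 : (S ∩ R).card ≤ 16 * t := by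
            have : B * (S ∩ R).card ≤ B * (16 * t) := by
              calc B * (S ∩ R).card ≤ 8 * S.card := ht2
                _ ≤ 8 * (2 * B * t) := Nat.mul_le_mul_left _ ht1
                _ = B * (16 * t) := by ring
            exact Nat.le_of_mul_le_mul_left this hBpos
          rw [Finset.mem_sigma]
          refine ⟨?_, ?_⟩
          · simp only [φ]
            rw [h𝒰, Finset.mem_filter, Finset.mem_powerset]
            refine ⟨Finset.inter_subset_right, ?_, hUL, hU16.trans (by omega)⟩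
            exact Finset.card_pos.1 (by omega)
          · simp only [φ]
            rw [Finset.mem_filter]
            refine ⟨Finset.mem_univ _, Finset.sdiff_disjoint, ?_⟩
            have h3 : (S \ R).card ≤ S.card := Finset.card_le_card Finset.sdiff_subset
            have h4 : 2 * B * t ≤ 2 * B * tU (S ∩ R) := Nat.mul_le_mul_left _ httU
            exact h3.trans (ht1.trans h4)
  -- Step 2: the sum of `s_U √ s_U`
  have hclass : ∀ i, n₀ ≤ (univ.filter (fun v => c v = i)).card := by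
    intro i
    by_contra hlt
    refine hc2 ⟨i, ?_⟩
    have : (univ.filter (fun v => c v = i)).card + 1 ≤ n₀ := by omega
    have h5 : 2 * B * ((univ.filter (fun v => c v = i)).card + 1) ≤ 2 * B * n₀ :=
      Nat.mul_le_mul_left _ this
    have h6 : 0 < 2 * B := by omega
    rw [mul_add] at h5
    omega
  have h2 : ∑ U ∈ 𝒰, (2 / sig p) ^ m U * (sU p R f τ w U * Real.sqrt (sU p R f τ w U)) ≤
      ∑ t ∈ Finset.Icc 1 L, (2 / sig p) ^ (2 * B * t) * (Real.sqrt (Θ ^ t)
            * ((200 * totInf p f / B) / τ) * (w / τ + 1) ^ (16 * t)) := by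
    have hU_prop : ∀ U ∈ 𝒰, 1 ≤ tU U ∧ tU U ≤ L ∧ NewSeq U (tU U) ∧ U ⊆ R ∧ U.Nonempty ∧
        U.card ≤ 16 * tU U := by
      intro U hU
      rw [h𝒰, Finset.mem_filter, Finset.mem_powerset] at hU
      obtain ⟨hU1, hU2, _, hU4⟩ := hU
      have h0 : 0 < U.card := Finset.card_pos.2 hU2
      have h1' : 1 ≤ tU U := by omega
      refine ⟨h1', Nat.findGreatest_le L, ?_, hU1, hU2, hU4⟩
      exact Nat.findGreatest_of_ne_zero (P := NewSeq U) rfl (by omega)
    have hmaps : ∀ U ∈ 𝒰, tU U ∈ Finset.Icc 1 L := by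
      intro U hU
      obtain ⟨h3, h4, _⟩ := hU_prop U hU
      exact Finset.mem_Icc.2 ⟨h3, h4⟩
    rw [← Finset.sum_fiberwise_of_maps_to hmaps]
    refine Finset.sum_le_sum fun t ht => ?_
    have h3 : ∑ U ∈ 𝒰.filter (fun U => tU U = t),
          (2 / sig p) ^ m U * (sU p R f τ w U * Real.sqrt (sU p R f τ w U)) =
        (2 / sig p) ^ (2 * B * t) * ∑ U ∈ 𝒰.filter (fun U => tU U = t),
          (sU p R f τ w U * Real.sqrt (sU p R f τ w U)) := by
      rw [Finset.mul_sum]
      refine Finset.sum_congr rfl fun U hU => ?_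
      have : tU U = t := (Finset.mem_filter.1 hU).2
      simp only [hm, this]
    rw [h3]
    refine mul_le_mul_of_nonneg_left ?_ (by positivity)
    have h4 := sum_sU_le hp0 hp1 R f (θ := Θ ^ t) hτ hw (pow_nonneg hΘ0 t) (16 * t)
      (𝒰.filter (fun U => tU U = t)) (by
        intro U hU
        rw [Finset.mem_filter] at hU
        obtain ⟨hU1, hU2⟩ := hU
        obtain ⟨h5, h6, h7, h8, h9, h10⟩ := hU_prop U hU1
        rw [hU2] at h7 h10
        refine ⟨h9, h10, ?_⟩
        have htL : t ≤ L := by omega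
        exact sU_le_pow hp0 hp1 hf c hclass hτ hw h8 h7 htL hn₀L)
    refine h4.trans ?_
    gcongr
  -- Step 3: combine
  unfold masterBnd
  have h3 : (2 / sig p) ^ L * (sig p ^ 2 * Real.sqrt τ) * ∑ u ∈ R, piv p f u ≤
      (2 / sig p) ^ L * (sig p ^ 2 * Real.sqrt τ) * (200 * totInf p f / B) := by
    gcongr
  have h4 : (1 / 4) * (∑ u ∈ R, piv p f u) / w ≤ 50 * totInf p f / (B * w) := by
    have : 50 * totInf p f / (B * w) = (1 / 4) * (200 * totInf p f / B) / w := by
      field_simp
      ring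
    rw [this]
    gcongr
  linarith

open Classical in
/-- For each `S` in the middle range, many good colourings satisfy `A(S, c)`. -/
lemma master_count [NeZero B] (hr : 1 ≤ r) (hn : 800 * B ^ 2 ≤ n)
    (S : Finset (HyperedgeSlot n r)) {d : ℕ}
    (hm : B ≤ S.card) (hd : (r * S.card) ^ (r - 1) ≤ d ^ r) (hdB : 16 * d ≤ B) :
    ((B : ℝ) ^ n) / 100 ≤ ((univ.filter (fun c : Fin n → ZMod B =>
        masterGood r c ∧ masterA c S)).card : ℝ) := by
  have h1 := coloring_lemma hr S hm hd hdB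
  have h2 := few_large_Rc (n := n) (r := r) (B := B) hr
  have h3 := few_small_class (n := n) (B := B) hn
  have hsub : (univ.filter (fun c : Fin n → ZMod B => masterA c S)) ⊆
      (univ.filter (fun c : Fin n → ZMod B => masterGood r c ∧ masterA c S)) ∪
      ((univ.filter (fun c : Fin n → ZMod B =>
        200 * Fintype.card (HyperedgeSlot n r) < B * (Rc (r := r) c).card)) ∪
      (univ.filter (fun c : Fin n → ZMod B =>
        ∃ i, 2 * B * (univ.filter (fun v => c v = i)).card < n))) := by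
    intro c hc
    rw [Finset.mem_filter] at hc
    simp only [Finset.mem_union, Finset.mem_filter, Finset.mem_univ, true_and]
    by_cases h5 : 200 * Fintype.card (HyperedgeSlot n r) < B * (Rc (r := r) c).card
    · exact Or.inr (Or.inl h5)
    by_cases h6 : ∃ i, 2 * B * (univ.filter (fun v => c v = i)).card < n
    · exact Or.inr (Or.inr h6)
    exact Or.inl ⟨⟨h5, h6⟩, hc.2⟩
  have hcard := (Finset.card_le_card hsub).trans
    ((Finset.card_union_le _ _).trans (Nat.add_le_add_left (Finset.card_union_le _ _) _))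
  have hcardR : (((univ.filter (fun c : Fin n → ZMod B => masterA c S)).card : ℕ) : ℝ) ≤
      ((univ.filter (fun c : Fin n → ZMod B => masterGood r c ∧ masterA c S)).card : ℝ) +
      (((univ.filter (fun c : Fin n → ZMod B =>
        200 * Fintype.card (HyperedgeSlot n r) < B * (Rc (r := r) c).card)).card : ℝ) +
      ((univ.filter (fun c : Fin n → ZMod B =>
        ∃ i, 2 * B * (univ.filter (fun v => c v = i)).card < n)).card : ℝ)) := by
    exact_mod_cast hcard
  have h1' : ((B : ℝ) ^ n) / 50 ≤ (((univ.filter (fun c : Fin n → ZMod B => masterA c S)).card : ℕ) : ℝ) := by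
    refine h1.trans (le_of_eq ?_)
    congr 2
  have h2' : (((univ.filter (fun c : Fin n → ZMod B =>
        200 * Fintype.card (HyperedgeSlot n r) < B * (Rc (r := r) c).card)).card : ℕ) : ℝ) ≤
      ((B : ℝ) ^ n) / 200 := by
    refine le_trans (le_of_eq ?_) h2
    congr 2
  have h3' : (((univ.filter (fun c : Fin n → ZMod B =>
        ∃ i, 2 * B * (univ.filter (fun v => c v = i)).card < n)).card : ℕ) : ℝ) ≤
      ((B : ℝ) ^ n) / 200 := by
    refine le_trans (le_of_eq ?_) h3
    congr 2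
  linarith

/-- TASK F. The master inequality. -/
theorem master [NeZero B] (hp0 : 0 < p) (hp1 : p < 1) (hr : 2 ≤ r) (hrn : r ≤ n)
    {f : (HyperedgeSlot n r → Bool) → Bool} (hf : IsSymmetric f)
    (M L d : ℕ) (hd : (r * M) ^ (r - 1) ≤ d ^ r) (hdB : 16 * d ≤ B) (hL : 8 * M ≤ B * L)
    (hn : 800 * B ^ 2 ≤ n) {τ w : ℝ} (hτ : 0 < τ) (hw : 0 < w)
    {n₀ : ℕ} (hn₀ : 2 * B * n₀ ≤ n) (hn₀L : r * L + 1 < n₀) :
    let σ := sig p
    let Γ := 2 / σ
    let I := totInf p f
    let N := (Fintype.card (HyperedgeSlot n r) : ℝ)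
    let μ := ex p (bv f)
    let Θ := (w / τ) / ((n₀ : ℝ) - (r * L + 1))
    μ * (1 - μ) ≤
      Γ ^ B * (σ ^ 2 * (Real.sqrt (I / N) * I))
      + σ ^ 2 * I / (M + 1)
      + 300 * (∑ t ∈ Finset.Icc 1 L, Γ ^ (2 * B * t) * (Real.sqrt (Θ ^ t)
            * ((200 * I / B) / τ) * (w / τ + 1) ^ (16 * t))
        + Γ ^ L * (σ ^ 2 * Real.sqrt τ) * (200 * I / B)
        + 50 * I / (B * w)) := by
  classical
  dsimp only
  have hBpos : 0 < B := Nat.pos_of_ne_zero (NeZero.ne B)
  have hBR : (0 : ℝ) < B := by exact_mod_cast hBpos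
  set Θ := (w / τ) / ((n₀ : ℝ) - (r * L + 1)) with hΘ
  have hBnd : 3 * (∑ t ∈ Finset.Icc 1 L, (2 / sig p) ^ (2 * B * t) * (Real.sqrt (Θ ^ t)
            * ((200 * totInf p f / B) / τ) * (w / τ + 1) ^ (16 * t))
        + (2 / sig p) ^ L * (sig p ^ 2 * Real.sqrt τ) * (200 * totInf p f / B)
        + 50 * totInf p f / (B * w)) = masterBnd p f B L τ w Θ := rfl
  have hBnd0 := masterBnd_nonneg hp0 hp1 f B L (Θ := Θ) hτ hw
  -- the three ranges
  set g : Finset (HyperedgeSlot n r) → ℝ := fun S => coeff p (bv f) S ^ 2 with hg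
  have hg0 : ∀ S, 0 ≤ g S := fun S => sq_nonneg _
  have hvar := var_eq hp0 hp1 f
  set 𝒯 := univ.filter (fun S : Finset (HyperedgeSlot n r) => B < S.card ∧ S.card ≤ M) with h𝒯
  have hsplit : ∑ S ∈ univ.filter (fun S : Finset (HyperedgeSlot n r) => S.Nonempty), g S ≤
      ∑ S ∈ univ.filter (fun S : Finset (HyperedgeSlot n r) => S.Nonempty ∧ S.card ≤ B), g S +
      ∑ S ∈ univ.filter (fun S : Finset (HyperedgeSlot n r) => M < S.card), g S +
      ∑ S ∈ 𝒯, g S := by
    have h1 : univ.filter (fun S : Finset (HyperedgeSlot n r) => S.Nonempty) ⊆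
        (univ.filter (fun S : Finset (HyperedgeSlot n r) => S.Nonempty ∧ S.card ≤ B) ∪
        univ.filter (fun S : Finset (HyperedgeSlot n r) => M < S.card)) ∪ 𝒯 := by
      intro S hS
      rw [Finset.mem_filter] at hS
      simp only [Finset.mem_union, Finset.mem_filter, Finset.mem_univ, true_and, h𝒯]
      by_cases h1 : S.card ≤ B
      · exact Or.inl (Or.inl ⟨hS.2, h1⟩)
      by_cases h2 : M < S.card
      · exact Or.inl (Or.inr h2)
      exact Or.inr ⟨by omega, by omega⟩
    have hun : ∀ A A' : Finset (Finset (HyperedgeSlot n r)),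
        ∑ S ∈ A ∪ A', g S ≤ ∑ S ∈ A, g S + ∑ S ∈ A', g S := by
      intro A A'
      rw [← Finset.sum_union_inter]
      have : 0 ≤ ∑ S ∈ A ∩ A', g S := Finset.sum_nonneg fun S _ => hg0 S
      linarith
    refine (Finset.sum_le_sum_of_subset_of_nonneg h1 (fun S _ _ => hg0 S)).trans ?_
    refine (hun _ _).trans ?_
    have := hun (univ.filter (fun S : Finset (HyperedgeSlot n r) => S.Nonempty ∧ S.card ≤ B))
      (univ.filter (fun S : Finset (HyperedgeSlot n r) => M < S.card))
    linarith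
  -- the low range
  have hT1 : ∑ S ∈ univ.filter (fun S : Finset (HyperedgeSlot n r) => S.Nonempty ∧ S.card ≤ B), g S ≤
      (2 / sig p) ^ B * (sig p ^ 2 * (Real.sqrt (totInf p f / (Fintype.card (HyperedgeSlot n r) : ℝ))
        * totInf p f)) := by
    refine low_le_of_piv hp0 hp1 f B ?_
    intro u
    have h1 := master_piv_eq hp0 hp1 hf u
    have hNpos : (0 : ℝ) < Fintype.card (HyperedgeSlot n r) := by
      have : 0 < Fintype.card (HyperedgeSlot n r) := Fintype.card_pos_iff.2 ⟨u⟩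
      exact_mod_cast this
    rw [le_div_iff₀ hNpos]
    linarith
  -- the high range
  have hT2 := high_le hp0 hp1 f M
  -- the middle range: double counting
  have hcardC : ((Fintype.card (Fin n → ZMod B) : ℕ) : ℝ) = (B : ℝ) ^ n := by
    simp [ZMod.card]
  have hpow : (0 : ℝ) < (B : ℝ) ^ n := by positivity
  set 𝒢 := univ.filter (fun c : Fin n → ZMod B => masterGood r c) with h𝒢
  have hT3 : ((B : ℝ) ^ n / 100) * ∑ S ∈ 𝒯, g S ≤ (B : ℝ) ^ n * masterBnd p f B L τ w Θ := by
    calc ((B : ℝ) ^ n / 100) * ∑ S ∈ 𝒯, g S = ∑ S ∈ 𝒯, ((B : ℝ) ^ n / 100) * g S := Finset.mul_sum ..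
      _ ≤ ∑ S ∈ 𝒯, ((univ.filter (fun c : Fin n → ZMod B =>
            masterGood r c ∧ masterA c S)).card : ℝ) * g S := by
          refine Finset.sum_le_sum fun S hS => ?_
          refine mul_le_mul_of_nonneg_right ?_ (hg0 S)
          rw [h𝒯, Finset.mem_filter] at hS
          obtain ⟨-, hS1, hS2⟩ := hS
          refine master_count (by omega) hn S (d := d) hS1.le ?_ hdB
          refine le_trans ?_ hd
          exact Nat.pow_le_pow_left (Nat.mul_le_mul_left _ hS2) _
      _ = ∑ S ∈ 𝒯, ∑ c ∈ 𝒢, (if masterA c S then g S else 0) := by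
          refine Finset.sum_congr rfl fun S _ => ?_
          rw [← Finset.sum_filter, Finset.sum_const, nsmul_eq_mul, h𝒢, Finset.filter_filter]
      _ = ∑ c ∈ 𝒢, ∑ S ∈ 𝒯, (if masterA c S then g S else 0) := Finset.sum_comm
      _ = ∑ c ∈ 𝒢, ∑ S ∈ 𝒯.filter (masterA c), g S := by
          refine Finset.sum_congr rfl fun c _ => ?_
          exact (Finset.sum_filter _ _).symm
      _ ≤ ∑ c ∈ 𝒢, masterBnd p f B L τ w Θ := by
          refine Finset.sum_le_sum fun c hc => ?_
          rw [h𝒢, Finset.mem_filter] at hc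
          exact master_good hp0 hp1 hf M L hL hτ hw hn₀ hn₀L c hc.2
      _ = (𝒢.card : ℝ) * masterBnd p f B L τ w Θ := by
          rw [Finset.sum_const, nsmul_eq_mul]
      _ ≤ (B : ℝ) ^ n * masterBnd p f B L τ w Θ := by
          refine mul_le_mul_of_nonneg_right ?_ hBnd0
          rw [← hcardC, ← Finset.card_univ]
          exact_mod_cast Finset.card_le_card (Finset.filter_subset _ _)
  have hT3' : ∑ S ∈ 𝒯, g S ≤ 100 * masterBnd p f B L τ w Θ := by
    have h1 : (B : ℝ) ^ n * ∑ S ∈ 𝒯, g S ≤ (B : ℝ) ^ n * (100 * masterBnd p f B L τ w Θ) := by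
      nlinarith
    exact le_of_mul_le_mul_left h1 hpow
  rw [← hvar]
  have hfinal : 100 * masterBnd p f B L τ w Θ = 300 * (∑ t ∈ Finset.Icc 1 L, (2 / sig p) ^ (2 * B * t) * (Real.sqrt (Θ ^ t)
            * ((200 * totInf p f / B) / τ) * (w / τ + 1) ^ (16 * t))
        + (2 / sig p) ^ L * (sig p ^ 2 * Real.sqrt τ) * (200 * totInf p f / B)
        + 50 * totInf p f / (B * w)) := by
    unfold masterBnd
    ring
  rw [← hfinal]
  have : ∑ S ∈ univ.filter (fun S : Finset (HyperedgeSlot n r) => M < S.card), g S ≤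
      sig p ^ 2 * totInf p f / ((M : ℝ) + 1) := hT2
  linarith

end Crest.Agent.BK
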