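import Mathlib

/-!
# Row 56, task G: pure real-number part of `main_case`.
-/

set_option autoImplicit false

namespace Crest.Agent.BK

open Real Finset

lemma nc_ell_le_exp {ℓ : ℝ} (hℓ : 80000 ≤ ℓ) : ℓ ≤ exp (ℓ / 4000) := by
  have hℓ0 : 0 < ℓ := by linarith
  have h1 : log (ℓ / 8000) ≤ ℓ / 8000 - 1 := Real.log_le_sub_one_of_pos (by positivity)
  have h2 : log ℓ = log (ℓ / 8000) + log 8000 := by
    rw [← Real.log_mul (by positivity) (by norm_num)]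
    congr 1
    ring
  have h3 : log 8000 ≤ 13 * log 2 := by
    have h : (8000 : ℝ) ≤ 2 ^ 13 := by norm_num
    calc log 8000 ≤ log (2 ^ 13) := Real.log_le_log (by norm_num) h
      _ = 13 * log 2 := by rw [Real.log_pow]; norm_num
  have h4 := Real.log_two_lt_d9
  have h5 : log ℓ ≤ ℓ / 4000 := by linarith
  rwa [← Real.log_le_iff_le_exp hℓ0]

lemma nc_pow_le {ℓ : ℝ} (hℓ : 80000 ≤ ℓ) (k : ℕ) : ℓ ^ k ≤ exp ((k : ℝ) * (ℓ / 4000)) := by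
  have hℓ0 : 0 ≤ ℓ := by linarith
  calc ℓ ^ k ≤ (exp (ℓ / 4000)) ^ k := pow_le_pow_left₀ hℓ0 (nc_ell_le_exp hℓ) k
    _ = exp ((k : ℝ) * (ℓ / 4000)) := (Real.exp_nat_mul _ _).symm

lemma nc_kappa_ge {σ : ℝ} (hσ0 : 0 < σ) (hσ1 : σ ≤ 1 / 2) : 1 ≤ log (2 / σ) := by
  have h1 : (4 : ℝ) ≤ 2 / σ := by
    rw [le_div_iff₀ hσ0]; linarith
  have h2 : log 4 ≤ log (2 / σ) := Real.log_le_log (by norm_num) h1
  have h3 : log 4 = 2 * log 2 := by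
    rw [show (4 : ℝ) = 2 ^ 2 by norm_num, Real.log_pow]; norm_num
  have h4 := Real.log_two_gt_d9
  linarith

lemma nc_sigma_kappa {σ : ℝ} (hσ0 : 0 < σ) (hσ1 : σ ≤ 1 / 2) : σ * log (2 / σ) ≤ 7 / 10 := by
  have h1 : log (1 / (2 * σ)) ≤ 1 / (2 * σ) - 1 := Real.log_le_sub_one_of_pos (by positivity)
  have h2 : log (2 / σ) = log 4 + log (1 / (2 * σ)) := by
    rw [← Real.log_mul (by norm_num) (by positivity)]
    congr 1
    field_simp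
    norm_num
  have h3 : log 4 = 2 * log 2 := by
    rw [show (4 : ℝ) = 2 ^ 2 by norm_num, Real.log_pow]; norm_num
  have h4 := Real.log_two_lt_d9
  have h5 : σ * (1 / (2 * σ)) = 1 / 2 := by field_simp
  have h6 : log (2 / σ) ≤ 2 * log 2 + 1 / (2 * σ) - 1 := by linarith
  have h7 : σ * log (2 / σ) ≤ σ * (2 * log 2 + 1 / (2 * σ) - 1) :=
    mul_le_mul_of_nonneg_left h6 hσ0.le
  have h8 : σ * (2 * log 2 + 1 / (2 * σ) - 1) = σ * (2 * log 2 - 1) + 1 / 2 := by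
    rw [← h5]; ring
  have h9 : 2 * log 2 - 1 ≤ 2 / 5 := by linarith
  have h10 : σ * (2 * log 2 - 1) ≤ 1 / 2 * (2 / 5) := by
    have h11 : 0 < 2 * log 2 - 1 := by
      have := Real.log_two_gt_d9
      linarith
    exact mul_le_mul hσ1 h9 h11.le (by norm_num)
  linarith

/-- `κ ≤ ℓ / 4000`. -/
lemma nc_kappa_le {ℓ σ T : ℝ} (hℓ : 80000 ≤ ℓ) (hσ0 : 0 < σ) (hT : T ≤ ℓ ^ 2 / 2 ^ 17)
    (hσT : 1 < σ ^ 2 * T) : log (2 / σ) ≤ ℓ / 4000 := by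
  have hℓ0 : 0 < ℓ := by linarith
  have h1 : 1 < σ ^ 2 * (ℓ ^ 2 / 2 ^ 17) := by
    have : σ ^ 2 * T ≤ σ ^ 2 * (ℓ ^ 2 / 2 ^ 17) := mul_le_mul_of_nonneg_left hT (by positivity)
    linarith
  have h2 : 2 < σ * ℓ := by
    by_contra h
    push Not at h
    have h3 : (σ * ℓ) ^ 2 ≤ 2 ^ 2 := pow_le_pow_left₀ (by positivity) h 2
    have h4 : σ ^ 2 * (ℓ ^ 2 / 2 ^ 17) = (σ * ℓ) ^ 2 / 2 ^ 17 := by ring
    rw [h4] at h1
    have h5 : (σ * ℓ) ^ 2 / 2 ^ 17 ≤ 2 ^ 2 / 2 ^ 17 := by gcongr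
    norm_num at h5
    linarith
  have h3 : 2 / σ ≤ ℓ := by
    rw [div_le_iff₀ hσ0]; linarith
  have h4 : log (2 / σ) ≤ log ℓ := Real.log_le_log (by positivity) h3
  have h5 : log ℓ ≤ ℓ / 4000 := by
    rw [Real.log_le_iff_le_exp hℓ0]
    exact nc_ell_le_exp hℓ
  linarith

/-- Exponential form of powers of `Γ = 2 / σ`. -/
lemma nc_gamma_pow {σ : ℝ} (hσ0 : 0 < σ) (k : ℕ) :
    (2 / σ) ^ k = exp ((k : ℝ) * log (2 / σ)) := by
  rw [Real.exp_nat_mul, Real.exp_log (by positivity)]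

section Core

variable {ℓ σ T V I N : ℝ} {B M L n₀ r n : ℕ}

/-- The first term. -/
lemma nc_term1 (hℓ : 80000 ≤ ℓ) (hσ0 : 0 < σ) (hσ1 : σ ≤ 1 / 2) (hT0 : 0 < T)
    (hT : T ≤ ℓ ^ 2 / 2 ^ 17) (hV0 : 0 < V) (hV1 : V ≤ 1 / 4) (hI0 : 0 ≤ I) (hI : I < T * V)
    (hn : (n : ℝ) = exp ℓ) (hN : (n : ℝ) ^ 2 / 4 ≤ N) (hGB : (2 / σ) ^ B ≤ exp (ℓ / 8)) :
    (2 / σ) ^ B * (σ ^ 2 * (Real.sqrt (I / N) * I)) ≤ V / 100 := by
  have hℓ0 : 0 < ℓ := by linarith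
  have hTℓ : T ≤ ℓ ^ 2 := by
    have : ℓ ^ 2 / 2 ^ 17 ≤ ℓ ^ 2 := by
      apply div_le_self (by positivity) (by norm_num)
    linarith
  have hIV : I ≤ ℓ ^ 2 * V := by
    have : T * V ≤ ℓ ^ 2 * V := mul_le_mul_of_nonneg_right hTℓ hV0.le
    linarith
  have hnpos : (0 : ℝ) < n := by rw [hn]; exact exp_pos _
  have hNpos : 0 < N := lt_of_lt_of_le (by positivity) hN
  have hsqrt : Real.sqrt (I / N) ≤ ℓ * exp (-ℓ) := by
    rw [Real.sqrt_le_iff]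
    refine ⟨by positivity, ?_⟩
    have hIT : I ≤ ℓ ^ 2 / 4 := by
      have : T * V ≤ ℓ ^ 2 * (1 / 4) :=
        mul_le_mul hTℓ hV1 hV0.le (by positivity)
      linarith
    rw [div_le_iff₀ hNpos]
    have e1 : exp (-ℓ) * n = 1 := by
      rw [hn, ← Real.exp_add]; simp
    have e2 : (ℓ * exp (-ℓ)) ^ 2 * ((n : ℝ) ^ 2 / 4) = ℓ ^ 2 / 4 := by
      calc (ℓ * exp (-ℓ)) ^ 2 * ((n : ℝ) ^ 2 / 4) = ℓ ^ 2 / 4 * (exp (-ℓ) * n) ^ 2 := by ring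
        _ = ℓ ^ 2 / 4 := by rw [e1]; ring
    have e3 : (ℓ * exp (-ℓ)) ^ 2 * ((n : ℝ) ^ 2 / 4) ≤ (ℓ * exp (-ℓ)) ^ 2 * N :=
      mul_le_mul_of_nonneg_left hN (by positivity)
    linarith
  have hσ2 : σ ^ 2 ≤ 1 := by
    have : σ ≤ 1 := by linarith
    exact pow_le_one₀ hσ0.le this
  have hsqrt0 : 0 ≤ Real.sqrt (I / N) := Real.sqrt_nonneg _
  calc (2 / σ) ^ B * (σ ^ 2 * (Real.sqrt (I / N) * I))
      ≤ exp (ℓ / 8) * (1 * ((ℓ * exp (-ℓ)) * (ℓ ^ 2 * V))) := by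
        gcongr
    _ = V * (ℓ ^ 3 * (exp (ℓ / 8) * exp (-ℓ))) := by ring
    _ ≤ V * (exp (((3 : ℕ) : ℝ) * (ℓ / 4000)) * (exp (ℓ / 8) * exp (-ℓ))) := by
        gcongr
        exact nc_pow_le hℓ 3
    _ = V * exp (((3 : ℕ) : ℝ) * (ℓ / 4000) + (ℓ / 8 + -ℓ)) := by
        rw [Real.exp_add, Real.exp_add]
    _ ≤ V * exp (-100) := by
        gcongr
        push_cast
        linarith
    _ ≤ V / 100 := by
        have h1 : (1 : ℝ) / 100 ≥ exp (-100) := by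
          rw [Real.exp_neg]
          have h2 : (100 : ℝ) + 1 ≤ exp 100 := Real.add_one_le_exp 100
          rw [ge_iff_le, inv_le_comm₀ (by positivity) (by norm_num)]
          norm_num
          linarith
        rw [div_eq_mul_one_div]
        gcongr

/-- The second term. -/
lemma nc_term2 (hσ0 : 0 < σ) (hV0 : 0 < V) (hI : I < T * V)
    (hM : 3 * σ ^ 2 * T < (M : ℝ) + 1) :
    σ ^ 2 * I / ((M : ℝ) + 1) ≤ V / 3 := by
  have hM0 : (0 : ℝ) < (M : ℝ) + 1 := by positivity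
  rw [div_le_iff₀ hM0]
  have h1 : σ ^ 2 * I ≤ σ ^ 2 * (T * V) := mul_le_mul_of_nonneg_left hI.le (by positivity)
  have h2 : V / 3 * (3 * σ ^ 2 * T) ≤ V / 3 * ((M : ℝ) + 1) :=
    mul_le_mul_of_nonneg_left hM.le (by positivity)
  nlinarith

/-- The third term. -/
lemma nc_term3 (hB : 0 < B) (hT0 : 0 < T) (hI : I < T * V) :
    50 * I / ((B : ℝ) * (90000 * T / B)) ≤ V / 1800 := by
  have hB' : (0 : ℝ) < B := by exact_mod_cast hB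
  have e : (B : ℝ) * (90000 * T / B) = 90000 * T := by field_simp
  rw [e, div_le_iff₀ (by positivity)]
  nlinarith

/-- `I / B` in the terms four and five. -/
lemma nc_I_over_B (hℓ : 80000 ≤ ℓ) (hT : T ≤ ℓ ^ 2 / 2 ^ 17) (hV0 : 0 < V) (hI0 : 0 ≤ I)
    (hI : I < T * V) (hB16 : 16 ≤ B) :
    200 * I / (B : ℝ) ≤ ℓ ^ 2 * V / 10000 := by
  have hB' : (16 : ℝ) ≤ B := by exact_mod_cast hB16
  have hBpos : (0 : ℝ) < B := by linarith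
  rw [div_le_iff₀ hBpos]
  have h1 : T * V ≤ ℓ ^ 2 / 2 ^ 17 * V := mul_le_mul_of_nonneg_right hT hV0.le
  have h2 : 0 ≤ ℓ ^ 2 * V := by positivity
  have h3 : ℓ ^ 2 * V / 10000 * 16 ≤ ℓ ^ 2 * V / 10000 * B :=
    mul_le_mul_of_nonneg_left hB' (by positivity)
  have h4 : 200 * I ≤ 200 * (ℓ ^ 2 / 2 ^ 17 * V) := by linarith
  have h5 : 200 * (ℓ ^ 2 / 2 ^ 17 * V) ≤ ℓ ^ 2 * V / 10000 * 16 := by
    have e : 200 * (ℓ ^ 2 / 2 ^ 17 * V) = (ℓ ^ 2 * V) * (200 / 2 ^ 17) := by ring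
    have e' : ℓ ^ 2 * V / 10000 * 16 = (ℓ ^ 2 * V) * (16 / 10000) := by ring
    rw [e, e']
    apply mul_le_mul_of_nonneg_left _ h2
    norm_num
  linarith

/-- The fourth term. -/
lemma nc_term4 (hℓ : 80000 ≤ ℓ) (hσ0 : 0 < σ) (hσ1 : σ ≤ 1 / 2) (hT0 : 0 < T)
    (hT : T ≤ ℓ ^ 2 / 2 ^ 17) (hV0 : 0 < V) (hI0 : 0 ≤ I) (hI : I < T * V) (hB16 : 16 ≤ B)
    (hκB : ℓ ≤ 9 * log (2 / σ) * B) (hM : (M : ℝ) ≤ 3 * σ ^ 2 * T)
    (hL : (L : ℝ) ≤ 8 * M / B + 1) :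
    (2 / σ) ^ L * (σ ^ 2 * Real.sqrt (exp (-ℓ / 200))) * (200 * I / B) ≤ V / 10000 := by
  have hℓ0 : 0 < ℓ := by linarith
  have hB' : (16 : ℝ) ≤ B := by exact_mod_cast hB16
  have hBpos : (0 : ℝ) < B := by linarith
  set κ := log (2 / σ) with hκ
  have hκ1 : 1 ≤ κ := nc_kappa_ge hσ0 hσ1
  have hκσ : σ * κ ≤ 7 / 10 := nc_sigma_kappa hσ0 hσ1
  have hκσ0 : 0 ≤ σ * κ := by positivity
  have hsq : (σ * κ) ^ 2 ≤ 49 / 100 := by
    have := pow_le_pow_left₀ hκσ0 hκσ 2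
    norm_num at this ⊢
    linarith
  -- the key estimate on `κ * L`
  set y : ℝ := 8 * M / B with hy
  have hy0 : 0 ≤ y := by positivity
  have hyB : y * B = 8 * M := by rw [hy]; field_simp
  have h1 : y * ℓ ≤ 216 * κ * σ ^ 2 * T := by
    calc y * ℓ ≤ y * (9 * κ * B) := mul_le_mul_of_nonneg_left hκB hy0
      _ = 72 * κ * M := by
        calc y * (9 * κ * B) = 9 * κ * (y * B) := by ring
          _ = 72 * κ * M := by rw [hyB]; ring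
      _ ≤ 72 * κ * (3 * σ ^ 2 * T) := mul_le_mul_of_nonneg_left hM (by positivity)
      _ = 216 * κ * σ ^ 2 * T := by ring
  have h2 : κ * y ≤ 81 / 100000 * ℓ := by
    have h3 : κ * (y * ℓ) ≤ κ * (216 * κ * σ ^ 2 * T) := mul_le_mul_of_nonneg_left h1 (by positivity)
    have h4 : κ * (216 * κ * σ ^ 2 * T) = 216 * (σ * κ) ^ 2 * T := by ring
    have h5 : 216 * (σ * κ) ^ 2 * T ≤ 216 * (49 / 100) * (ℓ ^ 2 / 2 ^ 17) := by
      gcongr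
    have h6 : (κ * y) * ℓ ≤ (81 / 100000 * ℓ) * ℓ := by
      have h7 : 216 * (49 / 100) * (ℓ ^ 2 / 2 ^ 17) ≤ 81 / 100000 * ℓ * ℓ := by
        have e1 : 216 * (49 / 100) * (ℓ ^ 2 / 2 ^ 17) = ℓ ^ 2 * (216 * (49 / 100) / 2 ^ 17) := by ring
        have e2 : 81 / 100000 * ℓ * ℓ = ℓ ^ 2 * (81 / 100000) := by ring
        rw [e1, e2]
        apply mul_le_mul_of_nonneg_left _ (by positivity)
        norm_num
      nlinarith
    exact le_of_mul_le_mul_right h6 hℓ0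
  have h3 : (L : ℝ) * κ ≤ κ + 81 / 100000 * ℓ := by
    have h4 : (L : ℝ) * κ ≤ (y + 1) * κ := mul_le_mul_of_nonneg_right hL (by linarith)
    linarith
  have hG : (2 / σ) ^ L ≤ (2 / σ) * exp (81 / 100000 * ℓ) := by
    rw [nc_gamma_pow hσ0 L]
    have e : 2 / σ = exp κ := by rw [hκ, Real.exp_log (by positivity)]
    calc exp ((L : ℝ) * κ) ≤ exp (κ + 81 / 100000 * ℓ) := Real.exp_le_exp.mpr h3
      _ = exp κ * exp (81 / 100000 * ℓ) := Real.exp_add _ _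
      _ = (2 / σ) * exp (81 / 100000 * ℓ) := by rw [e]
  have hsqrt : Real.sqrt (exp (-ℓ / 200)) = exp (-ℓ / 400) := by
    rw [← Real.exp_half]
    congr 1
    ring
  have hIB := nc_I_over_B hℓ hT hV0 hI0 hI hB16
  have hIB0 : 0 ≤ 200 * I / (B : ℝ) := by positivity
  have hΓσ : (2 / σ) * σ ^ 2 ≤ 1 := by
    have e : (2 / σ) * σ ^ 2 = 2 * σ := by field_simp
    rw [e]; linarith
  rw [hsqrt]
  calc (2 / σ) ^ L * (σ ^ 2 * exp (-ℓ / 400)) * (200 * I / B)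
      ≤ ((2 / σ) * exp (81 / 100000 * ℓ)) * (σ ^ 2 * exp (-ℓ / 400)) * (ℓ ^ 2 * V / 10000) := by
        gcongr
    _ = ((2 / σ) * σ ^ 2) * (V / 10000) * (ℓ ^ 2 * (exp (81 / 100000 * ℓ) * exp (-ℓ / 400))) := by
        ring
    _ ≤ 1 * (V / 10000) * (exp (((2 : ℕ) : ℝ) * (ℓ / 4000)) *
          (exp (81 / 100000 * ℓ) * exp (-ℓ / 400))) := by
        gcongr
        exact nc_pow_le hℓ 2
    _ = (V / 10000) * exp (((2 : ℕ) : ℝ) * (ℓ / 4000) + (81 / 100000 * ℓ + -ℓ / 400)) := by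
        rw [Real.exp_add, Real.exp_add]; ring
    _ ≤ (V / 10000) * 1 := by
        gcongr
        apply Real.exp_le_one_iff.mpr
        push_cast
        linarith
    _ = V / 10000 := by ring

/-- The parameter `ψ` of the geometric sum is tiny. -/
lemma nc_psi (hℓ : 80000 ≤ ℓ) (hσ0 : 0 < σ) (hT0 : 0 < T) (hT : T ≤ ℓ ^ 2 / 2 ^ 17)
    (hB16 : 16 ≤ B) (hκB : (B : ℝ) * log (2 / σ) ≤ ℓ / 8) {X : ℝ}
    (hX : (n : ℝ) / (4 * B) ≤ X) (hn : (n : ℝ) = exp ℓ) :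
    (2 / σ) ^ (2 * B) * Real.sqrt ((90000 * T / B / exp (-ℓ / 200)) / X)
        * (90000 * T / B / exp (-ℓ / 200) + 1) ^ 16 ≤ exp (-ℓ / 10) := by
  have hℓ0 : 0 < ℓ := by linarith
  have hB' : (16 : ℝ) ≤ B := by exact_mod_cast hB16
  have hBpos : (0 : ℝ) < B := by linarith
  have hnpos : (0 : ℝ) < n := by rw [hn]; exact exp_pos _
  have hXpos : 0 < X := lt_of_lt_of_le (by positivity) hX
  set w : ℝ := 90000 * T / B with hw
  have hw0 : 0 < w := by positivity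
  have hBw : (B : ℝ) * w = 90000 * T := by rw [hw]; field_simp
  have hTℓ1 : 90000 * T ≤ ℓ ^ 2 := by
    have : 90000 * T ≤ 90000 * (ℓ ^ 2 / 2 ^ 17) := by gcongr
    have e : 90000 * (ℓ ^ 2 / 2 ^ 17) = ℓ ^ 2 * (90000 / 2 ^ 17) := by ring
    have e' : ℓ ^ 2 * (90000 / 2 ^ 17) ≤ ℓ ^ 2 * 1 := by
      apply mul_le_mul_of_nonneg_left _ (by positivity)
      norm_num
    linarith
  have hwτ : w / exp (-ℓ / 200) = w * exp (ℓ / 200) := by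
    rw [div_eq_mul_inv, ← Real.exp_neg]
    congr 2
    ring
  -- `Γ ^ (2 B)`
  have h1 : (2 / σ) ^ (2 * B) ≤ exp (ℓ / 4) := by
    rw [nc_gamma_pow hσ0 (2 * B)]
    apply Real.exp_le_exp.mpr
    push_cast
    nlinarith
  -- `√Θ`
  have h2 : Real.sqrt (w / exp (-ℓ / 200) / X) ≤ 2 * ℓ * exp (-(199 / 400) * ℓ) := by
    rw [Real.sqrt_le_iff]
    refine ⟨by positivity, ?_⟩
    rw [hwτ, div_le_iff₀ hXpos]
    have h3 : (2 * ℓ * exp (-(199 / 400) * ℓ)) ^ 2 * ((n : ℝ) / (4 * B)) ≤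
        (2 * ℓ * exp (-(199 / 400) * ℓ)) ^ 2 * X :=
      mul_le_mul_of_nonneg_left hX (by positivity)
    refine le_trans ?_ h3
    have e1 : (2 * ℓ * exp (-(199 / 400) * ℓ)) ^ 2 * ((n : ℝ) / (4 * B))
        = ℓ ^ 2 * (exp (-(199 / 400) * ℓ) ^ 2 * n) / B := by
      field_simp
      ring
    have e2 : exp (-(199 / 400) * ℓ) ^ 2 * n = exp (ℓ / 200) := by
      rw [hn, ← Real.exp_nat_mul, ← Real.exp_add]
      congr 1
      push_cast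
      ring
    rw [e1, e2, le_div_iff₀ hBpos]
    have e3 : w * exp (ℓ / 200) * (B : ℝ) = ((B : ℝ) * w) * exp (ℓ / 200) := by ring
    rw [e3, hBw]
    exact mul_le_mul_of_nonneg_right hTℓ1 (exp_pos _).le
  -- `w / τ + 1`
  have h4 : (w / exp (-ℓ / 200) + 1) ^ 16 ≤ exp (11 / 125 * ℓ) := by
    have h5 : w ≤ ℓ ^ 2 / 16 := by
      rw [le_div_iff₀ (by norm_num)]
      have h6 : w * 16 ≤ w * B := mul_le_mul_of_nonneg_left hB' hw0.le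
      have h7 : w * B = 90000 * T := by rw [mul_comm]; exact hBw
      linarith
    have h8 : (1 : ℝ) ≤ exp (ℓ / 200) := Real.one_le_exp (by positivity)
    have hℓ2 : 16 ≤ ℓ ^ 2 := by nlinarith
    have h9 : w * exp (ℓ / 200) + 1 ≤ ℓ ^ 2 * exp (ℓ / 200) := by
      have h10 : w * exp (ℓ / 200) ≤ ℓ ^ 2 / 16 * exp (ℓ / 200) :=
        mul_le_mul_of_nonneg_right h5 (exp_pos _).le
      have h11 : 1 * 1 ≤ ℓ ^ 2 * (15 / 16) * exp (ℓ / 200) := by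
        have : (1 : ℝ) ≤ ℓ ^ 2 * (15 / 16) := by linarith
        exact mul_le_mul this h8 (by norm_num) (by positivity)
      nlinarith
    rw [hwτ]
    calc (w * exp (ℓ / 200) + 1) ^ 16 ≤ (ℓ ^ 2 * exp (ℓ / 200)) ^ 16 :=
          pow_le_pow_left₀ (by positivity) h9 16
      _ = ℓ ^ 32 * exp (((16 : ℕ) : ℝ) * (ℓ / 200)) := by
          rw [mul_pow, ← pow_mul, Real.exp_nat_mul]
      _ ≤ exp (((32 : ℕ) : ℝ) * (ℓ / 4000)) * exp (((16 : ℕ) : ℝ) * (ℓ / 200)) := by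
          gcongr
          exact nc_pow_le hℓ 32
      _ = exp (11 / 125 * ℓ) := by
          rw [← Real.exp_add]
          congr 1
          push_cast
          ring
  have h5 : 2 * ℓ ≤ exp (((2 : ℕ) : ℝ) * (ℓ / 4000)) := by
    have h6 := nc_pow_le hℓ 2
    nlinarith
  have h0 : 0 ≤ Real.sqrt (w / exp (-ℓ / 200) / X) := Real.sqrt_nonneg _
  calc (2 / σ) ^ (2 * B) * Real.sqrt (w / exp (-ℓ / 200) / X) * (w / exp (-ℓ / 200) + 1) ^ 16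
      ≤ exp (ℓ / 4) * (2 * ℓ * exp (-(199 / 400) * ℓ)) * exp (11 / 125 * ℓ) := by
        gcongr
    _ ≤ exp (ℓ / 4) * (exp (((2 : ℕ) : ℝ) * (ℓ / 4000)) * exp (-(199 / 400) * ℓ))
          * exp (11 / 125 * ℓ) := by
        gcongr
    _ = exp (ℓ / 4 + (((2 : ℕ) : ℝ) * (ℓ / 4000) + -(199 / 400) * ℓ) + 11 / 125 * ℓ) := by
        rw [Real.exp_add, Real.exp_add, Real.exp_add]
    _ ≤ exp (-ℓ / 10) := by
        apply Real.exp_le_exp.mpr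
        push_cast
        linarith

/-- The fifth term. -/
lemma nc_term5 (hℓ : 80000 ≤ ℓ) (hσ0 : 0 < σ) (hT0 : 0 < T) (hT : T ≤ ℓ ^ 2 / 2 ^ 17)
    (hV0 : 0 < V) (hI0 : 0 ≤ I) (hI : I < T * V)
    (hB16 : 16 ≤ B) (hκB : (B : ℝ) * log (2 / σ) ≤ ℓ / 8) {X : ℝ}
    (hX : (n : ℝ) / (4 * B) ≤ X) (hn : (n : ℝ) = exp ℓ) (hLℓ : (L : ℝ) ≤ ℓ ^ 2) :
    ∑ t ∈ Finset.Icc 1 L, (2 / σ) ^ (2 * B * t) *
        (Real.sqrt (((90000 * T / B / exp (-ℓ / 200)) / X) ^ t)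
          * ((200 * I / B) / exp (-ℓ / 200)) * (90000 * T / B / exp (-ℓ / 200) + 1) ^ (16 * t))
      ≤ V / 10000 := by
  have hℓ0 : 0 < ℓ := by linarith
  have hB' : (16 : ℝ) ≤ B := by exact_mod_cast hB16
  have hBpos : (0 : ℝ) < B := by linarith
  have hnpos : (0 : ℝ) < n := by rw [hn]; exact exp_pos _
  have hXpos : 0 < X := lt_of_lt_of_le (by positivity) hX
  have hpsi := nc_psi (σ := σ) (T := T) (B := B) (n := n) hℓ hσ0 hT0 hT hB16 hκB hX hn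
  set w : ℝ := 90000 * T / B with hw
  have hw0 : 0 < w := by positivity
  set τ : ℝ := exp (-ℓ / 200) with hτ
  have hτ0 : 0 < τ := exp_pos _
  set Θ : ℝ := w / τ / X with hΘ
  have hΘ0 : 0 ≤ Θ := by positivity
  set ψ : ℝ := (2 / σ) ^ (2 * B) * Real.sqrt Θ * (w / τ + 1) ^ 16 with hψ
  have hψ0 : 0 ≤ ψ := by positivity
  have hψ1 : ψ ≤ 1 := hpsi.trans (Real.exp_le_one_iff.mpr (by linarith))
  set C : ℝ := 200 * I / B / τ with hC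
  have hC0 : 0 ≤ C := by positivity
  have hterm : ∀ t ∈ Finset.Icc 1 L, (2 / σ) ^ (2 * B * t) *
      (Real.sqrt (Θ ^ t) * C * (w / τ + 1) ^ (16 * t)) ≤ C * ψ := by
    intro t ht
    have ht1 : 1 ≤ t := (Finset.mem_Icc.mp ht).1
    have hsq : Real.sqrt (Θ ^ t) = Real.sqrt Θ ^ t := by
      have e0 : Θ ^ t = (Real.sqrt Θ ^ t) ^ 2 := by
        rw [← pow_mul, mul_comm, pow_mul, Real.sq_sqrt hΘ0]
      rw [e0, Real.sqrt_sq (by positivity)]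
    have e : (2 / σ) ^ (2 * B * t) * (Real.sqrt (Θ ^ t) * C * (w / τ + 1) ^ (16 * t)) = C * ψ ^ t := by
      rw [hsq, hψ, mul_pow, mul_pow, pow_mul, pow_mul (w / τ + 1)]
      ring
    rw [e]
    apply mul_le_mul_of_nonneg_left _ hC0
    calc ψ ^ t ≤ ψ ^ 1 := pow_le_pow_of_le_one hψ0 hψ1 ht1
      _ = ψ := pow_one _
  have hsum := Finset.sum_le_card_nsmul _ _ _ hterm
  rw [Nat.card_Icc, nsmul_eq_mul] at hsum
  refine hsum.trans ?_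
  have hIB := nc_I_over_B hℓ hT hV0 hI0 hI hB16
  have hCle : C ≤ ℓ ^ 2 * V / 10000 * exp (ℓ / 200) := by
    rw [hC, div_le_iff₀ hτ0]
    have e : exp (ℓ / 200) * τ = 1 := by
      rw [hτ, ← Real.exp_add]
      simp only [Real.exp_eq_one_iff]
      ring
    calc 200 * I / (B : ℝ) ≤ ℓ ^ 2 * V / 10000 := hIB
      _ = ℓ ^ 2 * V / 10000 * (exp (ℓ / 200) * τ) := by rw [e, mul_one]
      _ = ℓ ^ 2 * V / 10000 * exp (ℓ / 200) * τ := by ring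
  have hLL : ((L + 1 - 1 : ℕ) : ℝ) ≤ ℓ ^ 2 := by simpa using hLℓ
  calc ((L + 1 - 1 : ℕ) : ℝ) * (C * ψ)
      ≤ ℓ ^ 2 * ((ℓ ^ 2 * V / 10000 * exp (ℓ / 200)) * exp (-ℓ / 10)) := by
        gcongr
    _ = (V / 10000) * (ℓ ^ 4 * (exp (ℓ / 200) * exp (-ℓ / 10))) := by ring
    _ ≤ (V / 10000) * (exp (((4 : ℕ) : ℝ) * (ℓ / 4000)) * (exp (ℓ / 200) * exp (-ℓ / 10))) := by
        gcongr
        exact nc_pow_le hℓ 4
    _ = (V / 10000) * exp (((4 : ℕ) : ℝ) * (ℓ / 4000) + (ℓ / 200 + -ℓ / 10)) := by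
        rw [Real.exp_add, Real.exp_add]
    _ ≤ (V / 10000) * 1 := by
        gcongr
        apply Real.exp_le_one_iff.mpr
        push_cast
        linarith
    _ = V / 10000 := by ring

/-- Side conditions for the parameters. -/
lemma nc_side (hℓ : 80000 ≤ ℓ) (hrℓ : (r : ℝ) ≤ ℓ) (hσ0 : 0 < σ) (hσ1 : σ ≤ 1 / 2)
    (hT : T ≤ ℓ ^ 2 / 2 ^ 17) (hσT : 1 < σ ^ 2 * T)
    (hn : (n : ℝ) = exp ℓ)
    (hB : B = ⌊ℓ / (8 * log (2 / σ))⌋₊) (hB16 : 16 ≤ B)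
    (hM : M = ⌊3 * σ ^ 2 * T⌋₊) (hL : L = 8 * M / B + 1) (hn₀ : n₀ = n / (2 * B)) :
    (B : ℝ) * log (2 / σ) ≤ ℓ / 8 ∧ ℓ ≤ 9 * log (2 / σ) * B ∧ (M : ℝ) ≤ 3 * σ ^ 2 * T ∧
      3 * σ ^ 2 * T < (M : ℝ) + 1 ∧ (L : ℝ) ≤ 8 * M / B + 1 ∧ 8 * M ≤ B * L ∧
      (L : ℝ) ≤ ℓ ^ 2 ∧ 800 * B ^ 2 ≤ n ∧ 2 * B * n₀ ≤ n ∧ r * L + 1 < n₀ ∧
      (n : ℝ) / (4 * B) ≤ (n₀ : ℝ) - (r * L + 1) := by
  have hℓ0 : 0 < ℓ := by linarith
  have hB' : (16 : ℝ) ≤ B := by exact_mod_cast hB16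
  have hBpos : (0 : ℝ) < B := by linarith
  have hBpos' : 0 < B := by omega
  have hκ1 := nc_kappa_ge hσ0 hσ1
  set κ := log (2 / σ) with hκ
  have hκ0 : 0 < κ := by linarith
  have hσ14 : σ ^ 2 ≤ 1 / 4 := by nlinarith
  have hσ2pos : 0 < σ ^ 2 := by positivity
  have hT0 : 0 < T := by
    by_contra h
    push Not at h
    nlinarith
  have hdiv0 : 0 ≤ ℓ / (8 * κ) := by positivity
  have hfl1 : (B : ℝ) ≤ ℓ / (8 * κ) := by rw [hB]; exact Nat.floor_le hdiv0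
  have hfl2 : ℓ / (8 * κ) < (B : ℝ) + 1 := by rw [hB]; exact Nat.lt_floor_add_one _
  have h1 : (B : ℝ) * κ ≤ ℓ / 8 := by
    rw [le_div_iff₀ (by positivity)] at hfl1
    linarith
  have h2 : ℓ ≤ 9 * κ * B := by
    rw [div_lt_iff₀ (by positivity)] at hfl2
    nlinarith
  have hBℓ : (B : ℝ) ≤ ℓ / 8 := by nlinarith
  have hm0 : 0 ≤ 3 * σ ^ 2 * T := by positivity
  have h3 : (M : ℝ) ≤ 3 * σ ^ 2 * T := by rw [hM]; exact Nat.floor_le hm0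
  have h4 : 3 * σ ^ 2 * T < (M : ℝ) + 1 := by rw [hM]; exact Nat.lt_floor_add_one _
  have h5 : (L : ℝ) ≤ 8 * M / B + 1 := by
    rw [hL]
    push_cast
    have : ((8 * M / B : ℕ) : ℝ) ≤ ((8 * M : ℕ) : ℝ) / (B : ℝ) := Nat.cast_div_le
    push_cast at this
    linarith
  have h6 : 8 * M ≤ B * L := by
    rw [hL]
    exact (Nat.lt_mul_div_succ _ hBpos').le
  have hTℓ : T ≤ ℓ ^ 2 / 2 ^ 17 := hT
  have hM8 : 8 * (M : ℝ) / B ≤ 6 * T := by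
    have h7 : 8 * (M : ℝ) / B ≤ 8 * M / 1 := by
      apply div_le_div_of_nonneg_left (by positivity) (by norm_num) (by linarith)
    have h8 : 8 * (M : ℝ) ≤ 8 * (3 * σ ^ 2 * T) := by linarith
    have h9 : 8 * (3 * σ ^ 2 * T) ≤ 6 * T := by nlinarith
    rw [div_one] at h7
    linarith
  have hℓ2 : (80000 : ℝ) * 80000 ≤ ℓ ^ 2 := by nlinarith
  have h7 : (L : ℝ) ≤ ℓ ^ 2 := by
    have h8 : 6 * T ≤ ℓ ^ 2 / 2 := by
      have : 6 * (ℓ ^ 2 / 2 ^ 17) ≤ ℓ ^ 2 / 2 := by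
        have e : 6 * (ℓ ^ 2 / 2 ^ 17) = ℓ ^ 2 * (6 / 2 ^ 17) := by ring
        have e' : ℓ ^ 2 / 2 = ℓ ^ 2 * (1 / 2) := by ring
        rw [e, e']
        apply mul_le_mul_of_nonneg_left _ (by positivity)
        norm_num
      linarith
    linarith
  have hnreal : ∀ k : ℕ, k ≤ 100 → ℓ ^ k ≤ (n : ℝ) := by
    intro k hk
    rw [hn]
    refine (nc_pow_le hℓ k).trans (Real.exp_le_exp.mpr ?_)
    have : (k : ℝ) ≤ 100 := by exact_mod_cast hk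
    nlinarith
  have hnpos : (0 : ℝ) < n := by rw [hn]; exact exp_pos _
  have h8 : 800 * B ^ 2 ≤ n := by
    have h9 : (800 : ℝ) * (B : ℝ) ^ 2 ≤ (n : ℝ) := by
      have h10 : (B : ℝ) ^ 2 ≤ (ℓ / 8) ^ 2 := pow_le_pow_left₀ hBpos.le hBℓ 2
      have h11 : (800 : ℝ) * (ℓ / 8) ^ 2 ≤ ℓ ^ 3 := by nlinarith [pow_pos hℓ0 2]
      have h12 := hnreal 3 (by norm_num)
      linarith
    exact_mod_cast h9
  have h9 : 2 * B * n₀ ≤ n := by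
    rw [hn₀]
    exact Nat.mul_div_le _ _
  have h10 : n < 2 * B * (n₀ + 1) := by
    rw [hn₀]
    exact Nat.lt_mul_div_succ _ (by omega)
  have h10' : (n : ℝ) < 2 * B * ((n₀ : ℝ) + 1) := by exact_mod_cast h10
  have hrL : (r : ℝ) * L + 2 ≤ ℓ ^ 3 + 2 := by
    have h11 : (r : ℝ) * L ≤ ℓ * ℓ ^ 2 :=
      mul_le_mul hrℓ h7 (by positivity) hℓ0.le
    have e : ℓ * ℓ ^ 2 = ℓ ^ 3 := by ring
    linarith
  have h11 : (r : ℝ) * L + 2 ≤ (n : ℝ) / (4 * B) := by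
    rw [le_div_iff₀ (by positivity)]
    have h12 : ((r : ℝ) * L + 2) * (4 * B) ≤ (ℓ ^ 3 + 2) * (4 * (ℓ / 8)) := by
      have h13 : 0 ≤ (r : ℝ) * L + 2 := by positivity
      have h14 : (4 : ℝ) * B ≤ 4 * (ℓ / 8) := by linarith
      exact mul_le_mul hrL h14 (by positivity) (by positivity)
    have h13 : (ℓ ^ 3 + 2) * (4 * (ℓ / 8)) ≤ ℓ ^ 4 := by
      have : 2 ≤ ℓ ^ 3 := by nlinarith [pow_pos hℓ0 2]
      nlinarith [pow_pos hℓ0 3]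
    have h14 := hnreal 4 (by norm_num)
    linarith
  have h12 : (n : ℝ) / (4 * B) ≤ (n₀ : ℝ) - (r * L + 1) := by
    have h13 : (n : ℝ) / (2 * B) < (n₀ : ℝ) + 1 := by
      rw [div_lt_iff₀ (by positivity)]
      linarith
    have h14 : (n : ℝ) / (2 * B) = (n : ℝ) / (4 * B) + (n : ℝ) / (4 * B) := by
      field_simp
      ring
    linarith
  have h13 : r * L + 1 < n₀ := by
    have h14 : (0 : ℝ) < (n : ℝ) / (4 * B) := by positivity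
    have h15 : (r : ℝ) * L + 1 < n₀ := by linarith
    exact_mod_cast h15
  exact ⟨h1, h2, h3, h4, h5, h6, h7, h8, h9, h13, h12⟩

/-- The numerical contradiction. -/
theorem nc_core (hℓ : 80000 ≤ ℓ) (hrℓ : (r : ℝ) ≤ ℓ) (hσ0 : 0 < σ) (hσ1 : σ ≤ 1 / 2)
    (hT : T ≤ ℓ ^ 2 / 2 ^ 17) (hσT : 1 < σ ^ 2 * T)
    (hV0 : 0 < V) (hV1 : V ≤ 1 / 4) (hI0 : 0 ≤ I) (hI : I < T * V)
    (hn : (n : ℝ) = exp ℓ) (hN : (n : ℝ) ^ 2 / 4 ≤ N)
    (hB : B = ⌊ℓ / (8 * log (2 / σ))⌋₊) (hB16 : 16 ≤ B)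
    (hM : M = ⌊3 * σ ^ 2 * T⌋₊) (hL : L = 8 * M / B + 1) (hn₀ : n₀ = n / (2 * B))
    (hmaster : V ≤
      (2 / σ) ^ B * (σ ^ 2 * (Real.sqrt (I / N) * I))
      + σ ^ 2 * I / (M + 1)
      + 300 * (∑ t ∈ Finset.Icc 1 L, (2 / σ) ^ (2 * B * t) *
            (Real.sqrt (((90000 * T / B / exp (-ℓ / 200)) /
                ((n₀ : ℝ) - (r * L + 1))) ^ t)
            * ((200 * I / B) / exp (-ℓ / 200)) * (90000 * T / B / exp (-ℓ / 200) + 1) ^ (16 * t))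
        + (2 / σ) ^ L * (σ ^ 2 * Real.sqrt (exp (-ℓ / 200))) * (200 * I / B)
        + 50 * I / (B * (90000 * T / B)))) : False := by
  obtain ⟨h1, h2, h3, h4, h5, _, h7, _, _, _, h12⟩ :=
    nc_side (r := r) (n := n) hℓ hrℓ hσ0 hσ1 hT hσT hn hB hB16 hM hL hn₀
  have hT0 : 0 < T := by
    by_contra h
    push Not at h
    have : σ ^ 2 * T ≤ 0 := mul_nonpos_of_nonneg_of_nonpos (by positivity) h
    linarith
  have hGB : (2 / σ) ^ B ≤ exp (ℓ / 8) := by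
    rw [nc_gamma_pow hσ0 B]
    exact Real.exp_le_exp.mpr h1
  have t1 := nc_term1 hℓ hσ0 hσ1 hT0 hT hV0 hV1 hI0 hI hn hN hGB
  have t2 := nc_term2 (M := M) hσ0 hV0 hI h4
  have t3 := nc_term3 (B := B) (by omega) hT0 hI
  have t4 := nc_term4 hℓ hσ0 hσ1 hT0 hT hV0 hI0 hI hB16 h2 h3 h5
  have t5 := nc_term5 hℓ hσ0 hT0 hT hV0 hI0 hI hB16 h1 h12 hn h7
  linarith

end Core

end Crest.Agent.BK
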