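import Crest.Agent.Lib.BK.Master
import Crest.Agent.Lib.BK.NumericCoreAux

/-!
# Task G (row 56): the main case, from `master` and the numeric contradiction `nc_core`.
-/

set_option autoImplicit false

namespace Crest.Agent.BK

open Crest.CombinatoricsR.HypergraphCube

theorem main_case {n r : ℕ} (hr : 2 ≤ r) (hrn : r ≤ n) {p : ℝ} (hp0 : 0 < p) (hp1 : p < 1)
    {f : (HyperedgeSlot n r → Bool) → Bool} (hf : IsSymmetric f) {T : ℝ}
    (hℓ : 80000 ≤ Real.log n) (hℓr : (r : ℝ) ≤ Real.log n)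
    (hT : T ≤ Real.log n ^ 2 / 2 ^ 17) (hσT : 1 < sig p ^ 2 * T)
    (hN : (n : ℝ) ^ 2 / 4 ≤ Fintype.card (HyperedgeSlot n r))
    (hd : ∃ d : ℕ, (r * ⌊3 * sig p ^ 2 * T⌋₊) ^ (r - 1) ≤ d ^ r ∧
        16 * d ≤ ⌊Real.log n / (8 * Real.log (2 / sig p))⌋₊) :
    T * (ex p (bv f) * (1 - ex p (bv f))) ≤ totInf p f := by
  by_contra hcon
  push Not at hcon
  have hσ0 := sig_pos hp0 hp1
  have hσ1 := sig_le hp0 hp1
  have hI0 : 0 ≤ totInf p f := master_totInf_nonneg hp0 hp1 f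
  have hT0 : 0 < T := by
    by_contra h
    push Not at h
    have : sig p ^ 2 * T ≤ 0 := mul_nonpos_of_nonneg_of_nonpos (by positivity) h
    linarith
  have hV0 : 0 < ex p (bv f) * (1 - ex p (bv f)) := by
    by_contra h
    push Not at h
    have : T * (ex p (bv f) * (1 - ex p (bv f))) ≤ 0 := mul_nonpos_of_nonneg_of_nonpos hT0.le h
    linarith
  have hV1 : ex p (bv f) * (1 - ex p (bv f)) ≤ 1 / 4 := by
    nlinarith [sq_nonneg (ex p (bv f) - 1 / 2)]
  have hnpos : (0 : ℝ) < n := by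
    rcases Nat.eq_zero_or_pos n with h0 | h0
    · subst h0
      simp at hℓ
      linarith
    · exact_mod_cast h0
  have hn : (n : ℝ) = Real.exp (Real.log n) := (Real.exp_log hnpos).symm
  obtain ⟨d, hd1, hd2⟩ := hd
  obtain ⟨M, hM⟩ : ∃ M, M = ⌊3 * sig p ^ 2 * T⌋₊ := ⟨_, rfl⟩
  obtain ⟨B, hB⟩ : ∃ B, B = ⌊Real.log n / (8 * Real.log (2 / sig p))⌋₊ := ⟨_, rfl⟩
  rw [← hM] at hd1
  rw [← hB] at hd2
  have hM3 : 3 ≤ M := by
    rw [hM]
    apply Nat.le_floor
    push_cast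
    linarith
  have hd0 : 1 ≤ d := by
    by_contra h
    have hd00 : d = 0 := by omega
    rw [hd00, zero_pow (by omega)] at hd1
    have h1 : 0 < (r * M) ^ (r - 1) := pow_pos (Nat.mul_pos (by omega) (by omega)) _
    omega
  have hB16 : 16 ≤ B := by omega
  have : NeZero B := ⟨by omega⟩
  obtain ⟨h1, h2, h3, h4, h5, h6, h7, h8, h9, h13, h12⟩ :=
    nc_side (r := r) (n := n) (M := M) (B := B) (L := 8 * M / B + 1) (n₀ := n / (2 * B))
      hℓ hℓr hσ0 hσ1 hT hσT hn hB hB16 hM rfl rfl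
  have hw : 0 < 90000 * T / (B : ℝ) := by
    have : (0 : ℝ) < B := by
      have : 0 < B := by omega
      exact_mod_cast this
    positivity
  have hm := master (B := B) hp0 hp1 hr hrn hf M (8 * M / B + 1) d hd1 hd2 h6 h8
    (τ := Real.exp (-Real.log n / 200)) (w := 90000 * T / (B : ℝ)) (Real.exp_pos _) hw h9 h13
  exact nc_core (r := r) (n := n) hℓ hℓr hσ0 hσ1 hT hσT hV0 hV1 hI0 hcon hn hN hB hB16 hM rfl rfl hm

end Crest.Agent.BK
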