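import Crest.Agent.Lib.BK.NumericH

/-!
# Task H (row 56): `r ≥ 3`.
-/

set_option autoImplicit false

namespace Crest.Agent.BK

open Crest.CombinatoricsR.HypergraphCube

/-- `r ≥ 3`. -/
theorem influence_general (r : ℕ) (hr : 3 ≤ r) : ∃ C : ℝ, ∀ n : ℕ, r ≤ n → ∀ p : ℝ, 0 < p → p < 1 →
    ∀ f : (HyperedgeSlot n r → Bool) → Bool, IsSymmetric f →
      ex p (bv f) * (1 - ex p (bv f)) ≤ C / Real.log n ^ ((r : ℝ) / ((r : ℝ) - 1)) * totInf p f := by
  refine ⟨2 ^ 17 * r + (80000 + r) ^ 2, ?_⟩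
  intro n hrn p hp0 hp1 f hf
  have hσ0 := sig_pos hp0 hp1
  have hσ1 := sig_le hp0 hp1
  have hI0 : 0 ≤ totInf p f := master_totInf_nonneg hp0 hp1 f
  have hr' : (3 : ℝ) ≤ r := by exact_mod_cast hr
  have hn3 : (3 : ℝ) ≤ n := by
    have : 3 ≤ n := by omega
    exact_mod_cast this
  have hℓ1 : 1 ≤ Real.log n := by
    rw [Real.le_log_iff_exp_le (by linarith)]
    have := Real.exp_one_lt_d9
    linarith
  set ℓ := Real.log n with hℓdef
  set α : ℝ := (r : ℝ) / ((r : ℝ) - 1) with hα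
  set C : ℝ := 2 ^ 17 * r + (80000 + r) ^ 2 with hC
  have hα2 : α ≤ 2 := by
    rw [hα, div_le_iff₀ (by linarith)]
    linarith
  have hα0 : 0 < α := by
    rw [hα]
    apply div_pos <;> linarith
  have hℓα : ℓ ^ α ≤ ℓ ^ 2 := by
    calc ℓ ^ α ≤ ℓ ^ (2 : ℝ) := Real.rpow_le_rpow_of_exponent_le hℓ1 hα2
      _ = ℓ ^ 2 := by norm_cast
  have hℓαpos : 0 < ℓ ^ α := Real.rpow_pos_of_pos (by linarith) _
  have hCpos : 0 < C := by positivity
  by_cases hcase : ℓ < 80000 + r
  · -- Poincaré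
    have h1 := poincare hp0 hp1 f
    have hσ2 : sig p ^ 2 ≤ 1 := by
      have : sig p ≤ 1 := by linarith
      exact pow_le_one₀ hσ0.le this
    have h2 : ℓ ^ 2 ≤ (80000 + (r : ℝ)) ^ 2 := pow_le_pow_left₀ (by linarith) hcase.le 2
    have h3 : 1 ≤ C / ℓ ^ α := by
      rw [le_div_iff₀ hℓαpos]
      have : (0 : ℝ) ≤ 2 ^ 17 * r := by positivity
      linarith
    calc ex p (bv f) * (1 - ex p (bv f)) ≤ sig p ^ 2 * totInf p f := h1
      _ ≤ 1 * totInf p f := mul_le_mul_of_nonneg_right hσ2 hI0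
      _ ≤ C / ℓ ^ α * totInf p f := mul_le_mul_of_nonneg_right h3 hI0
  · push Not at hcase
    have hℓ80 : 80000 ≤ ℓ := by
      have : (0 : ℝ) ≤ r := by positivity
      linarith
    have hℓr : (r : ℝ) ≤ ℓ := by linarith
    have hℓ0 : 0 < ℓ := by linarith
    have hT0 : 0 < ℓ ^ α / C := by positivity
    have hC17 : 2 ^ 17 ≤ C := by
      have : (2 : ℝ) ^ 17 * 1 ≤ 2 ^ 17 * r := by
        apply mul_le_mul_of_nonneg_left _ (by positivity)
        linarith
      have h' : (0 : ℝ) ≤ (80000 + r) ^ 2 := by positivity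
      linarith
    have hT : ℓ ^ α / C ≤ ℓ ^ 2 / 2 ^ 17 := by
      apply div_le_div₀ (by positivity) hℓα (by norm_num) hC17
    have hmain := nh_main (by omega) hrn hp0 hp1 hf hT0 hℓ80 hℓr hT ?_
    · have e : C / ℓ ^ α * totInf p f = (1 / (ℓ ^ α / C)) * totInf p f := by
        field_simp
      rw [e, one_div, ← div_eq_inv_mul, le_div_iff₀ hT0]
      linarith
    · -- the power inequality
      have hr1 : 1 ≤ r - 1 := by omega
      have hcast : ((r - 1 : ℕ) : ℝ) = (r : ℝ) - 1 := by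
        rw [Nat.cast_sub (by omega)]
        norm_num
      have hpow : (ℓ ^ α) ^ (r - 1) = ℓ ^ r := by
        rw [← Real.rpow_natCast (ℓ ^ α), ← Real.rpow_mul hℓ0.le, hcast]
        have e : α * ((r : ℝ) - 1) = (r : ℝ) := by
          rw [hα]
          field_simp [show (r : ℝ) - 1 ≠ 0 by linarith]
        rw [e, Real.rpow_natCast]
      have hfrac : 3 * (r : ℝ) / C ≤ 1 / 147 ^ 2 := by
        rw [div_le_div_iff₀ hCpos (by norm_num)]
        have h' : (0 : ℝ) ≤ (80000 + r) ^ 2 := by positivity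
        nlinarith
      have hfrac0 : 0 ≤ 3 * (r : ℝ) / C := by positivity
      have e1 : (3 * r * sig p ^ 2 * (ℓ ^ α / C)) ^ (r - 1)
          = (3 * (r : ℝ) / C) ^ (r - 1) * (sig p ^ 2) ^ (r - 1) * ℓ ^ r := by
        rw [← hpow, ← mul_pow, ← mul_pow]
        congr 1
        field_simp
      have e2 : (sig p * ℓ / 147) ^ r = (1 / 147 : ℝ) ^ r * sig p ^ r * ℓ ^ r := by
        rw [← mul_pow, ← mul_pow]
        congr 1
        ring
      rw [e1, e2]
      apply mul_le_mul_of_nonneg_right _ (by positivity)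
      have h2r : r ≤ 2 * (r - 1) := by omega
      apply mul_le_mul
      · calc (3 * (r : ℝ) / C) ^ (r - 1) ≤ (1 / 147 ^ 2 : ℝ) ^ (r - 1) :=
              pow_le_pow_left₀ hfrac0 hfrac _
          _ = (1 / 147 : ℝ) ^ (2 * (r - 1)) := by
              rw [pow_mul]
              congr 1
              norm_num
          _ ≤ (1 / 147 : ℝ) ^ r :=
              pow_le_pow_of_le_one (by norm_num) (by norm_num) h2r
      · rw [← pow_mul]
        exact pow_le_pow_of_le_one hσ0.le (by linarith) h2r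
      · positivity
      · positivity

end Crest.Agent.BK
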