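import Crest.Agent.Lib.BK.NumericCore

/-!
# Task H (row 56): common part of `influence_two` and `influence_general`.
-/

set_option autoImplicit false

namespace Crest.Agent.BK

open Crest.CombinatoricsR.HypergraphCube

/-- `N ≥ n² / 4`. -/
lemma nh_card {n r : ℕ} (hr : 2 ≤ r) (h2n : 2 * r ≤ n) :
    (n : ℝ) ^ 2 / 4 ≤ Fintype.card (HyperedgeSlot n r) := by
  have hcard : Fintype.card (HyperedgeSlot n r) = n.choose r := by
    simp
  rw [hcard]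
  have hmono : ∀ k, 2 ≤ k → 2 * k ≤ n → n.choose 2 ≤ n.choose k := by
    intro k hk
    induction k, hk using Nat.le_induction with
    | base => intro _; exact le_rfl
    | succ k hk ih =>
      intro h
      have h1 : k < n / 2 := by omega
      exact (ih (by omega)).trans (Nat.choose_le_succ_of_lt_half_left h1)
  have h1 : ((n.choose 2 : ℕ) : ℝ) ≤ (n.choose r : ℕ) := by exact_mod_cast hmono r hr h2n
  have h2 : ((n.choose 2 : ℕ) : ℝ) = (n : ℝ) * ((n : ℝ) - 1) / 2 := Nat.cast_choose_two ℝ n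
  have hn : (2 : ℝ) ≤ n := by
    have : 2 ≤ n := by omega
    exact_mod_cast this
  nlinarith

/-- Existence of `d` in `main_case`. -/
lemma nh_exists_d {ℓ σ : ℝ} {r M : ℕ} (hr : 2 ≤ r) (hℓ : 80000 ≤ ℓ) (hσ0 : 0 < σ) (hσ1 : σ ≤ 1 / 2)
    (hκ : Real.log (2 / σ) ≤ ℓ / 4000)
    (h : (((r * M : ℕ) : ℝ)) ^ (r - 1) ≤ (σ * ℓ / 147) ^ r) :
    ∃ d : ℕ, (r * M) ^ (r - 1) ≤ d ^ r ∧ 16 * d ≤ ⌊ℓ / (8 * Real.log (2 / σ))⌋₊ := by
  have hℓ0 : 0 < ℓ := by linarith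
  have hκ1 := nc_kappa_ge hσ0 hσ1
  have hκσ := nc_sigma_kappa hσ0 hσ1
  set κ := Real.log (2 / σ) with hκdef
  have hκ0 : 0 < κ := by linarith
  refine ⟨⌈σ * ℓ / 147⌉₊, ?_, ?_⟩
  · have h1 : σ * ℓ / 147 ≤ (⌈σ * ℓ / 147⌉₊ : ℝ) := Nat.le_ceil _
    have h2 : (σ * ℓ / 147) ^ r ≤ ((⌈σ * ℓ / 147⌉₊ : ℝ)) ^ r :=
      pow_le_pow_left₀ (by positivity) h1 r
    have h3 : (((r * M : ℕ) : ℝ)) ^ (r - 1) ≤ ((⌈σ * ℓ / 147⌉₊ : ℝ)) ^ r := h.trans h2
    exact_mod_cast h3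
  · apply Nat.le_floor
    have h1 : (⌈σ * ℓ / 147⌉₊ : ℝ) < σ * ℓ / 147 + 1 := Nat.ceil_lt_add_one (by positivity)
    push_cast
    rw [le_div_iff₀ (by positivity)]
    have h2 : 16 * (⌈σ * ℓ / 147⌉₊ : ℝ) * (8 * κ) ≤ 16 * (σ * ℓ / 147 + 1) * (8 * κ) := by
      gcongr
    have h3 : 16 * (σ * ℓ / 147 + 1) * (8 * κ) = 128 / 147 * (σ * κ) * ℓ + 128 * κ := by ring
    have h4 : 128 / 147 * (σ * κ) * ℓ ≤ 128 / 147 * (7 / 10) * ℓ := by gcongr
    have h5 : 128 * κ ≤ 128 * (ℓ / 4000) := by gcongr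
    have h6 : 128 / 147 * (7 / 10 : ℝ) * ℓ + 128 * (ℓ / 4000) ≤ ℓ := by
      have e : 128 / 147 * (7 / 10 : ℝ) * ℓ + 128 * (ℓ / 4000) = (128 / 147 * (7 / 10) + 128 / 4000) * ℓ := by
        ring
      rw [e]
      have : (128 / 147 * (7 / 10) + 128 / 4000 : ℝ) ≤ 1 := by norm_num
      nlinarith
    linarith

/-- Poincaré or `main_case`. -/
theorem nh_main {n r : ℕ} (hr : 2 ≤ r) (hrn : r ≤ n) {p : ℝ} (hp0 : 0 < p) (hp1 : p < 1)
    {f : (HyperedgeSlot n r → Bool) → Bool} (hf : IsSymmetric f) {T : ℝ} (hT0 : 0 < T)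
    (hℓ : 80000 ≤ Real.log n) (hℓr : (r : ℝ) ≤ Real.log n)
    (hT : T ≤ Real.log n ^ 2 / 2 ^ 17)
    (hpow : (3 * r * sig p ^ 2 * T) ^ (r - 1) ≤ (sig p * Real.log n / 147) ^ r) :
    T * (ex p (bv f) * (1 - ex p (bv f))) ≤ totInf p f := by
  have hσ0 := sig_pos hp0 hp1
  have hσ1 := sig_le hp0 hp1
  have hI0 : 0 ≤ totInf p f := master_totInf_nonneg hp0 hp1 f
  by_cases hσT : sig p ^ 2 * T ≤ 1
  · have h1 := poincare hp0 hp1 f
    have h2 : T * (ex p (bv f) * (1 - ex p (bv f))) ≤ T * (sig p ^ 2 * totInf p f) :=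
      mul_le_mul_of_nonneg_left h1 hT0.le
    have h3 : T * (sig p ^ 2 * totInf p f) = (sig p ^ 2 * T) * totInf p f := by ring
    have h4 : (sig p ^ 2 * T) * totInf p f ≤ 1 * totInf p f :=
      mul_le_mul_of_nonneg_right hσT hI0
    linarith
  · push Not at hσT
    have hℓ0 : 0 < Real.log n := by linarith
    have hnpos : (0 : ℝ) < n := by
      rcases Nat.eq_zero_or_pos n with h0 | h0
      · subst h0
        simp at hℓ
        linarith
      · exact_mod_cast h0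
    have hn : (n : ℝ) = Real.exp (Real.log n) := (Real.exp_log hnpos).symm
    have h2n : 2 * r ≤ n := by
      have h1 := nc_pow_le hℓ 2
      have h2 : Real.exp (((2 : ℕ) : ℝ) * (Real.log n / 4000)) ≤ Real.exp (Real.log n) :=
        Real.exp_le_exp.mpr (by push_cast; linarith)
      have h3 : (2 : ℝ) * r ≤ n := by
        rw [hn]
        nlinarith
      exact_mod_cast h3
    refine main_case hr hrn hp0 hp1 hf hℓ hℓr hT hσT (nh_card hr h2n) ?_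
    apply nh_exists_d hr hℓ hσ0 hσ1 (nc_kappa_le hℓ hσ0 hT hσT)
    refine le_trans ?_ hpow
    apply pow_le_pow_left₀ (by positivity)
    have hm0 : 0 ≤ 3 * sig p ^ 2 * T := by positivity
    have h1 : ((⌊3 * sig p ^ 2 * T⌋₊ : ℕ) : ℝ) ≤ 3 * sig p ^ 2 * T := Nat.floor_le hm0
    push_cast
    calc (r : ℝ) * ((⌊3 * sig p ^ 2 * T⌋₊ : ℕ) : ℝ) ≤ r * (3 * sig p ^ 2 * T) := by gcongr
      _ = 3 * r * sig p ^ 2 * T := by ring

end Crest.Agent.BK
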