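import Crest.Agent.Lib.BK.NumericH

/-!
# Task H (row 56): `r = 2` with the explicit constant.
-/

set_option autoImplicit false

namespace Crest.Agent.BK

open Crest.CombinatoricsR.HypergraphCube

/-- The KKL bound for a function all of whose influences are equal. -/
lemma nh_kkl_split {n r : ℕ} {p : ℝ} (hp0 : 0 < p) (hp1 : p < 1)
    {f : (HyperedgeSlot n r → Bool) → Bool} (hf : IsSymmetric f) (m : ℕ) :
    ex p (bv f) * (1 - ex p (bv f)) ≤
      (2 / sig p) ^ m * (sig p ^ 2 * (Real.sqrt (totInf p f / Fintype.card (HyperedgeSlot n r))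
          * totInf p f))
      + sig p ^ 2 * totInf p f / (m + 1) := by
  classical
  have hπ : ∀ u, piv p f u ≤ totInf p f / Fintype.card (HyperedgeSlot n r) := by
    intro u
    have hN : (0 : ℝ) < Fintype.card (HyperedgeSlot n r) := by
      have : Nonempty (HyperedgeSlot n r) := ⟨u⟩
      exact_mod_cast Fintype.card_pos
    rw [le_div_iff₀ hN]
    unfold totInf
    have h1 : ∀ e ∈ (Finset.univ : Finset (HyperedgeSlot n r)), piv p f e = piv p f u :=
      fun e _ => piv_eq_of_symm hp0 hp1 hf e u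
    rw [Finset.sum_congr rfl h1, Finset.sum_const, nsmul_eq_mul, Finset.card_univ, mul_comm]
  have h1 := low_le_of_piv hp0 hp1 f m hπ
  have h2 := high_le hp0 hp1 f m
  rw [← var_eq hp0 hp1 f]
  refine le_trans ?_ (add_le_add h1 h2)
  rw [← Finset.sum_filter_add_sum_filter_not
    (Finset.univ.filter (fun S : Finset (HyperedgeSlot n r) => S.Nonempty))
    (fun S => S.card ≤ m)]
  apply add_le_add
  · rw [Finset.filter_filter]
  · apply Finset.sum_le_sum_of_subset_of_nonneg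
    · intro S hS
      simp only [Finset.mem_filter, Finset.mem_univ, true_and, not_le] at hS ⊢
      exact hS.2
    · intro S _ _
      positivity

/-- `N ≥ n² / 4` for `r = 2`. -/
lemma nh_card_two {n : ℕ} (hn : 2 ≤ n) :
    (n : ℝ) ^ 2 / 4 ≤ Fintype.card (HyperedgeSlot n 2) := by
  have hcard : Fintype.card (HyperedgeSlot n 2) = n.choose 2 := by
    simp
  rw [hcard]
  have h2 : ((n.choose 2 : ℕ) : ℝ) = (n : ℝ) * ((n : ℝ) - 1) / 2 := Nat.cast_choose_two ℝ n
  have hn' : (2 : ℝ) ≤ n := by exact_mod_cast hn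
  nlinarith

/-- The range of small `n`: KKL. -/
lemma nh_kkl {n : ℕ} (hn : 2 ≤ n) {p : ℝ} (hp0 : 0 < p) (hp1 : p < 1)
    {f : (HyperedgeSlot n 2 → Bool) → Bool} (hf : IsSymmetric f) (hℓ : Real.log n < 80000) :
    Real.log n ^ 2 / 2 ^ 17 * (ex p (bv f) * (1 - ex p (bv f))) ≤ totInf p f := by
  by_contra hcon
  push Not at hcon
  have hσ0 := sig_pos hp0 hp1
  have hσ1 := sig_le hp0 hp1
  have hI0 : 0 ≤ totInf p f := master_totInf_nonneg hp0 hp1 f
  have hn' : (2 : ℝ) ≤ n := by exact_mod_cast hn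
  have hℓ0 : 0 < Real.log n := Real.log_pos (by linarith)
  have hnexp : Real.exp (Real.log n) = n := Real.exp_log (by linarith)
  set ℓ := Real.log n with hℓdef
  set V := ex p (bv f) * (1 - ex p (bv f)) with hV
  set I := totInf p f with hI
  set σ := sig p with hσ
  have hV1 : V ≤ 1 / 4 := by
    nlinarith [sq_nonneg (ex p (bv f) - 1 / 2)]
  have hV0 : 0 < V := by
    by_contra h
    push Not at h
    have : ℓ ^ 2 / 2 ^ 17 * V ≤ 0 := mul_nonpos_of_nonneg_of_nonpos (by positivity) h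
    linarith
  have hκ1 := nc_kappa_ge hσ0 hσ1
  have hκσ := nc_sigma_kappa hσ0 hσ1
  set κ := Real.log (2 / σ) with hκ
  have hκ0 : 0 < κ := by linarith
  obtain ⟨m, hm⟩ : ∃ m : ℕ, m = ⌊ℓ / (2 * κ)⌋₊ := ⟨_, rfl⟩
  have hdiv0 : 0 ≤ ℓ / (2 * κ) := by positivity
  have hm1 : (m : ℝ) ≤ ℓ / (2 * κ) := by rw [hm]; exact Nat.floor_le hdiv0
  have hm2 : ℓ / (2 * κ) < (m : ℝ) + 1 := by rw [hm]; exact Nat.lt_floor_add_one _
  have hsplit := nh_kkl_split hp0 hp1 hf m
  rw [← hV, ← hI, ← hσ] at hsplit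
  -- first term
  have hG : (2 / σ) ^ m ≤ Real.exp (ℓ / 2) := by
    rw [nc_gamma_pow hσ0 m]
    apply Real.exp_le_exp.mpr
    rw [le_div_iff₀ (by positivity)] at hm1
    have : (m : ℝ) * κ ≤ ℓ / 2 := by linarith
    exact this
  have hN : (n : ℝ) ^ 2 / 4 ≤ Fintype.card (HyperedgeSlot n 2) := nh_card_two hn
  have hgoal : False := by
    have hNpos : (0 : ℝ) < Fintype.card (HyperedgeSlot n 2) :=
      lt_of_lt_of_le (by positivity) hN
    have hIle : I ≤ ℓ ^ 2 / 2 ^ 17 * V := hcon.le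
    have hsqrt : Real.sqrt (I / Fintype.card (HyperedgeSlot n 2)) ≤ ℓ / (256 * n) := by
      rw [Real.sqrt_le_iff]
      refine ⟨by positivity, ?_⟩
      rw [div_le_iff₀ hNpos]
      have h1 : (ℓ / (256 * n)) ^ 2 * ((n : ℝ) ^ 2 / 4) ≤
          (ℓ / (256 * n)) ^ 2 * Fintype.card (HyperedgeSlot n 2) :=
        mul_le_mul_of_nonneg_left hN (by positivity)
      have e : (ℓ / (256 * n)) ^ 2 * ((n : ℝ) ^ 2 / 4) = ℓ ^ 2 / 2 ^ 18 := by
        field_simp
        norm_num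
      have h2 : ℓ ^ 2 / 2 ^ 17 * V ≤ ℓ ^ 2 / 2 ^ 17 * (1 / 4) :=
        mul_le_mul_of_nonneg_left hV1 (by positivity)
      have h3 : ℓ ^ 2 / 2 ^ 17 * (1 / 4 : ℝ) ≤ ℓ ^ 2 / 2 ^ 18 := by
        have e' : ℓ ^ 2 / 2 ^ 17 * (1 / 4 : ℝ) = ℓ ^ 2 / 2 ^ 19 := by ring
        rw [e']
        apply div_le_div_of_nonneg_left (by positivity) (by norm_num) (by norm_num)
      linarith
    have hσ2 : σ ^ 2 ≤ 1 := by
      have : σ ≤ 1 := by linarith
      exact pow_le_one₀ hσ0.le this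
    have hexp : ℓ ^ 3 ≤ 48 * Real.exp (ℓ / 2) := by
      have h1 := Real.pow_div_factorial_le_exp (ℓ / 2) (by positivity) 3
      have e : (3 : ℕ).factorial = 6 := rfl
      rw [e] at h1
      have e2 : (ℓ / 2) ^ 3 / ((6 : ℕ) : ℝ) = ℓ ^ 3 / 48 := by
        push_cast
        ring
      rw [e2] at h1
      linarith
    have hexp2 : Real.exp (ℓ / 2) * Real.exp (ℓ / 2) = n := by
      rw [← Real.exp_add, ← hnexp]
      congr 1
      ring
    have hT1 : (2 / σ) ^ m * (σ ^ 2 * (Real.sqrt (I / Fintype.card (HyperedgeSlot n 2)) * I))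
        ≤ V / 1000 := by
      have h0 : 0 ≤ Real.sqrt (I / Fintype.card (HyperedgeSlot n 2)) := Real.sqrt_nonneg _
      have h1 : (2 / σ) ^ m * (σ ^ 2 * (Real.sqrt (I / Fintype.card (HyperedgeSlot n 2)) * I))
          ≤ Real.exp (ℓ / 2) * (1 * ((ℓ / (256 * n)) * (ℓ ^ 2 / 2 ^ 17 * V))) := by
        gcongr
      refine h1.trans ?_
      have hEpos : 0 < Real.exp (ℓ / 2) := Real.exp_pos _
      have hnpos : (0 : ℝ) < n := by linarith
      have e : Real.exp (ℓ / 2) * (1 * ((ℓ / (256 * n)) * (ℓ ^ 2 / 2 ^ 17 * V)))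
          = V * (ℓ ^ 3 * (Real.exp (ℓ / 2) / n)) / (256 * 2 ^ 17) := by
        field_simp
      rw [e]
      have e2 : Real.exp (ℓ / 2) / n = 1 / Real.exp (ℓ / 2) := by
        rw [← hexp2]
        field_simp
      rw [e2]
      have h2 : ℓ ^ 3 * (1 / Real.exp (ℓ / 2)) ≤ 48 := by
        rw [mul_one_div, div_le_iff₀ hEpos]
        exact hexp
      have h3 : V * (ℓ ^ 3 * (1 / Real.exp (ℓ / 2))) ≤ V * 48 :=
        mul_le_mul_of_nonneg_left h2 hV0.le
      rw [div_le_iff₀ (by norm_num)]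
      nlinarith
    have hT2 : σ ^ 2 * I / ((m : ℝ) + 1) ≤ 43 / 100 * V := by
      have hu : (0 : ℝ) < (m : ℝ) + 1 := by positivity
      rw [div_le_iff₀ hu]
      rw [div_lt_iff₀ (by positivity)] at hm2
      have h1 : σ ^ 2 * I ≤ σ ^ 2 * (ℓ ^ 2 / 2 ^ 17 * V) :=
        mul_le_mul_of_nonneg_left hIle (by positivity)
      have h2 : σ ^ 2 * κ ≤ 7 / 20 := by
        have e : σ ^ 2 * κ = σ * (σ * κ) := by ring
        rw [e]
        have : σ * (σ * κ) ≤ 1 / 2 * (7 / 10) :=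
          mul_le_mul hσ1 hκσ (by positivity) (by norm_num)
        linarith
      have h3 : σ ^ 2 * ℓ ≤ σ ^ 2 * (((m : ℝ) + 1) * (2 * κ)) :=
        mul_le_mul_of_nonneg_left hm2.le (by positivity)
      have h4 : σ ^ 2 * (((m : ℝ) + 1) * (2 * κ)) = 2 * (σ ^ 2 * κ) * ((m : ℝ) + 1) := by ring
      have h5 : σ ^ 2 * ℓ ≤ 7 / 10 * ((m : ℝ) + 1) := by
        have : 2 * (σ ^ 2 * κ) * ((m : ℝ) + 1) ≤ 2 * (7 / 20) * ((m : ℝ) + 1) := by gcongr
        linarith
      have h6 : σ ^ 2 * (ℓ ^ 2 / 2 ^ 17 * V) = (σ ^ 2 * ℓ) * (ℓ * V / 2 ^ 17) := by ring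
      have h7 : (σ ^ 2 * ℓ) * (ℓ * V / 2 ^ 17) ≤ (7 / 10 * ((m : ℝ) + 1)) * (ℓ * V / 2 ^ 17) :=
        mul_le_mul_of_nonneg_right h5 (by positivity)
      have h8 : ℓ * V ≤ 80000 * V := mul_le_mul_of_nonneg_right hℓ.le hV0.le
      have h9 : (7 / 10 * ((m : ℝ) + 1)) * (ℓ * V / 2 ^ 17) ≤
          (7 / 10 * ((m : ℝ) + 1)) * (80000 * V / 2 ^ 17) := by
        gcongr
      have h10 : (7 / 10 * ((m : ℝ) + 1)) * (80000 * V / 2 ^ 17) ≤ 43 / 100 * V * ((m : ℝ) + 1) := by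
        have e : (7 / 10 * ((m : ℝ) + 1)) * (80000 * V / 2 ^ 17)
            = (7 / 10 * (80000 / 2 ^ 17)) * (V * ((m : ℝ) + 1)) := by ring
        have e' : 43 / 100 * V * ((m : ℝ) + 1) = 43 / 100 * (V * ((m : ℝ) + 1)) := by ring
        rw [e, e']
        apply mul_le_mul_of_nonneg_right _ (by positivity)
        norm_num
      linarith
    linarith
  exact hgoal

/-- `r = 2` with the explicit constant. -/
theorem influence_two {n : ℕ} (hn : 2 ≤ n) {p : ℝ} (hp0 : 0 < p) (hp1 : p < 1)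
    {f : (HyperedgeSlot n 2 → Bool) → Bool} (hf : IsSymmetric f) :
    Real.log n ^ 2 / 2 ^ 17 * (ex p (bv f) * (1 - ex p (bv f))) ≤ totInf p f := by
  by_cases hℓ : Real.log n < 80000
  · exact nh_kkl hn hp0 hp1 hf hℓ
  · push Not at hℓ
    have hℓ0 : 0 < Real.log n := by linarith
    refine nh_main le_rfl hn hp0 hp1 hf (by positivity) hℓ ?_ le_rfl ?_
    · push_cast
      linarith
    · have hσ0 := sig_pos hp0 hp1
      have e1 : (3 * ((2 : ℕ) : ℝ) * sig p ^ 2 * (Real.log n ^ 2 / 2 ^ 17)) ^ (2 - 1)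
          = (sig p * Real.log n) ^ 2 * (6 / 2 ^ 17) := by
        push_cast
        norm_num
        ring
      have e2 : (sig p * Real.log n / 147) ^ 2 = (sig p * Real.log n) ^ 2 * (1 / 147 ^ 2) := by
        ring
      rw [e1, e2]
      apply mul_le_mul_of_nonneg_left _ (by positivity)
      norm_num

end Crest.Agent.BK
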