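/-
Row 56: Russo–Margulis formula and the logit ODE (Step 9).
-/
import Crest.Agent.Lib.BK.Basic

set_option autoImplicit false
set_option linter.unusedSectionVars false
set_option linter.unusedVariables false

namespace Crest.Agent.BK

open Finset

variable {ι : Type*} [Fintype ι] [DecidableEq ι] {p : ℝ}

/-- Sign of a coordinate: the derivative of `w1 p b` in `p`. -/
noncomputable def s1 (b : Bool) : ℝ := if b then 1 else -1

lemma hasDerivAt_w1 (b : Bool) (p : ℝ) : HasDerivAt (fun q => w1 q b) (s1 b) p := by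
  cases b
  · simpa [w1, s1] using (hasDerivAt_id' p).const_sub 1
  · simpa [w1, s1] using hasDerivAt_id' p

/-- Derivative of a single weight. -/
lemma hasDerivAt_weight (x : ι → Bool) (p : ℝ) :
    HasDerivAt (fun q => Crest.FinProb.bernoulliWeight q x)
      (∑ u, (∏ j ∈ univ.erase u, w1 p (x j)) * s1 (x u)) p := by
  have h := HasDerivAt.fun_finsetProd (u := (univ : Finset ι)) (f := fun i q => w1 q (x i))
    (f' := fun i => s1 (x i)) (x := p) (fun i _ => hasDerivAt_w1 (x i) p)
  simpa [weight_eq] using h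

lemma w1_ne (hp0 : 0 < p) (hp1 : p < 1) (b : Bool) : w1 p b ≠ 0 := by
  cases b
  · simp only [w1, Bool.false_eq_true, if_false]; linarith
  · simp only [w1, if_true]; linarith

/-- One coordinate of the derivative. -/
lemma sum_prod_erase (hp0 : 0 < p) (hp1 : p < 1) (g : (ι → Bool) → ℝ) (u : ι) :
    ∑ x : ι → Bool, (∏ j ∈ univ.erase u, w1 p (x j)) * s1 (x u) * g x = ex p (deriv1 g u) := by
  have h1 : ∑ x : ι → Bool, (∏ j ∈ univ.erase u, w1 p (x j)) * s1 (x u) * g x
      = ex p (fun x => s1 (x u) / w1 p (x u) * g x) := by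
    unfold ex
    refine Finset.sum_congr rfl fun x _ => ?_
    rw [weight_eq, ← Finset.mul_prod_erase Finset.univ _ (Finset.mem_univ u)]
    have := w1_ne hp0 hp1 (x u)
    field_simp
  rw [h1, ex_update hp0 hp1]
  unfold ex
  refine Finset.sum_congr rfl fun x _ => ?_
  congr 1
  have key : ∀ a b : ι → Bool, a u = true → b u = false →
      p * (s1 (a u) / w1 p (a u) * g a) + (1 - p) * (s1 (b u) / w1 p (b u) * g b) = g a - g b := by
    intro a b ha hb
    rw [ha, hb]
    simp only [s1, w1, if_true, Bool.false_eq_true, if_false]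
    have h1p : (1 - p) ≠ 0 := by linarith
    have hp : p ≠ 0 := hp0.ne'
    field_simp
    ring
  exact key _ _ (Function.update_self ..) (Function.update_self ..)

/-- The Russo–Margulis formula for general real functions. -/
lemma hasDerivAt_ex (hp0 : 0 < p) (hp1 : p < 1) (g : (ι → Bool) → ℝ) :
    HasDerivAt (fun q => ex q g) (∑ u, ex p (deriv1 g u)) p := by
  have h : HasDerivAt (fun q => ∑ x : ι → Bool, Crest.FinProb.bernoulliWeight q x * g x)
      (∑ x : ι → Bool, (∑ u, (∏ j ∈ univ.erase u, w1 p (x j)) * s1 (x u)) * g x) p := by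
    refine HasDerivAt.fun_sum fun x _ => ?_
    exact (hasDerivAt_weight x p).mul_const (g x)
  have e : (∑ x : ι → Bool, (∑ u, (∏ j ∈ univ.erase u, w1 p (x j)) * s1 (x u)) * g x)
      = ∑ u, ex p (deriv1 g u) := by
    simp_rw [Finset.sum_mul]
    rw [Finset.sum_comm]
    exact Finset.sum_congr rfl fun u _ => sum_prod_erase hp0 hp1 g u
  rw [e] at h
  exact h

/-- Monotone Boolean functions. -/
def MonoB (f : (ι → Bool) → Bool) : Prop :=
  ∀ x y : ι → Bool, (∀ i, x i = true → y i = true) → f x = true → f y = true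

lemma deriv1_bv (f : (ι → Bool) → Bool) (hf : MonoB f) (u : ι) (x : ι → Bool) :
    deriv1 (bv f) u x = ind (f (Function.update x u true) ≠ f (Function.update x u false)) := by
  have hmono : f (Function.update x u false) = true → f (Function.update x u true) = true := by
    refine hf _ _ fun i hi => ?_
    by_cases h : i = u
    · subst h; simp
    · rw [Function.update_of_ne h] at hi ⊢; exact hi
  unfold deriv1 bv
  cases h1 : f (Function.update x u true) <;> cases h0 : f (Function.update x u false)
  · simp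
  · simp [h1, h0] at hmono
  · simp
  · simp

/-- Russo–Margulis: for monotone `f`, the derivative of `μ` is the total pivotal influence. -/
theorem russo (hp0 : 0 < p) (hp1 : p < 1) (f : (ι → Bool) → Bool) (hf : MonoB f) :
    HasDerivAt (fun q => ex q (bv f)) (totInf p f) p := by
  have h := hasDerivAt_ex hp0 hp1 (bv f)
  have e : ∑ u, ex p (deriv1 (bv f) u) = totInf p f := by
    unfold totInf piv
    refine Finset.sum_congr rfl fun u _ => ?_
    congr 1
    funext x
    exact deriv1_bv f hf u x
  rwa [e] at h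

/-- The logit ODE: if `c μ (1-μ) ≤ μ'` on `[a,b]` with `0 < μ < 1`, the logit grows at least
linearly. -/
theorem logit_growth {μ μ' : ℝ → ℝ} {a b c : ℝ} (hab : a ≤ b)
    (hd : ∀ t ∈ Set.Icc a b, HasDerivAt μ (μ' t) t)
    (h01 : ∀ t ∈ Set.Icc a b, 0 < μ t ∧ μ t < 1)
    (hc : ∀ t ∈ Set.Icc a b, c * (μ t * (1 - μ t)) ≤ μ' t) :
    c * (b - a) + (Real.log (μ a) - Real.log (1 - μ a)) ≤ Real.log (μ b) - Real.log (1 - μ b) := by
  -- F t = log μ - log (1-μ) - c t has nonnegative derivative
  set F : ℝ → ℝ := fun t => Real.log (μ t) - Real.log (1 - μ t) - c * t with hF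
  have hFd : ∀ t ∈ Set.Icc a b,
      HasDerivAt F (μ' t / μ t - (- μ' t) / (1 - μ t) - c * 1) t := by
    intro t ht
    obtain ⟨h0, h1⟩ := h01 t ht
    have h2 : HasDerivAt (fun t => 1 - μ t) (- μ' t) t := (hd t ht).const_sub 1
    exact ((hd t ht).log h0.ne').sub (h2.log (by linarith)) |>.sub ((hasDerivAt_id' t).const_mul c)
  have hFn : ∀ t ∈ Set.Icc a b, 0 ≤ μ' t / μ t - (- μ' t) / (1 - μ t) - c * 1 := by
    intro t ht
    obtain ⟨h0, h1⟩ := h01 t ht
    have h3 : 0 < 1 - μ t := by linarith
    have h4 := hc t ht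
    have : μ' t / μ t - (- μ' t) / (1 - μ t) - c * 1 = (μ' t - c * (μ t * (1 - μ t))) / (μ t * (1 - μ t)) := by
      field_simp
      ring
    rw [this]
    exact div_nonneg (by linarith) (mul_pos h0 h3).le
  have hmono : MonotoneOn F (Set.Icc a b) := by
    refine monotoneOn_of_deriv_nonneg (convex_Icc a b) ?_ ?_ ?_
    · exact fun t ht => (hFd t ht).continuousAt.continuousWithinAt
    · intro t ht
      exact (hFd t (interior_subset ht)).differentiableAt.differentiableWithinAt
    · intro t ht
      rw [(hFd t (interior_subset ht)).deriv]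
      exact hFn t (interior_subset ht)
  have := hmono (Set.left_mem_Icc.mpr hab) (Set.right_mem_Icc.mpr hab) hab
  simp only [hF] at this
  nlinarith

end Crest.Agent.BK
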