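/-
Row 56: transport of graph properties to Boolean functions on 2-slots, and the threshold ODE.
-/
import Crest.Agent.Lib.BK.Russo
import Crest.Prelude.Def_RandomGraph

set_option autoImplicit false
set_option linter.unusedSectionVars false
set_option linter.unusedVariables false

namespace Crest.Agent.BK

open Finset Crest.CombinatoricsR.HypergraphCube Crest.CombinatoricsR.RandomGraph

section Core
variable {ι : Type*} [Fintype ι] [DecidableEq ι]

lemma ex_zero_bv (f : (ι → Bool) → Bool) (h : f (fun _ => false) = false) :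
    ex 0 (bv f) = 0 := by
  unfold ex
  refine Finset.sum_eq_zero fun x _ => ?_
  by_cases hx : x = fun _ => false
  · subst hx; simp [bv, h]
  · have : ∃ i, x i = true := by
      by_contra hc
      push Not at hc
      exact hx (funext fun i => by simpa using hc i)
    obtain ⟨i, hi⟩ := this
    have : Crest.FinProb.bernoulliWeight (0 : ℝ) x = 0 := by
      unfold Crest.FinProb.bernoulliWeight
      exact Finset.prod_eq_zero (Finset.mem_univ i) (by simp [hi])
    rw [this, zero_mul]

lemma ex_one_bv (f : (ι → Bool) → Bool) (h : f (fun _ => true) = true) :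
    ex 1 (bv f) = 1 := by
  unfold ex
  rw [Finset.sum_eq_single (fun _ => true)]
  · simp [bv, h, Crest.FinProb.bernoulliWeight]
  · intro x _ hx
    have : ∃ i, x i = false := by
      by_contra hc
      push Not at hc
      exact hx (funext fun i => by simpa using hc i)
    obtain ⟨i, hi⟩ := this
    have : Crest.FinProb.bernoulliWeight (1 : ℝ) x = 0 := by
      unfold Crest.FinProb.bernoulliWeight
      exact Finset.prod_eq_zero (Finset.mem_univ i) (by simp [hi])
    rw [this, zero_mul]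
  · intro h; exact absurd (Finset.mem_univ _) h

lemma ex_bv_pos {p : ℝ} (hp0 : 0 < p) (hp1 : p < 1) (f : (ι → Bool) → Bool)
    (h : f (fun _ => true) = true) : 0 < ex p (bv f) := by
  unfold ex
  refine Finset.sum_pos' (fun x _ => mul_nonneg (weight_pos hp0 hp1 x).le (ind_nonneg _)) ?_
  exact ⟨fun _ => true, Finset.mem_univ _, mul_pos (weight_pos hp0 hp1 _) (by simp [bv, h])⟩

lemma ex_bv_lt {p : ℝ} (hp0 : 0 < p) (hp1 : p < 1) (f : (ι → Bool) → Bool)
    (h : f (fun _ => false) = false) : ex p (bv f) < 1 := by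
  have h1 : ∑ x : ι → Bool, Crest.FinProb.bernoulliWeight p x = 1 := sum_weight' hp0 hp1
  have h2 : 0 < ∑ x : ι → Bool, Crest.FinProb.bernoulliWeight p x * (1 - bv f x) := by
    refine Finset.sum_pos' (fun x _ => mul_nonneg (weight_pos hp0 hp1 x).le ?_) ?_
    · have := ind_le_one (f x = true)
      simpa [bv] using this
    · exact ⟨fun _ => false, Finset.mem_univ _, mul_pos (weight_pos hp0 hp1 _) (by simp [bv, h])⟩
  unfold ex
  have h3 : ∑ x : ι → Bool, Crest.FinProb.bernoulliWeight p x * (1 - bv f x)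
      = 1 - ∑ x : ι → Bool, Crest.FinProb.bernoulliWeight p x * bv f x := by
    simp_rw [mul_sub, mul_one]
    rw [Finset.sum_sub_distrib, h1]
  linarith

/-- The threshold ODE for a monotone Boolean function. -/
theorem threshold_core (f : (ι → Bool) → Bool) (hf : MonoB f)
    (htop : f (fun _ => true) = true) (hbot : f (fun _ => false) = false)
    {c : ℝ} (hc0 : 0 < c)
    (hI : ∀ p : ℝ, 0 < p → p < 1 → c * (ex p (bv f) * (1 - ex p (bv f))) ≤ totInf p f)
    {ε : ℝ} (hε0 : 0 < ε) (hε : ε < 1 / 2) {p q : ℝ} (hp0 : 0 ≤ p) (hq1 : q ≤ 1)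
    (hp : ε ≤ ex p (bv f)) (hq : p + 4 / c * Real.log (1 / (2 * ε)) ≤ q) :
    1 - ε ≤ ex q (bv f) := by
  have hlog : 0 < Real.log (1 / (2 * ε)) := by
    apply Real.log_pos
    rw [lt_div_iff₀ (by positivity)]
    linarith
  have hpq : p < q := by
    have : 0 < 4 / c * Real.log (1 / (2 * ε)) := by positivity
    linarith
  rcases hq1.eq_or_lt with rfl | hq1'
  · rw [ex_one_bv f htop]; linarith
  rcases hp0.eq_or_lt with rfl | hp0'
  · rw [ex_zero_bv f hbot] at hp; linarith
  have hsub : ∀ t ∈ Set.Icc p q, 0 < t ∧ t < 1 := fun t ht =>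
    ⟨lt_of_lt_of_le hp0' ht.1, lt_of_le_of_lt ht.2 hq1'⟩
  have hgrow := logit_growth (μ := fun t => ex t (bv f)) (μ' := fun t => totInf t f)
    (a := p) (b := q) (c := c) hpq.le
    (fun t ht => russo (hsub t ht).1 (hsub t ht).2 f hf)
    (fun t ht => ⟨ex_bv_pos (hsub t ht).1 (hsub t ht).2 f htop,
      ex_bv_lt (hsub t ht).1 (hsub t ht).2 f hbot⟩)
    (fun t ht => hI t (hsub t ht).1 (hsub t ht).2)
  have hμq0 := ex_bv_pos hp0' (lt_trans hpq hq1') f htop
  have hμq1 := ex_bv_lt hp0' (lt_trans hpq hq1') f hbot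
  have hμr0 := ex_bv_pos (lt_trans hp0' hpq) hq1' f htop
  have hμr1 := ex_bv_lt (lt_trans hp0' hpq) hq1' f hbot
  set a := ex p (bv f) with ha
  set b := ex q (bv f) with hb
  -- logit a ≥ logit ε
  have h1 : Real.log ε - Real.log (1 - ε) ≤ Real.log a - Real.log (1 - a) := by
    have e1 : Real.log ε ≤ Real.log a := Real.log_le_log hε0 hp
    have e2 : Real.log (1 - a) ≤ Real.log (1 - ε) := Real.log_le_log (by linarith) (by linarith)
    linarith
  -- c (q - p) ≥ 4 log (1/(2ε))
  have h2 : 4 * Real.log (1 / (2 * ε)) ≤ c * (q - p) := by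
    have : 4 / c * Real.log (1 / (2 * ε)) ≤ q - p := by linarith
    calc 4 * Real.log (1 / (2 * ε)) = c * (4 / c * Real.log (1 / (2 * ε))) := by field_simp
      _ ≤ c * (q - p) := by exact mul_le_mul_of_nonneg_left this hc0.le
  -- 2 log(1/(2ε)) ≥ log((1-ε)/ε)
  have h3 : Real.log (1 - ε) - Real.log ε ≤ 2 * Real.log (1 / (2 * ε)) := by
    have e1 : Real.log (1 - ε) - Real.log ε = Real.log ((1 - ε) / ε) :=
      (Real.log_div (by linarith) hε0.ne').symm
    have e2 : 2 * Real.log (1 / (2 * ε)) = Real.log ((1 / (2 * ε)) ^ 2) := by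
      rw [Real.log_pow]; norm_num
    rw [e1, e2]
    apply Real.log_le_log (div_pos (by linarith) hε0)
    rw [div_pow, div_le_div_iff₀ hε0 (by positivity)]
    nlinarith [sq_nonneg (2 * ε - 1), sq_nonneg ε, mul_pos hε0 hε0]
  -- conclude
  have h4 : Real.log (1 - ε) - Real.log ε ≤ Real.log b - Real.log (1 - b) := by linarith
  by_contra hcon
  push Not at hcon
  have e1 : Real.log b < Real.log (1 - ε) := Real.log_lt_log hμr0 hcon
  have e2 : Real.log ε < Real.log (1 - b) := Real.log_lt_log hε0 (by linarith)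
  linarith

end Core

section Transport
variable {n : ℕ}

/-- Unordered pair ↦ `2`-set. -/
def slotFun (z : EdgeSlot n) : HyperedgeSlot n 2 :=
  ⟨z.1.toFinset, Sym2.card_toFinset_of_not_isDiag z.1 z.2⟩

lemma slotFun_bijective : Function.Bijective (slotFun (n := n)) := by
  constructor
  · intro a b h
    apply Subtype.ext
    have h' : a.1.toFinset = b.1.toFinset := congrArg Subtype.val h
    ext x
    rw [← Sym2.mem_toFinset, ← Sym2.mem_toFinset, h']
  · rintro ⟨s, hs⟩
    obtain ⟨a, b, hab, rfl⟩ := Finset.card_eq_two.mp hs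
    refine ⟨⟨s(a, b), by simpa using hab⟩, ?_⟩
    apply Subtype.ext
    exact Sym2.toFinset_mk_eq

/-- The equivalence of the two slot types. -/
noncomputable def slotEquiv : EdgeSlot n ≃ HyperedgeSlot n 2 :=
  Equiv.ofBijective slotFun slotFun_bijective

/-- The graph of a hypergraph outcome. -/
def graphOfSlot (x : HyperedgeSlot n 2 → Bool) : SimpleGraph (Fin n) :=
  graphOf (fun z => x (slotFun z))

lemma graphOfSlot_adj (x : HyperedgeSlot n 2 → Bool) (i j : Fin n) :
    (graphOfSlot x).Adj i j ↔ ∃ h : i ≠ j, x ⟨{i, j}, Finset.card_pair h⟩ = true := by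
  unfold graphOfSlot graphOf
  rw [SimpleGraph.fromEdgeSet_adj]
  constructor
  · rintro ⟨⟨h, hx⟩, hij⟩
    refine ⟨hij, ?_⟩
    have : slotFun (⟨s(i, j), h⟩ : EdgeSlot n) = ⟨{i, j}, Finset.card_pair hij⟩ :=
      Subtype.ext Sym2.toFinset_mk_eq
    simp only [this] at hx
    exact hx
  · rintro ⟨hij, hx⟩
    have h : ¬ (s(i, j) : Sym2 (Fin n)).IsDiag := by simpa using hij
    refine ⟨⟨h, ?_⟩, hij⟩
    have : slotFun (⟨s(i, j), h⟩ : EdgeSlot n) = ⟨{i, j}, Finset.card_pair hij⟩ :=
      Subtype.ext Sym2.toFinset_mk_eq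
    simp only [this]
    exact hx

open Classical in
/-- The Boolean function of a graph property. -/
noncomputable def fOf (P : Set (SimpleGraph (Fin n))) (x : HyperedgeSlot n 2 → Bool) : Bool :=
  decide (graphOfSlot x ∈ P)

lemma fOf_eq_true (P : Set (SimpleGraph (Fin n))) (x : HyperedgeSlot n 2 → Bool) :
    fOf P x = true ↔ graphOfSlot x ∈ P := by
  simp [fOf]

lemma gnpProb_eq (P : Set (SimpleGraph (Fin n))) (p : ℝ) :
    gnpProb n p P = ex p (bv (fOf P)) := by
  classical
  unfold gnpProb Crest.FinProb.bernoulliProb ex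
  rw [Finset.sum_filter]
  let e : (HyperedgeSlot n 2 → Bool) ≃ (EdgeSlot n → Bool) :=
    Equiv.arrowCongr (slotEquiv (n := n)).symm (Equiv.refl _)
  have he : ∀ x z, e x z = x (slotFun z) := fun x z => rfl
  rw [← Equiv.sum_comp e]
  refine Finset.sum_congr rfl fun x _ => ?_
  have hw : Crest.FinProb.bernoulliWeight p (e x) = Crest.FinProb.bernoulliWeight p x := by
    unfold Crest.FinProb.bernoulliWeight
    have := Equiv.prod_comp (slotEquiv (n := n)) (fun s => if x s then p else 1 - p)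
    exact this
  have hg : graphOf (e x) = graphOfSlot x := rfl
  by_cases hx : graphOfSlot x ∈ P
  · have h1 : (e x) ∈ {ω : EdgeSlot n → Bool | graphOf ω ∈ P} := by
      show graphOf (e x) ∈ P
      rwa [hg]
    have h2 : fOf P x = true := (fOf_eq_true P x).mpr hx
    have h3 : bv (fOf P) x = 1 := by simp [bv, h2]
    rw [if_pos h1, h3, mul_one, hw]
  · have h1 : (e x) ∉ {ω : EdgeSlot n → Bool | graphOf ω ∈ P} := by
      show graphOf (e x) ∉ P
      rwa [hg]
    have h2 : ¬ fOf P x = true := fun h => hx ((fOf_eq_true P x).mp h)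
    have h3 : bv (fOf P) x = 0 := by simp [bv, h2]
    rw [if_neg h1, h3, mul_zero]

lemma fOf_mono (P : Set (SimpleGraph (Fin n)))
    (hmono : ∀ G G' : SimpleGraph (Fin n), G ≤ G' → G ∈ P → G' ∈ P) : MonoB (fOf P) := by
  intro x y hxy hx
  rw [fOf_eq_true] at hx ⊢
  refine hmono _ _ ?_ hx
  intro i j hij
  rw [graphOfSlot_adj] at hij ⊢
  obtain ⟨h, hx⟩ := hij
  exact ⟨h, hxy _ hx⟩

lemma relabelSlot_pair (σ : Equiv.Perm (Fin n)) {i j : Fin n} (h : i ≠ j) :
    relabelSlot σ (⟨{i, j}, Finset.card_pair h⟩ : HyperedgeSlot n 2)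
      = ⟨{σ i, σ j}, Finset.card_pair (fun e => h (σ.injective e))⟩ := by
  apply Subtype.ext
  simp [relabelSlot, Finset.map_insert]

lemma graphOfSlot_relabel_adj (σ : Equiv.Perm (Fin n)) (x : HyperedgeSlot n 2 → Bool) (i j : Fin n) :
    (graphOfSlot (relabel σ x)).Adj i j ↔ (graphOfSlot x).Adj (σ i) (σ j) := by
  rw [graphOfSlot_adj, graphOfSlot_adj]
  constructor
  · rintro ⟨h, hx⟩
    refine ⟨fun e => h (σ.injective e), ?_⟩
    have := relabelSlot_pair σ h
    simp only [relabel] at hx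
    rwa [this] at hx
  · rintro ⟨h, hx⟩
    have h' : i ≠ j := fun e => h (congrArg σ e)
    refine ⟨h', ?_⟩
    simp only [relabel]
    rwa [relabelSlot_pair σ h']

lemma fOf_symm (P : Set (SimpleGraph (Fin n)))
    (hsymm : ∀ σ : Equiv.Perm (Fin n), ∀ G : SimpleGraph (Fin n), G ∈ P → G.map σ.toEmbedding ∈ P) :
    IsSymmetric (fOf P) := by
  intro σ x
  -- both directions from `hsymm`
  have h1 : graphOfSlot x = (graphOfSlot (relabel σ x)).map σ.toEmbedding := by
    ext i j
    rw [SimpleGraph.map_adj]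
    constructor
    · intro h
      refine ⟨σ.symm i, σ.symm j, ?_, by simp, by simp⟩
      rw [graphOfSlot_relabel_adj]
      simpa using h
    · rintro ⟨a, b, h, rfl, rfl⟩
      rw [graphOfSlot_relabel_adj] at h
      exact h
  have h2 : graphOfSlot (relabel σ x) = (graphOfSlot x).map σ.symm.toEmbedding := by
    ext i j
    rw [SimpleGraph.map_adj]
    constructor
    · intro h
      refine ⟨σ i, σ j, ?_, by simp, by simp⟩
      rw [graphOfSlot_relabel_adj] at h
      exact h
    · rintro ⟨a, b, h, rfl, rfl⟩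
      rw [graphOfSlot_relabel_adj]
      simpa using h
  have : graphOfSlot (relabel σ x) ∈ P ↔ graphOfSlot x ∈ P := by
    constructor
    · intro h; rw [h1]; exact hsymm _ _ h
    · intro h; rw [h2]; exact hsymm _ _ h
  simp [fOf, this]

lemma graphOfSlot_true : graphOfSlot (fun _ : HyperedgeSlot n 2 => true) = ⊤ := by
  ext i j
  rw [graphOfSlot_adj, SimpleGraph.top_adj]
  constructor
  · rintro ⟨h, _⟩; exact h
  · intro h; exact ⟨h, rfl⟩

lemma graphOfSlot_false : graphOfSlot (fun _ : HyperedgeSlot n 2 => false) = ⊥ := by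
  ext i j
  rw [graphOfSlot_adj]
  simp

/-- `S0077` from the influence inequality at `r = 2`. -/
theorem s0077_of_influence_two
    (h2 : ∀ {n : ℕ}, 2 ≤ n → ∀ {p : ℝ}, 0 < p → p < 1 →
      ∀ {f : (HyperedgeSlot n 2 → Bool) → Bool}, IsSymmetric f →
      Real.log n ^ 2 / 2 ^ 17 * (ex p (bv f) * (1 - ex p (bv f))) ≤ totInf p f)
    (n : ℕ) (hn : 2 ≤ n)
    (P : Set (SimpleGraph (Fin n)))
    (hsymm : ∀ σ : Equiv.Perm (Fin n), ∀ G : SimpleGraph (Fin n), G ∈ P → G.map σ.toEmbedding ∈ P)
    (hmono : ∀ G G' : SimpleGraph (Fin n), G ≤ G' → G ∈ P → G' ∈ P)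
    (hne : P.Nonempty) (hnu : P ≠ Set.univ) (ε : ℝ) (hε0 : 0 < ε) (hε : ε < 1 / 2)
    (p q : ℝ) (hp0 : 0 ≤ p) (hp1 : p ≤ 1) (hq0 : 0 ≤ q) (hq1 : q ≤ 1)
    (hp : ε ≤ Crest.CombinatoricsR.RandomGraph.gnpProb n p P)
    (hq : p + 2 ^ 19 / Real.log n ^ 2 * Real.log (1 / (2 * ε)) ≤ q) :
    1 - ε ≤ Crest.CombinatoricsR.RandomGraph.gnpProb n q P := by
  have hlog : 0 < Real.log n := Real.log_pos (by exact_mod_cast (by omega : 1 < n))
  have htop : fOf P (fun _ => true) = true := by
    rw [fOf_eq_true, graphOfSlot_true]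
    obtain ⟨G, hG⟩ := hne
    exact hmono G ⊤ le_top hG
  have hbot : fOf P (fun _ => false) = false := by
    have : ¬ fOf P (fun _ => false) = true := by
      rw [fOf_eq_true, graphOfSlot_false]
      intro hb
      apply hnu
      ext G
      simp only [Set.mem_univ, iff_true]
      exact hmono ⊥ G bot_le hb
    simpa using this
  rw [gnpProb_eq] at hp ⊢
  refine threshold_core (fOf P) (fOf_mono P hmono) htop hbot
    (c := Real.log n ^ 2 / 2 ^ 17) (by positivity)
    (fun t ht0 ht1 => h2 hn ht0 ht1 (fOf_symm P hsymm)) hε0 hε hp0 hq1 hp ?_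
  have : 4 / (Real.log n ^ 2 / 2 ^ 17) = (2 : ℝ) ^ 19 / Real.log n ^ 2 := by
    field_simp
    norm_num
  rw [this]
  exact hq

end Transport

end Crest.Agent.BK
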